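import Vale.Agent.P210.R2.H53.StmtMod
import Mathlib.Topology.PartitionOfUnity

/-! [COV]: a metric space with few `T₀`-separated points in balls of radius `R` has a locally
finite family of barycentric coordinates with at most `d + 1` nonzero coordinates at each point
and with fibres of diameter at most `5 R`. -/

set_option linter.all false

open scoped Topology
open Set Metric

namespace Vale.Agent.P210.R2.H912

variable {X : Type} [MetricSpace X]

/-- `r`-separated sets. -/
def Sep (r : ℝ) (S : Set X) : Prop := S.Pairwise fun x y => r ≤ dist x y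

lemma Sep.mono {r : ℝ} {S T : Set X} (h : Sep r T) (hST : S ⊆ T) : Sep r S :=
  Set.Pairwise.mono hST h

lemma Sep.anti {r r' : ℝ} {S : Set X} (h : Sep r S) (hr : r' ≤ r) : Sep r' S :=
  fun x hx y hy hne => hr.trans (h hx hy hne)

/-- maximal separated subsets -/
lemma exists_max_sep {r : ℝ} (hr : 0 < r) (S : Set X) :
    ∃ N : Set X, N ⊆ S ∧ Sep r N ∧ ∀ x ∈ S, ∃ c ∈ N, dist x c < r := by
  obtain ⟨N, hN⟩ := zorn_subset {N : Set X | N ⊆ S ∧ Sep r N} (by
    intro c hc hchain
    refine ⟨⋃₀ c, ⟨?_, ?_⟩, fun s hs => subset_sUnion_of_mem hs⟩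
    · exact sUnion_subset fun s hs => (hc hs).1
    · rintro x ⟨s, hs, hxs⟩ y ⟨t, ht, hyt⟩ hne
      rcases hchain.total hs ht with h | h
      · exact (hc ht).2 (h hxs) hyt hne
      · exact (hc hs).2 hxs (h hyt) hne)
  refine ⟨N, hN.prop.1, hN.prop.2, fun x hx => ?_⟩
  by_contra hcon
  push Not at hcon
  have hxN : x ∉ N := fun h => by
    have := hcon x h
    rw [dist_self] at this
    linarith
  have : insert x N ⊆ N := by
    refine hN.2 ⟨insert_subset hx hN.prop.1, ?_⟩ (subset_insert _ _)
    intro a ha b hb hne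
    rcases ha with rfl | ha <;> rcases hb with rfl | hb
    · exact absurd rfl hne
    · exact hcon b hb
    · show r ≤ dist a b
      rw [dist_comm]
      exact hcon a ha
    · exact hN.prop.2 ha hb hne
  exact hxN (this (mem_insert _ _))

lemma finite_of_card_le {α : Type} {S : Set α} {D : ℕ}
    (h : ∀ F : Finset α, (F : Set α) ⊆ S → F.card ≤ D) : S.Finite := by
  by_contra hcon
  obtain ⟨F, hF, hcard⟩ := (show S.Infinite from hcon).exists_subset_card_eq (D + 1)
  have := h F hF
  omega

/-- the state of the selection of the radii -/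
structure State (C Z : Set X) (T₀ R : ℝ) (J A D m : ℕ) (zb : X → Finset X)
    (U : Set X) (r φ : X → ℝ) : Prop where
  sub : U ⊆ C
  rad : ∀ i ∈ U, R ≤ r i ∧ r i ≤ 2 * R
  one_le : ∀ z, 1 ≤ φ z
  cnt : ∀ z, ∀ F : Finset X, (F : Set X) ⊆ U → (∀ i ∈ F, |dist z i - r i| ≤ 2 * T₀) →
    (J : ℝ) ^ F.card ≤ φ z
  pot : ∀ q, ∑ z ∈ zb q, φ z ≤ (1 + 2 * D) ^ m * A
  deg : ∀ c ∈ C, c ∉ U → ∃ F : Finset X, (F : Set X) ⊆ U ∧ F.card = m ∧ ∀ y ∈ F, dist y c < 6 * R

lemma state_step {C Z : Set X} {T₀ R : ℝ} {J A D m : ℕ} {zb : X → Finset X}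
    (hT : 0 < T₀) (hJ : 2 ≤ J) (hR : 5 * T₀ * J ≤ R)
    (hzb : ∀ q z, z ∈ zb q ↔ z ∈ Z ∧ dist z q ≤ 3 * R) (hsep : Sep R C)
    (hD : ∀ (q : X) (F : Finset X), (∀ x ∈ F, dist x q ≤ 6 * R) → Sep R (F : Set X) → F.card ≤ D)
    {U : Set X} {r φ : X → ℝ} (h : State C Z T₀ R J A D m zb U r φ) :
    ∃ U' r' φ', State C Z T₀ R J A D (m + 1) zb U' r' φ' := by
  classical
  have hJ' : (2 : ℝ) ≤ J := by exact_mod_cast hJ
  have hRT : 10 * T₀ ≤ R := by nlinarith
  have hR0 : 0 < R := by linarith
  obtain ⟨N, hNC, hNsep, hNmax⟩ := exists_max_sep (show 0 < 6 * R by linarith) (C \ U)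
  have hφ0 : ∀ z, 0 ≤ φ z := fun z => zero_le_one.trans (h.one_le z)
  -- choice of the radius of one centre
  have hchoice : ∀ i : X, ∃ j : ℕ, j < J ∧
      ∑ z ∈ zb i, (if |dist z i - (R + 5 * T₀ * j)| ≤ 2 * T₀ then φ z * J else φ z)
        ≤ 2 * ((1 + 2 * D) ^ m * A) := by
    intro i
    have hne : (Finset.range J).Nonempty := ⟨0, by simp; omega⟩
    obtain ⟨j, hj, hle⟩ := Finset.exists_le_of_sum_le (s := Finset.range J) hne
      (f := fun j : ℕ => ∑ z ∈ zb i,
        (if |dist z i - (R + 5 * T₀ * j)| ≤ 2 * T₀ then φ z * J else φ z))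
      (g := fun _ => 2 * ((1 + 2 * (D : ℝ)) ^ m * (A : ℝ))) (by
        rw [Finset.sum_comm, Finset.sum_const, Finset.card_range]
        have key : ∀ z ∈ zb i, ∑ j ∈ Finset.range J,
            (if |dist z i - (R + 5 * T₀ * (j : ℕ))| ≤ 2 * T₀ then φ z * J else φ z)
              ≤ 2 * J * φ z := by
          intro z _
          by_cases hex : ∃ j₀ ∈ Finset.range J, |dist z i - (R + 5 * T₀ * (j₀ : ℕ))| ≤ 2 * T₀
          · obtain ⟨j₀, hj₀, hz₀⟩ := hex
            rw [← Finset.add_sum_erase _ _ hj₀, if_pos hz₀]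
            have h1 : ∑ j ∈ (Finset.range J).erase j₀,
                (if |dist z i - (R + 5 * T₀ * (j : ℕ))| ≤ 2 * T₀ then φ z * J else φ z)
                  = ∑ j ∈ (Finset.range J).erase j₀, φ z := by
              refine Finset.sum_congr rfl fun j hj => ?_
              rw [if_neg]
              intro hz
              have hjne : j ≠ j₀ := Finset.ne_of_mem_erase hj
              rw [abs_le] at hz hz₀
              rcases lt_or_gt_of_ne hjne with hlt | hlt
              · have : (j : ℝ) + 1 ≤ j₀ := by exact_mod_cast hlt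
                nlinarith
              · have : (j₀ : ℝ) + 1 ≤ j := by exact_mod_cast hlt
                nlinarith
            rw [h1, Finset.sum_const, Finset.card_erase_of_mem hj₀, Finset.card_range,
              nsmul_eq_mul]
            have h2 : ((J - 1 : ℕ) : ℝ) ≤ J := by exact_mod_cast Nat.sub_le _ _
            nlinarith [hφ0 z, mul_le_mul_of_nonneg_right h2 (hφ0 z)]
          · push Not at hex
            have h1 : ∑ j ∈ Finset.range J,
                (if |dist z i - (R + 5 * T₀ * (j : ℕ))| ≤ 2 * T₀ then φ z * J else φ z)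
                  = ∑ j ∈ Finset.range J, φ z := by
              refine Finset.sum_congr rfl fun j hj => ?_
              rw [if_neg (not_le.2 (hex j hj))]
            rw [h1, Finset.sum_const, Finset.card_range, nsmul_eq_mul]
            nlinarith [hφ0 z, mul_nonneg (show (0:ℝ) ≤ J by linarith) (hφ0 z)]
        refine (Finset.sum_le_sum key).trans ?_
        rw [← Finset.mul_sum, nsmul_eq_mul]
        have := h.pot i
        nlinarith)
    exact ⟨j, Finset.mem_range.1 hj, hle⟩
  choose jj hjJ hjpot using hchoice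
  set ρ : X → ℝ := fun i => R + 5 * T₀ * jj i with hρ
  have hρ1 : ∀ i, R ≤ ρ i := fun i => by
    have : (0 : ℝ) ≤ jj i := Nat.cast_nonneg _
    simp only [hρ]; nlinarith
  have hρ2 : ∀ i, ρ i ≤ 2 * R := fun i => by
    have : (jj i : ℝ) ≤ J := by exact_mod_cast (hjJ i).le
    simp only [hρ]
    nlinarith
  set hit : X → Prop := fun z => ∃ i ∈ N, |dist z i - ρ i| ≤ 2 * T₀ with hhit
  have hnear : ∀ z i, |dist z i - ρ i| ≤ 2 * T₀ → dist z i < 3 * R := by
    intro z i hz
    rw [abs_le] at hz
    have := hρ2 i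
    linarith
  have huniq : ∀ q i i', i ∈ N → i' ∈ N → dist i q < 3 * R → dist i' q < 3 * R → i = i' := by
    intro q i i' hi hi' h1 h2
    by_contra hne
    have h3 : 6 * R ≤ dist i i' := hNsep hi hi' hne
    have h4 := dist_triangle_right i i' q
    linarith
  have hNfin : ∀ q : X, {i | i ∈ N ∧ dist i q ≤ 6 * R}.Finite := fun q =>
    finite_of_card_le (D := D) fun F hF =>
      hD q F (fun x hx => (hF hx).2) (hsep.mono fun x hx => (hNC (hF hx).1).1)
  set nb : X → Finset X := fun q => (hNfin q).toFinset with hnbdef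
  have hnb : ∀ q i, i ∈ nb q ↔ i ∈ N ∧ dist i q ≤ 6 * R := by
    intro q i
    simp [hnbdef]
  have hnbc : ∀ q, (nb q).card ≤ D := fun q =>
    hD q (nb q) (fun x hx => ((hnb q x).1 hx).2)
      (hsep.mono fun x hx => (hNC ((hnb q x).1 hx).1).1)
  refine ⟨U ∪ N, fun i => if i ∈ N then ρ i else r i,
    fun z => if hit z then φ z * J else φ z, ?_, ?_, ?_, ?_, ?_, ?_⟩
  · exact union_subset h.sub fun x hx => (hNC hx).1
  · intro i hi
    by_cases hiN : i ∈ N
    · simp only [hiN, if_true]
      exact ⟨hρ1 i, hρ2 i⟩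
    · simp only [hiN, if_false]
      exact h.rad i (hi.resolve_right hiN)
  · intro z
    have := h.one_le z
    split_ifs
    · nlinarith
    · exact this
  · intro z F hF hz
    set F₁ := F.filter fun i => i ∉ N with hF₁
    set F₂ := F.filter fun i => i ∈ N with hF₂
    have hcard : F.card = F₁.card + F₂.card := by
      rw [hF₁, hF₂, add_comm, Finset.card_filter_add_card_filter_not]
    have h1 : (J : ℝ) ^ F₁.card ≤ φ z := by
      refine h.cnt z F₁ ?_ ?_
      · intro i hi
        simp only [hF₁, Finset.coe_filter, mem_setOf_eq] at hi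
        exact (hF hi.1).resolve_right hi.2
      · intro i hi
        simp only [hF₁, Finset.mem_filter] at hi
        have := hz i hi.1
        simpa only [hi.2, if_false] using this
    have h2 : F₂.card ≤ 1 := by
      rw [Finset.card_le_one]
      intro a ha b hb
      simp only [hF₂, Finset.mem_filter] at ha hb
      have ha' := hz a ha.1
      have hb' := hz b hb.1
      simp only [ha.2, hb.2, if_true] at ha' hb'
      refine huniq z a b ha.2 hb.2 ?_ ?_
      · rw [dist_comm]; exact hnear z a ha'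
      · rw [dist_comm]; exact hnear z b hb'
    show (J : ℝ) ^ F.card ≤ (if hit z then φ z * J else φ z)
    by_cases hh : hit z
    · rw [if_pos hh, hcard, pow_add]
      refine mul_le_mul h1 ?_ (by positivity) (hφ0 z)
      calc (J : ℝ) ^ F₂.card ≤ (J : ℝ) ^ 1 := pow_le_pow_right₀ (by linarith) h2
        _ = J := pow_one _
    · rw [if_neg hh]
      have : F₂ = ∅ := by
        rw [Finset.eq_empty_iff_forall_notMem]
        intro i hi
        simp only [hF₂, Finset.mem_filter] at hi
        have := hz i hi.1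
        simp only [hi.2, if_true] at this
        exact hh ⟨i, hi.2, this⟩
      rw [hcard, this, Finset.card_empty, add_zero]
      exact h1
  · intro q
    have hA0 : (0 : ℝ) ≤ (1 + 2 * D) ^ m * A := by positivity
    have h1 : ∀ z ∈ zb q, (if hit z then φ z * J else φ z) ≤
        φ z + ∑ i ∈ nb q, (if |dist z i - ρ i| ≤ 2 * T₀ then φ z * J else 0) := by
      intro z hz
      have hnn : ∀ i ∈ nb q, 0 ≤ (if |dist z i - ρ i| ≤ 2 * T₀ then φ z * J else 0) := by
        intro i _
        split_ifs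
        · exact mul_nonneg (hφ0 z) (by linarith)
        · exact le_rfl
      by_cases hh : hit z
      · obtain ⟨i, hi, hz'⟩ := id hh
        have hinb : i ∈ nb q := by
          rw [hnb]
          refine ⟨hi, ?_⟩
          have h2 := hnear z i hz'
          have h3 := ((hzb q z).1 hz).2
          have h4 := dist_triangle_left i q z
          linarith
        have h5 := Finset.single_le_sum hnn hinb
        rw [if_pos hz'] at h5
        rw [if_pos hh]
        linarith [hφ0 z]
      · rw [if_neg hh]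
        have := Finset.sum_nonneg hnn
        linarith
    have h2 : ∀ i ∈ nb q, ∑ z ∈ zb q, (if |dist z i - ρ i| ≤ 2 * T₀ then φ z * J else 0) ≤
        2 * ((1 + 2 * D) ^ m * A) := by
      intro i _
      have h6 : ∑ z ∈ zb q, (if |dist z i - ρ i| ≤ 2 * T₀ then φ z * J else 0) ≤
          ∑ z ∈ zb i, (if |dist z i - ρ i| ≤ 2 * T₀ then φ z * J else φ z) := by
        rw [← Finset.sum_filter]
        have h3 : (zb q).filter (fun z => |dist z i - ρ i| ≤ 2 * T₀) ⊆ zb i := by
          intro z hz
          rw [Finset.mem_filter] at hz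
          exact (hzb i z).2 ⟨((hzb q z).1 hz.1).1, (hnear z i hz.2).le⟩
        calc ∑ z ∈ (zb q).filter (fun z => |dist z i - ρ i| ≤ 2 * T₀), φ z * J
            = ∑ z ∈ (zb q).filter (fun z => |dist z i - ρ i| ≤ 2 * T₀),
              (if |dist z i - ρ i| ≤ 2 * T₀ then φ z * J else φ z) := by
              refine Finset.sum_congr rfl fun z hz => ?_
              rw [if_pos (Finset.mem_filter.1 hz).2]
          _ ≤ _ := by
              refine Finset.sum_le_sum_of_subset_of_nonneg h3 fun z _ _ => ?_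
              split_ifs
              · exact mul_nonneg (hφ0 z) (by linarith)
              · exact hφ0 z
      refine h6.trans ?_
      have := hjpot i
      simpa only [hρ] using this
    calc ∑ z ∈ zb q, (if hit z then φ z * J else φ z)
        ≤ ∑ z ∈ zb q, (φ z + ∑ i ∈ nb q, (if |dist z i - ρ i| ≤ 2 * T₀ then φ z * J else 0)) :=
          Finset.sum_le_sum h1
      _ = ∑ z ∈ zb q, φ z +
          ∑ i ∈ nb q, ∑ z ∈ zb q, (if |dist z i - ρ i| ≤ 2 * T₀ then φ z * J else 0) := by
          rw [Finset.sum_add_distrib, Finset.sum_comm]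
      _ ≤ (1 + 2 * D) ^ m * A + D * (2 * ((1 + 2 * D) ^ m * A)) := by
          refine add_le_add (h.pot q) ((Finset.sum_le_sum h2).trans ?_)
          rw [Finset.sum_const, nsmul_eq_mul]
          refine mul_le_mul_of_nonneg_right ?_ (by linarith)
          exact_mod_cast hnbc q
      _ = (1 + 2 * D) ^ (m + 1) * A := by ring
  · intro c hc hcU
    have hcU' : c ∉ U := fun hh => hcU (Or.inl hh)
    obtain ⟨F, hFU, hFc, hFd⟩ := h.deg c hc hcU'
    obtain ⟨y, hyN, hyd⟩ := hNmax c ⟨hc, hcU'⟩
    have hyF : y ∉ F := fun hh => (hNC hyN).2 (hFU hh)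
    refine ⟨insert y F, ?_, ?_, ?_⟩
    · intro x hx
      rw [Finset.coe_insert] at hx
      rcases hx with rfl | hx
      · exact Or.inr hyN
      · exact Or.inl (hFU hx)
    · rw [Finset.card_insert_of_notMem hyF, hFc]
    · intro x hx
      rw [Finset.mem_insert] at hx
      rcases hx with rfl | hx
      · rw [dist_comm]; exact hyd
      · exact hFd x hx

/-- choice of the radii -/
lemma exists_radii {C Z : Set X} {T₀ R : ℝ} {J A D d : ℕ} {zb : X → Finset X}
    (hT : 0 < T₀) (hJ : 2 ≤ J) (hR : 5 * T₀ * J ≤ R)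
    (hzb : ∀ q z, z ∈ zb q ↔ z ∈ Z ∧ dist z q ≤ 3 * R) (hA : ∀ q, (zb q).card ≤ A)
    (hsep : Sep R C)
    (hD : ∀ (q : X) (F : Finset X), (∀ x ∈ F, dist x q ≤ 6 * R) → Sep R (F : Set X) → F.card ≤ D)
    (hlt : (1 + 2 * D) ^ D * A < J ^ (d + 1)) :
    ∃ r : X → ℝ, (∀ i ∈ C, R ≤ r i ∧ r i ≤ 2 * R) ∧
      ∀ z ∈ Z, ∀ F : Finset X, (F : Set X) ⊆ C → (∀ i ∈ F, |dist z i - r i| ≤ 2 * T₀) →
        F.card ≤ d := by
  classical
  have hJ' : (2 : ℝ) ≤ J := by exact_mod_cast hJ
  have hR0 : 0 < R := by nlinarith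
  have hst : ∀ m : ℕ, ∃ U r φ, State C Z T₀ R J A D m zb U r φ := by
    intro m
    induction m with
    | zero =>
      refine ⟨∅, fun _ => 0, fun _ => 1, empty_subset _, by simp, fun _ => le_rfl, ?_, ?_, ?_⟩
      · intro z F hF _
        have : F = ∅ := by
          rw [← Finset.coe_eq_empty]
          exact subset_empty_iff.1 hF
        simp [this]
      · intro q
        rw [Finset.sum_const, nsmul_eq_mul, mul_one, pow_zero, one_mul]
        exact_mod_cast hA q
      · intro c _ _
        exact ⟨∅, by simp, rfl, by simp⟩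
    | succ m ih =>
      obtain ⟨U, r, φ, h⟩ := ih
      exact state_step hT hJ hR hzb hsep hD h
  obtain ⟨U, r, φ, h⟩ := hst D
  have hU : C ⊆ U := by
    intro c hc
    by_contra hcU
    obtain ⟨F, hFU, hFc, hFd⟩ := h.deg c hc hcU
    have hcF : c ∉ F := fun hh => hcU (hFU hh)
    have := hD c (insert c F) (by
      intro x hx
      rw [Finset.mem_insert] at hx
      rcases hx with rfl | hx
      · rw [dist_self]; linarith
      · exact (hFd x hx).le) (by
      refine hsep.mono ?_
      intro x hx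
      rw [Finset.coe_insert] at hx
      rcases hx with rfl | hx
      · exact hc
      · exact h.sub (hFU hx))
    rw [Finset.card_insert_of_notMem hcF] at this
    omega
  refine ⟨r, fun i hi => h.rad i (hU hi), fun z hz F hF hFz => ?_⟩
  by_contra hcon
  push Not at hcon
  have h1 := h.cnt z F (hF.trans hU) hFz
  have h2 : φ z ≤ ∑ z' ∈ zb z, φ z' := by
    refine Finset.single_le_sum (f := φ) (fun z' _ => zero_le_one.trans (h.one_le z')) ?_
    rw [hzb]
    exact ⟨hz, by rw [dist_self]; linarith⟩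
  have h3 := h.pot z
  have h4 : (J : ℝ) ^ (d + 1) ≤ (J : ℝ) ^ F.card := pow_le_pow_right₀ (by linarith) hcon
  have h5 : (1 + 2 * (D : ℝ)) ^ D * A < (J : ℝ) ^ (d + 1) := by exact_mod_cast hlt
  linarith

/-- [COV] -/
theorem cov {X : Type} [MetricSpace X] (d D A J : ℕ) (T₀ R : ℝ) (hT : 0 < T₀) (hJ : 2 ≤ J)
    (hR : 5 * T₀ * J ≤ R) (hlt : (1 + 2 * D) ^ D * A < J ^ (d + 1))
    (hD : ∀ (q : X) (F : Finset X), (∀ x ∈ F, dist x q ≤ 6 * R) → Sep R (F : Set X) → F.card ≤ D)
    (hA : ∀ (q : X) (F : Finset X), (∀ x ∈ F, dist x q ≤ 3 * R) → Sep T₀ (F : Set X) →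
      F.card ≤ A) :
    ∃ (V : Type) (lam : V → X → ℝ), TP.Bary X V d lam ∧
      ∀ x y, (∀ v, lam v x = lam v y) → dist x y ≤ 5 * R := by
  classical
  have hJ' : (2 : ℝ) ≤ J := by exact_mod_cast hJ
  have hRT : 10 * T₀ ≤ R := by nlinarith
  have hR0 : 0 < R := by linarith
  obtain ⟨C, -, hCsep, hCmax⟩ := exists_max_sep hR0 (univ : Set X)
  obtain ⟨Z, -, hZsep, hZmax⟩ := exists_max_sep hT (univ : Set X)
  have hZfin : ∀ q : X, {z | z ∈ Z ∧ dist z q ≤ 3 * R}.Finite := fun q =>
    finite_of_card_le (D := A) fun F hF =>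
      hA q F (fun x hx => (hF hx).2) (hZsep.mono fun x hx => (hF hx).1)
  set zb : X → Finset X := fun q => (hZfin q).toFinset with hzbdef
  have hzb : ∀ q z, z ∈ zb q ↔ z ∈ Z ∧ dist z q ≤ 3 * R := by
    intro q z
    simp [hzbdef]
  have hAzb : ∀ q, (zb q).card ≤ A := fun q =>
    hA q (zb q) (fun x hx => ((hzb q x).1 hx).2)
      (hZsep.mono fun x hx => ((hzb q x).1 hx).1)
  obtain ⟨r, hr, hcount⟩ := exists_radii hT hJ hR hzb hAzb hCsep hD hlt
  have hCfin : ∀ q : X, {i : C | dist (i : X) q ≤ 6 * R}.Finite := by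
    intro q
    have h1 : {i : X | i ∈ C ∧ dist i q ≤ 6 * R}.Finite :=
      finite_of_card_le (D := D) fun F hF =>
        hD q F (fun x hx => (hF hx).2) (hCsep.mono fun x hx => (hF hx).1)
    refine (h1.preimage (f := ((↑) : C → X)) Subtype.val_injective.injOn).subset ?_
    intro i hi
    exact ⟨i.2, hi⟩
  -- the bump covering
  let u : C → X → ℝ := fun i x => max 0 (min 1 ((r i + T₀ - dist x i) / T₀))
  have hucont : ∀ i, Continuous (u i) := fun i => by
    simp only [u]
    fun_prop
  have hupos : ∀ (i : C) (x : X), u i x ≠ 0 → dist x i < r i + T₀ := by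
    intro i x h
    by_contra hcon
    push Not at hcon
    apply h
    simp only [u]
    rw [max_eq_left]
    refine (min_le_right _ _).trans ?_
    exact div_nonpos_of_nonpos_of_nonneg (by linarith) hT.le
  have huone : ∀ (i : C) (x : X), dist x i ≤ r i → u i x = 1 := by
    intro i x h
    simp only [u]
    have : 1 ≤ (r i + T₀ - dist x i) / T₀ := by
      rw [le_div_iff₀ hT]; linarith
    rw [min_eq_left this, max_eq_right zero_le_one]
  have hule : ∀ i x, u i x ≤ 1 := by
    intro i x
    simp only [u]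
    exact max_le zero_le_one (min_le_left _ _)
  have hu0 : ∀ i x, 0 ≤ u i x := fun i x => le_max_left _ _
  have hlf : LocallyFinite fun i : C => Function.support (u i) := by
    intro x
    refine ⟨ball x R, ball_mem_nhds _ hR0, (hCfin x).subset ?_⟩
    rintro i ⟨y, hy, hyx⟩
    have h1 := hupos i y hy
    have h2 := (hr i i.2).2
    rw [mem_ball] at hyx
    have h3 := dist_triangle_left (i : X) x y
    show dist (i : X) x ≤ 6 * R
    linarith
  let f : BumpCovering C X univ :=
    { toFun := fun i => ⟨u i, hucont i⟩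
      locallyFinite' := hlf
      nonneg' := fun i x => hu0 i x
      le_one' := fun i x => hule i x
      eventuallyEq_one' := by
        intro x _
        obtain ⟨c, hcC, hc⟩ := hCmax x (mem_univ _)
        refine ⟨⟨c, hcC⟩, ?_⟩
        have : ∀ᶠ y in 𝓝 x, dist y c < R :=
          (continuous_id.dist continuous_const).continuousAt.eventually (gt_mem_nhds hc)
        filter_upwards [this] with y hy
        exact huone ⟨c, hcC⟩ y (by
          have := (hr c hcC).1
          exact hy.le.trans this) }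
  have hfu : ∀ i x, f i x = u i x := fun i x => rfl
  set ρ := f.toPartitionOfUnity with hρ
  have hρne : ∀ i x, ρ i x ≠ 0 → u i x ≠ 0 ∧ ∀ j, WellOrderingRel j i → u j x ≠ 1 := by
    intro i x hne
    have hne' : f.toPOUFun i x ≠ 0 := hne
    have hui : u i x ≠ 0 := fun h0 => hne' (f.toPOUFun_zero_of_zero h0)
    refine ⟨hui, fun j hj h1 => hne' ?_⟩
    have hfin : {j | f j x ≠ 0}.Finite := f.point_finite x
    rw [f.toPOUFun_eq_mul_prod i x hfin.toFinset (fun j _ hj => by simpa using hj)]
    have : ∏ j ∈ hfin.toFinset with WellOrderingRel j i, (1 - f j x) = 0 := by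
      refine Finset.prod_eq_zero (i := j) ?_ ?_
      · rw [Finset.mem_filter]
        refine ⟨?_, hj⟩
        rw [Finite.mem_toFinset]
        show f j x ≠ 0
        rw [hfu, h1]
        exact one_ne_zero
      · rw [hfu, h1, sub_self]
    rw [this, mul_zero]
  refine ⟨C, fun i x => ρ i x, ⟨fun i => (ρ i).continuous, fun i x => ρ.nonneg i x,
    ρ.locallyFinite, fun x => ρ.sum_eq_one (mem_univ x), ?_⟩, ?_⟩
  · intro x
    by_contra hcon
    push Not at hcon
    have hfin : {v | ρ v x ≠ 0}.Finite := ρ.locallyFinite.point_finite x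
    rw [Set.ncard_eq_toFinset_card _ hfin] at hcon
    set G := hfin.toFinset with hG
    letI : LinearOrder C := linearOrderOfSTO WellOrderingRel
    have hGne : G.Nonempty := Finset.card_pos.1 (by omega)
    set i₀ := G.max' hGne with hi₀
    have hi₀G : i₀ ∈ G := Finset.max'_mem _ _
    have hi₀' : ρ i₀ x ≠ 0 := by
      have := hi₀G
      rw [hG, Finite.mem_toFinset] at this
      exact this
    set G' := G.erase i₀ with hG'
    have hG'c : d + 1 ≤ G'.card := by
      rw [hG', Finset.card_erase_of_mem hi₀G]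
      omega
    obtain ⟨z, hzZ, hz⟩ := hZmax x (mem_univ _)
    have := hcount z hzZ (G'.map ⟨Subtype.val, Subtype.val_injective⟩) (by
      intro y hy
      rw [Finset.coe_map] at hy
      obtain ⟨i, _, rfl⟩ := hy
      exact i.2) (by
      intro y hy
      rw [Finset.mem_map] at hy
      obtain ⟨i, hi, rfl⟩ := hy
      show |dist z (i : X) - r i| ≤ 2 * T₀
      rw [hG', Finset.mem_erase] at hi
      have hi' : ρ i x ≠ 0 := by
        have := hi.2
        rw [hG, Finite.mem_toFinset] at this
        exact this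
      have hlt : i < i₀ := lt_of_le_of_ne (Finset.le_max' _ _ hi.2) hi.1
      have h1 := (hρne i₀ x hi₀').2 i hlt
      have h2 := hupos i x (hρne i x hi').1
      have h3 : r i < dist x i := by
        by_contra hh
        exact h1 (huone i x (not_lt.1 hh))
      have h4 := abs_dist_sub_le x z (i : X)
      rw [abs_le] at h4 ⊢
      constructor <;> linarith [h4.1, h4.2])
    rw [Finset.card_map] at this
    omega
  · intro x y hxy
    obtain ⟨i, hi⟩ : ∃ i, ρ i x ≠ 0 := by
      obtain ⟨i, hi⟩ := ρ.exists_pos (mem_univ x)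
      exact ⟨i, hi.ne'⟩
    have hi2 : ρ i y ≠ 0 := by
      have := hxy i
      simp only at this
      rw [← this]; exact hi
    have h1 := hupos i x (hρne i x hi).1
    have h2 := hupos i y (hρne i y hi2).1
    have h3 := (hr i i.2).2
    have h4 := dist_triangle_right x y i
    linarith

/-- [COV] in the form of the plan -/
theorem cov_holds : H53.Stmt.COV := by
  intro n D hn
  have hpos : (0 : ℝ) < (1 + 2 * (D : ℝ)) ^ D * 6 ^ (n - 1) := by positivity
  refine ⟨1 / (2 * ((1 + 2 * (D : ℝ)) ^ D * 6 ^ (n - 1))), by positivity, ?_⟩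
  intro X _ r R hr hR hD hA
  set ε : ℝ := 1 / (2 * ((1 + 2 * (D : ℝ)) ^ D * 6 ^ (n - 1))) with hε
  have hε0 : 0 < ε := by rw [hε]; positivity
  have hn' : (2 : ℝ) ≤ n := by exact_mod_cast hn
  have hR200 : 200 * r ≤ R := by nlinarith
  have hR0 : 0 < R := by linarith
  set J : ℕ := ⌊R / (5 * r)⌋₊ with hJ
  have hx : 40 ≤ R / (5 * r) := by rw [le_div_iff₀ (by linarith)]; linarith
  have hJ1 : (J : ℝ) ≤ R / (5 * r) := Nat.floor_le (by linarith)
  have hJ2 : R / (6 * r) < J := by
    have h1 := Nat.lt_floor_add_one (R / (5 * r))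
    rw [← hJ] at h1
    have h2 : R / (6 * r) = (5 / 6) * (R / (5 * r)) := by field_simp
    linarith
  have hJ3 : 2 ≤ J := by
    have : (2 : ℝ) ≤ J := by
      have h2 : R / (6 * r) = (5 / 6) * (R / (5 * r)) := by field_simp
      linarith
    exact_mod_cast this
  have hJR : 5 * r * J ≤ R := by
    rw [le_div_iff₀ (by linarith)] at hJ1
    linarith
  set A : ℕ := ⌊ε * (R / r) ^ (n - 1)⌋₊ with hAdef
  have hA1 : (A : ℝ) ≤ ε * (R / r) ^ (n - 1) := Nat.floor_le (by positivity)
  have hlt : (1 + 2 * D) ^ D * A < J ^ (n - 2 + 1) := by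
    have h1 : n - 2 + 1 = n - 1 := by omega
    rw [h1]
    have h2 : ((1 + 2 * D) ^ D * A : ℝ) < (J : ℝ) ^ (n - 1) := by
      have h3 : (R / (6 * r)) ^ (n - 1) ≤ (J : ℝ) ^ (n - 1) :=
        pow_le_pow_left₀ (by positivity) hJ2.le _
      have h4 : (R / (6 * r)) ^ (n - 1) * 6 ^ (n - 1) = (R / r) ^ (n - 1) := by
        rw [← mul_pow]
        congr 1
        field_simp
      have h5 : ε * (2 * ((1 + 2 * (D : ℝ)) ^ D * 6 ^ (n - 1))) = 1 := by
        rw [hε]
        exact one_div_mul_cancel (by positivity)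
      have h6 : 0 < (R / (6 * r)) ^ (n - 1) := by positivity
      calc ((1 + 2 * D) ^ D * A : ℝ) ≤ (1 + 2 * D) ^ D * (ε * (R / r) ^ (n - 1)) :=
            mul_le_mul_of_nonneg_left hA1 (by positivity)
        _ = (1 / 2) * (R / (6 * r)) ^ (n - 1) *
            (ε * (2 * ((1 + 2 * (D : ℝ)) ^ D * 6 ^ (n - 1)))) := by rw [← h4]; ring
        _ = (1 / 2) * (R / (6 * r)) ^ (n - 1) := by rw [h5, mul_one]
        _ < (R / (6 * r)) ^ (n - 1) := by linarith
        _ ≤ (J : ℝ) ^ (n - 1) := h3
    exact_mod_cast h2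
  obtain ⟨V, lam, hB, hd⟩ := cov (X := X) (n - 2) D A J r R hr hJ3 hJR hlt
    (fun q F h1 h2 => hD q F (fun x hx => (h1 x hx).trans (by linarith))
      (fun x hx y hy hne => h2 hx hy hne))
    (fun q F h1 h2 => Nat.le_floor (hA q F (fun x hx => (h1 x hx).trans (by linarith))
      (fun x hx y hy hne => h2 hx hy hne)))
  exact ⟨V, lam, hB, fun x y hxy => (hd x y hxy).trans (by linarith)⟩

end Vale.Agent.P210.R2.H912
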