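import Vale.Agent.P210.R2.H53.StmtMod

/-! [ITER]: iteration of the one-scale packing bound. -/

set_option linter.all false

open Set

namespace Vale.Agent.P210.R2.H912

/-- maximal separated subsets of a finite set -/
lemma exists_max_sep_finset {X : Type} [MetricSpace X] {r : ℝ} (hr : 0 < r) (s : Finset X) :
    ∃ N : Finset X, N ⊆ s ∧ (∀ x ∈ N, ∀ y ∈ N, x ≠ y → r ≤ dist x y) ∧
      ∀ x ∈ s, ∃ c ∈ N, dist x c < r := by
  classical
  have hne : (s.powerset.filter
      (fun N : Finset X => ∀ x ∈ N, ∀ y ∈ N, x ≠ y → r ≤ dist x y)).Nonempty :=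
    ⟨∅, by simp⟩
  obtain ⟨N, hN, hmax⟩ := Finset.exists_max_image _ Finset.card hne
  rw [Finset.mem_filter, Finset.mem_powerset] at hN
  refine ⟨N, hN.1, hN.2, fun x hx => ?_⟩
  by_contra hcon
  push Not at hcon
  have hxN : x ∉ N := fun h => by
    have := hcon x h
    rw [dist_self] at this
    linarith
  have := hmax (insert x N) (by
    rw [Finset.mem_filter, Finset.mem_powerset]
    refine ⟨Finset.insert_subset hx hN.1, ?_⟩
    intro a ha b hb hne
    rw [Finset.mem_insert] at ha hb
    rcases ha with rfl | ha <;> rcases hb with rfl | hb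
    · exact absurd rfl hne
    · exact hcon b hb
    · rw [dist_comm]
      exact hcon a ha
    · exact hN.2 a ha b hb hne)
  rw [Finset.card_insert_of_notMem hxN] at this
  omega

/-- [ITER] -/
theorem iter_holds : H53.Stmt.ITER := by
  classical
  intro X _ κ T L k hκ0 hκ hT
  induction k generalizing T with
  | zero =>
    intro _ q s hs hsep
    rw [pow_zero]
    rw [pow_zero, one_mul] at hsep
    rw [Finset.card_le_one]
    intro a ha b hb
    by_contra hne
    have h1 := hsep a ha b hb hne
    have h2 := dist_triangle_right a b q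
    linarith [hs a ha, hs b hb]
  | succ k ih =>
    intro h q s hs hsep
    have hκT : 0 < κ * T := mul_pos hκ0 hT
    obtain ⟨N, hNs, hNsep, hNmax⟩ := exists_max_sep_finset hκT s
    have hNc : N.card ≤ L := by
      refine h 0 (Nat.succ_pos _) q N (fun x hx => ?_) (fun x hx y hy hne => ?_)
      · rw [pow_zero, one_mul]
        exact hs x (hNs hx)
      · rw [pow_zero, one_mul]
        exact hNsep x hx y hy hne
    have ih' := ih (κ * T) hκT (fun j hj q' s' hs' hsep' => h (j + 1) (by omega) q' s'
      (fun x hx => by
        have := hs' x hx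
        rw [pow_succ]
        calc dist x q' ≤ κ ^ j * (κ * T) := this
          _ = κ ^ j * κ * T := by ring)
      (fun x hx y hy hne => by
        have := hsep' x hx y hy hne
        rw [pow_succ]
        calc κ * (κ ^ j * κ * T) = κ * (κ ^ j * (κ * T)) := by ring
          _ ≤ dist x y := this))
    have hsub : s ⊆ N.biUnion fun c => s.filter fun x => dist x c ≤ κ * T := by
      intro x hx
      obtain ⟨c, hc, hxc⟩ := hNmax x hx
      rw [Finset.mem_biUnion]
      exact ⟨c, hc, Finset.mem_filter.2 ⟨hx, hxc.le⟩⟩
    calc s.card ≤ (N.biUnion fun c => s.filter fun x => dist x c ≤ κ * T).card :=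
          Finset.card_le_card hsub
      _ ≤ N.card * L ^ k := by
          refine Finset.card_biUnion_le_card_mul _ _ _ fun c _ => ?_
          refine ih' c _ (fun x hx => (Finset.mem_filter.1 hx).2) ?_
          intro x hx y hy hne
          have := hsep x (Finset.mem_filter.1 hx).1 y (Finset.mem_filter.1 hy).1 hne
          calc 3 * (κ ^ k * (κ * T)) = 3 * (κ ^ (k + 1) * T) := by ring
            _ ≤ dist x y := this
      _ ≤ L * L ^ k := Nat.mul_le_mul_right _ hNc
      _ = L ^ (k + 1) := by ring

end Vale.Agent.P210.R2.H912
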