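import Vale.Agent.P210.R2.H53.SpecR
import Vale.Agent.P210.TP.Prod2_646
import Vale.Agent.P210.R2.H912.Cov
import Vale.Agent.P210.R2.H912.Iter

/-! [FINAL]: assembly of the width bound from the one scale lemma. -/

set_option linter.all false

open Set

namespace Vale.Agent.P210.R2.H912

open Vale.Agent.P210

lemma urysohn_of_bary {X : Type} [MetricSpace X] {d : ℕ} {C : ℝ}
    (h : ∃ (V : Type) (lam : V → X → ℝ), TP.Bary X V d lam ∧
      ∀ x y, (∀ v, lam v x = lam v y) → dist x y ≤ C) :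
    H53.UrysohnWidthLE X d C := by
  obtain ⟨V, lam, hB, hd⟩ := h
  obtain ⟨f, hf, hfl⟩ := TP.prod2 X V d lam hB
  refine ⟨V, skel V d, f, fun s hs => hs.2, hf, fun x y hxy => hd x y fun v => ?_⟩
  rw [← hfl x v, ← hfl y v, hxy]

/-- choice of the number of scales -/
lemma exists_scales (n : ℕ) (κ ε : ℝ) (L : ℕ) (hκ0 : 0 < κ) (hκ : κ ≤ 1 / 8) (hε : 0 < ε)
    (hL : 2 * (L : ℝ) * κ ^ (n - 1) ≤ 1) :
    ∃ k : ℕ, 2400 * n ≤ (κ⁻¹) ^ k ∧ ((L : ℝ) ^ k) ≤ ε * ((κ⁻¹) ^ k / 24) ^ (n - 1) := by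
  obtain ⟨k, hk⟩ := pow_unbounded_of_one_lt (max (2400 * (n : ℝ)) (24 ^ (n - 1) / ε))
    (show (1 : ℝ) < 2 by norm_num)
  refine ⟨k, ?_, ?_⟩
  · have h1 : (2 : ℝ) ≤ κ⁻¹ := by
      rw [le_inv_comm₀ (by norm_num) hκ0]
      linarith
    have h2 : (2 : ℝ) ^ k ≤ (κ⁻¹) ^ k := pow_le_pow_left₀ (by norm_num) h1 k
    exact (le_max_left _ _).trans (hk.le.trans h2)
  · have h1 : 24 ^ (n - 1) / ε < (2 : ℝ) ^ k := (le_max_right _ _).trans_lt hk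
    rw [div_lt_iff₀ hε] at h1
    have h2 : ((L : ℝ) * 2 * κ ^ (n - 1)) ^ k ≤ 1 := by
      refine pow_le_one₀ (by positivity) ?_
      calc (L : ℝ) * 2 * κ ^ (n - 1) = 2 * (L : ℝ) * κ ^ (n - 1) := by ring
        _ ≤ 1 := hL
    have h3 : (L : ℝ) ^ k * 2 ^ k ≤ ((κ⁻¹) ^ k) ^ (n - 1) := by
      have h4 : (0 : ℝ) < (κ ^ k) ^ (n - 1) := by positivity
      have h5 : ((κ⁻¹) ^ k) ^ (n - 1) = 1 / (κ ^ k) ^ (n - 1) := by
        rw [inv_pow, inv_pow, one_div]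
      rw [h5, le_div_iff₀ h4]
      calc (L : ℝ) ^ k * 2 ^ k * (κ ^ k) ^ (n - 1) = ((L : ℝ) * 2 * κ ^ (n - 1)) ^ k := by
            rw [mul_pow, mul_pow, ← pow_mul, ← pow_mul, mul_comm k]
        _ ≤ 1 := h2
    have h6 : 0 ≤ (L : ℝ) ^ k := by positivity
    rw [div_pow]
    have h7 : (L : ℝ) ^ k * 24 ^ (n - 1) ≤ ε * ((κ⁻¹) ^ k) ^ (n - 1) := by
      calc (L : ℝ) ^ k * 24 ^ (n - 1) ≤ (L : ℝ) ^ k * (2 ^ k * ε) :=
            mul_le_mul_of_nonneg_left h1.le h6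
        _ = ε * ((L : ℝ) ^ k * 2 ^ k) := by ring
        _ ≤ ε * ((κ⁻¹) ^ k) ^ (n - 1) := mul_le_mul_of_nonneg_left h3 hε.le
    rw [mul_div_assoc', le_div_iff₀ (by positivity)]
    exact h7

/-- the metric part: few separated points at all scales from `T₀` to `T₀ κ⁻ᵏ` give a map to a
complex of dimension `n - 2`. -/
theorem width_of_scales (n : ℕ) (hn : 2 ≤ n) (κ : ℝ) (L : ℕ) (hκ0 : 0 < κ) (hκ : κ ≤ 1 / 8)
    (hL : 2 * (L : ℝ) * κ ^ (n - 1) ≤ 1) :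
    ∃ Λ : ℝ, 1 ≤ Λ ∧ ∀ (X : Type) [MetricSpace X] (T₀ : ℝ), 0 < T₀ →
      (∀ t ∈ Icc T₀ (T₀ * Λ), ∀ (q : X) (s : Finset X), (∀ x ∈ s, dist x q ≤ t) →
        (∀ x ∈ s, ∀ y ∈ s, x ≠ y → κ * t ≤ dist x y) → s.card ≤ L) →
      H53.UrysohnWidthLE X (n - 2) (T₀ * Λ) := by
  obtain ⟨ε, hε, hcov⟩ := cov_holds n L hn
  obtain ⟨k, hk1, hk2⟩ := exists_scales n κ ε L hκ0 hκ hε hL
  have hκi : 1 ≤ κ⁻¹ := by
    rw [one_le_inv₀ hκ0]
    linarith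
  have hΛ : 1 ≤ (κ⁻¹) ^ k := one_le_pow₀ hκi
  refine ⟨(κ⁻¹) ^ k, hΛ, fun X _ T₀ hT₀ h => ?_⟩
  set T : ℝ := T₀ * (κ⁻¹) ^ k with hT
  have hT0 : 0 < T := by positivity
  have hTT : T₀ ≤ T := by
    rw [hT]
    exact le_mul_of_one_le_right hT₀.le hΛ
  have hkk : κ ^ k * T = T₀ := by
    rw [hT, inv_pow]
    field_simp
  have hiter := iter_holds X κ T L k hκ0 (by linarith) hT0 (by
    intro j hj q s hs hsep
    refine h (κ ^ j * T) ⟨?_, ?_⟩ q s hs hsep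
    · rw [← hkk]
      refine mul_le_mul_of_nonneg_right ?_ hT0.le
      exact pow_le_pow_of_le_one hκ0.le (by linarith) hj.le
    · have : κ ^ j ≤ 1 := pow_le_one₀ hκ0.le (by linarith)
      nlinarith)
  have hB := hcov X (3 * T₀) (T / 8) (by linarith) (by
      rw [hT]
      nlinarith) (by
      intro q s hs hsep
      refine h T ⟨hTT, le_rfl⟩ q s (fun x hx => (hs x hx).trans (by linarith)) ?_
      intro x hx y hy hne
      refine le_trans ?_ (hsep x hx y hy hne)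
      nlinarith) (by
      intro q s hs hsep
      have h1 : s.card ≤ L ^ k := by
        refine hiter q s (fun x hx => (hs x hx).trans (by linarith)) ?_
        intro x hx y hy hne
        rw [hkk]
        exact hsep x hx y hy hne
      have h2 : (s.card : ℝ) ≤ (L : ℝ) ^ k := by exact_mod_cast h1
      refine h2.trans (hk2.trans_eq ?_)
      congr 2
      rw [hT]
      field_simp
      norm_num)
  refine urysohn_of_bary ?_
  obtain ⟨V, lam, h1, h2⟩ := hB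
  exact ⟨V, lam, h1, fun x y hxy => (h2 x y hxy).trans (by linarith)⟩

/-- [FINAL] from [ONE] -/
theorem final_of_one (hone : H53.Stmt.ONE) : H53.Stmt.FINAL := by
  intro n hn
  obtain ⟨κ, hκ0, hκ, L, hL, T₀, hT₀, h⟩ := hone n hn
  obtain ⟨Λ, hΛ, hw⟩ := width_of_scales n (by omega) κ L hκ0 hκ hL
  obtain ⟨δ, hδ, h'⟩ := h (T₀ * Λ) (le_mul_of_one_le_right hT₀.le hΛ)
  refine ⟨δ, hδ, T₀ * Λ, ?_⟩
  intro E _ _ _ M _ _ _ _ _ _ hE hM hsec hscal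
  exact hw M T₀ hT₀ (h' E M hE hM hsec hscal)

end Vale.Agent.P210.R2.H912
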