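import Vale.Agent.P210.R2.H53.RSpec
import Vale.Agent.P210.R2.H912.Fin

/-! [COVC]: the covering theorem with `(n - 1)`-dimensional content instead of packing. -/

set_option linter.all false

open scoped Topology
open Set Metric

namespace Vale.Agent.P210.R2.H912

variable {X : Type} [MetricSpace X]

/-- the state of the selection of the radii; `S q` is the cover of the ball with centre `q`,
`φ q c` the weight of the member `c` of this cover -/
structure StateC (C : Set X) (R B : ℝ) (J D k m : ℕ) (S : X → Finset (X × ℝ))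
    (U : Set X) (r : X → ℝ) (φ : X → X × ℝ → ℝ) : Prop where
  sub : U ⊆ C
  rad : ∀ i ∈ U, R ≤ r i ∧ r i ≤ 2 * R - 1
  cnt : ∀ q, ∀ c ∈ S q, ∀ F : Finset X, (F : Set X) ⊆ U →
    (∀ i ∈ F, dist i q < 3 * R ∧ |dist c.1 i - r i| ≤ 2 * c.2) →
    c.2 ^ k * ((J : ℝ) / (5 * c.2)) ^ F.card ≤ φ q c
  pot : ∀ q ∈ C, ∑ c ∈ S q, φ q c ≤ (2 * D) ^ m * B
  deg : ∀ c ∈ C, c ∉ U → ∃ F : Finset X, (F : Set X) ⊆ U ∧ F.card = m ∧ ∀ y ∈ F, dist y c < 6 * R

/-- the number of radii whose sphere meets a given ball -/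
lemma card_hit_le {a ρ R : ℝ} (hρ : 1 ≤ ρ) (J : ℕ) :
    (((Finset.range J).filter fun j : ℕ => |a - (R + j)| ≤ 2 * ρ).card : ℝ) ≤ 5 * ρ := by
  set T := (Finset.range J).filter fun j : ℕ => |a - (R + j)| ≤ 2 * ρ with hT
  rcases T.eq_empty_or_nonempty with h | h
  · rw [h, Finset.card_empty, Nat.cast_zero]
    linarith
  · have hmem : ∀ j ∈ T, |a - (R + (j : ℝ))| ≤ 2 * ρ := fun j hj => (Finset.mem_filter.1 hj).2
    have h1 : T ⊆ Finset.Icc (T.min' h) (T.max' h) := fun j hj =>
      Finset.mem_Icc.2 ⟨Finset.min'_le _ _ hj, Finset.le_max' _ _ hj⟩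
    have h2 := Finset.card_le_card h1
    rw [Nat.card_Icc] at h2
    have h3 := hmem _ (Finset.min'_mem T h)
    have h4 := hmem _ (Finset.max'_mem T h)
    rw [abs_le] at h3 h4
    have h5 : T.min' h ≤ T.max' h := Finset.min'_le _ _ (Finset.max'_mem _ _)
    have h6 : (T.card : ℝ) ≤ (T.max' h : ℝ) + 1 - T.min' h := by
      have : T.card + T.min' h ≤ T.max' h + 1 := by omega
      have : ((T.card + T.min' h : ℕ) : ℝ) ≤ ((T.max' h + 1 : ℕ) : ℝ) := by exact_mod_cast this
      push_cast at this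
      linarith
    linarith [h3.1, h3.2, h4.1, h4.2]

lemma stateC_step {C : Set X} {R B : ℝ} {J D k m : ℕ} {S : X → Finset (X × ℝ)}
    (hJ1 : 1 ≤ J) (hJR : (J : ℝ) ≤ R) (hB : 0 ≤ B)
    (hS : ∀ q, ∀ c ∈ S q, 1 ≤ c.2 ∧ 5 * c.2 ≤ J) (hsep : Sep R C)
    (hD : ∀ (q : X) (F : Finset X), (∀ x ∈ F, dist x q ≤ 6 * R) → Sep R (F : Set X) → F.card ≤ D)
    {U : Set X} {r : X → ℝ} {φ : X → X × ℝ → ℝ} (h : StateC C R B J D k m S U r φ) :
    ∃ U' r' φ', StateC C R B J D k (m + 1) S U' r' φ' := by
  classical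
  have hJ' : (1 : ℝ) ≤ J := by exact_mod_cast hJ1
  have hJ0 : (0 : ℝ) < J := by linarith
  have hR0 : 0 < R := by linarith
  have hφ0 : ∀ q, ∀ c ∈ S q, 0 ≤ φ q c := fun q c hc => by
    have h1 := h.cnt q c hc ∅ (by simp) (by simp)
    have h2 : (0 : ℝ) ≤ c.2 ^ k * ((J : ℝ) / (5 * c.2)) ^ (∅ : Finset X).card := by
      have := (hS q c hc).1
      positivity
    linarith
  obtain ⟨N, hNC, hNsep, hNmax⟩ := exists_max_sep (show 0 < 6 * R by linarith) (C \ U)
  have hCfin : ∀ q : X, {i | i ∈ C ∧ dist i q < 3 * R}.Finite := fun q =>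
    finite_of_card_le (D := D) fun F hF =>
      hD q F (fun x hx => by linarith [(hF hx).2]) (hsep.mono fun x hx => (hF hx).1)
  set nb : X → Finset X := fun q => (hCfin q).toFinset with hnbdef
  have hnb : ∀ q i, i ∈ nb q ↔ i ∈ C ∧ dist i q < 3 * R := by
    intro q i
    simp [hnbdef]
  have hnbc : ∀ q, (nb q).card ≤ D := fun q =>
    hD q (nb q) (fun x hx => by linarith [((hnb q x).1 hx).2])
      (hsep.mono fun x hx => ((hnb q x).1 hx).1)
  -- the new weights when the centre `i` gets the radius `R + j`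
  let ψ : X → ℕ → X → X × ℝ → ℝ := fun i j q c =>
    if |dist c.1 i - (R + j)| ≤ 2 * c.2 then φ q c * ((J : ℝ) / (5 * c.2)) else φ q c
  have hψ0 : ∀ i j q, ∀ c ∈ S q, 0 ≤ ψ i j q c := by
    intro i j q c hc
    have h1 := hφ0 q c hc
    have h2 := (hS q c hc).1
    simp only [ψ]
    split_ifs
    · positivity
    · exact h1
  have hchoice : ∀ i : X, ∃ j : ℕ, j < J ∧
      ∑ q ∈ nb i, ∑ c ∈ S q, ψ i j q c ≤ (2 * D) ^ (m + 1) * B := by
    intro i
    have hne : (Finset.range J).Nonempty := ⟨0, by simp; omega⟩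
    obtain ⟨j, hj, hle⟩ := Finset.exists_le_of_sum_le (s := Finset.range J) hne
      (f := fun j : ℕ => ∑ q ∈ nb i, ∑ c ∈ S q, ψ i j q c)
      (g := fun _ => (2 * (D : ℝ)) ^ (m + 1) * B) (by
        rw [Finset.sum_comm, Finset.sum_const, Finset.card_range, nsmul_eq_mul]
        have key : ∀ q ∈ nb i, ∑ j ∈ Finset.range J, ∑ c ∈ S q, ψ i j q c ≤
            2 * J * ((2 * D) ^ m * B) := by
          intro q hq
          rw [Finset.sum_comm]
          have key2 : ∀ c ∈ S q, ∑ j ∈ Finset.range J, ψ i j q c ≤ 2 * J * φ q c := by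
            intro c hc
            have h1 := hφ0 q c hc
            have h2 := (hS q c hc).1
            have h3 : ∀ j ∈ Finset.range J, ψ i j q c ≤
                φ q c + if |dist c.1 i - (R + j)| ≤ 2 * c.2 then φ q c * ((J : ℝ) / (5 * c.2))
                  else 0 := by
              intro j _
              simp only [ψ]
              split_ifs
              · linarith
              · linarith
            refine (Finset.sum_le_sum h3).trans ?_
            rw [Finset.sum_add_distrib, Finset.sum_const, Finset.card_range, nsmul_eq_mul,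
              ← Finset.sum_filter, Finset.sum_const, nsmul_eq_mul]
            have h4 := card_hit_le (a := dist c.1 i) (R := R) h2 J
            have h5 : 0 ≤ φ q c * ((J : ℝ) / (5 * c.2)) := by positivity
            have h6 := mul_le_mul_of_nonneg_right h4 h5
            have h7 : 5 * c.2 * (φ q c * ((J : ℝ) / (5 * c.2))) = J * φ q c := by
              field_simp
            linarith
          refine (Finset.sum_le_sum key2).trans ?_
          rw [← Finset.mul_sum]
          exact mul_le_mul_of_nonneg_left (h.pot q ((hnb i q).1 hq).1) (by positivity)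
        refine (Finset.sum_le_sum key).trans ?_
        rw [Finset.sum_const, nsmul_eq_mul]
        have h1 : ((nb i).card : ℝ) ≤ D := by exact_mod_cast hnbc i
        have h2 : 0 ≤ 2 * (J : ℝ) * ((2 * D) ^ m * B) := by positivity
        calc ((nb i).card : ℝ) * (2 * J * ((2 * D) ^ m * B)) ≤
            D * (2 * J * ((2 * D) ^ m * B)) := mul_le_mul_of_nonneg_right h1 h2
          _ = J * ((2 * D) ^ (m + 1) * B) := by ring)
    exact ⟨j, Finset.mem_range.1 hj, hle⟩
  choose jj hjJ hjpot using hchoice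
  set ρ : X → ℝ := fun i => R + jj i with hρ
  have hρ1 : ∀ i, R ≤ ρ i := fun i => by
    have : (0 : ℝ) ≤ jj i := Nat.cast_nonneg _
    simp only [hρ]; linarith
  have hρ2 : ∀ i, ρ i ≤ 2 * R - 1 := fun i => by
    have : (jj i : ℝ) + 1 ≤ J := by exact_mod_cast hjJ i
    simp only [hρ]
    linarith
  set hit : X → X × ℝ → Prop := fun q c =>
    ∃ i ∈ N, dist i q < 3 * R ∧ |dist c.1 i - ρ i| ≤ 2 * c.2 with hhit
  have huniq : ∀ q i i', i ∈ N → i' ∈ N → dist i q < 3 * R → dist i' q < 3 * R → i = i' := by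
    intro q i i' hi hi' h1 h2
    by_contra hne
    have h3 : 6 * R ≤ dist i i' := hNsep hi hi' hne
    have h4 := dist_triangle_right i i' q
    linarith
  refine ⟨U ∪ N, fun i => if i ∈ N then ρ i else r i,
    fun q c => if hit q c then φ q c * ((J : ℝ) / (5 * c.2)) else φ q c, ?_, ?_, ?_, ?_, ?_⟩
  · exact union_subset h.sub fun x hx => (hNC hx).1
  · intro i hi
    by_cases hiN : i ∈ N
    · simp only [hiN, if_true]
      exact ⟨hρ1 i, hρ2 i⟩
    · simp only [hiN, if_false]
      exact h.rad i (hi.resolve_right hiN)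
  · intro q c hc F hF hz
    have hc1 := (hS q c hc).1
    have hc2 := (hS q c hc).2
    have hq0 := hφ0 q c hc
    have hJc : 1 ≤ (J : ℝ) / (5 * c.2) := by
      rw [le_div_iff₀ (by linarith)]
      linarith
    set F₁ := F.filter fun i => i ∉ N with hF₁
    set F₂ := F.filter fun i => i ∈ N with hF₂
    have hcard : F.card = F₁.card + F₂.card := by
      rw [hF₁, hF₂, add_comm, Finset.card_filter_add_card_filter_not]
    have h1 : c.2 ^ k * ((J : ℝ) / (5 * c.2)) ^ F₁.card ≤ φ q c := by
      refine h.cnt q c hc F₁ ?_ ?_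
      · intro i hi
        simp only [hF₁, Finset.coe_filter, mem_setOf_eq] at hi
        exact (hF hi.1).resolve_right hi.2
      · intro i hi
        simp only [hF₁, Finset.mem_filter] at hi
        have := hz i hi.1
        simpa only [hi.2, if_false] using this
    have h2 : F₂.card ≤ 1 := by
      rw [Finset.card_le_one]
      intro a ha b hb
      simp only [hF₂, Finset.mem_filter] at ha hb
      exact huniq q a b ha.2 hb.2 (hz a ha.1).1 (hz b hb.1).1
    show c.2 ^ k * ((J : ℝ) / (5 * c.2)) ^ F.card ≤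
      (if hit q c then φ q c * ((J : ℝ) / (5 * c.2)) else φ q c)
    by_cases hh : hit q c
    · rw [if_pos hh, hcard, pow_add, ← mul_assoc]
      refine mul_le_mul h1 ?_ (by positivity) hq0
      calc ((J : ℝ) / (5 * c.2)) ^ F₂.card ≤ ((J : ℝ) / (5 * c.2)) ^ 1 :=
            pow_le_pow_right₀ hJc h2
        _ = _ := pow_one _
    · rw [if_neg hh]
      have : F₂ = ∅ := by
        rw [Finset.eq_empty_iff_forall_notMem]
        intro i hi
        simp only [hF₂, Finset.mem_filter] at hi
        have := hz i hi.1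
        simp only [hi.2, if_true] at this
        exact hh ⟨i, hi.2, this⟩
      rw [hcard, this, Finset.card_empty, add_zero]
      exact h1
  · intro q hq
    by_cases hex : ∃ i ∈ N, dist i q < 3 * R
    · obtain ⟨i, hiN, hiq⟩ := hex
      have hqnb : q ∈ nb i := by
        rw [hnb]
        exact ⟨hq, by rw [dist_comm]; exact hiq⟩
      have h1 : ∑ c ∈ S q, (if hit q c then φ q c * ((J : ℝ) / (5 * c.2)) else φ q c) =
          ∑ c ∈ S q, ψ i (jj i) q c := by
        refine Finset.sum_congr rfl fun c hc => ?_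
        simp only [ψ]
        by_cases hh : |dist c.1 i - (R + jj i)| ≤ 2 * c.2
        · rw [if_pos hh, if_pos ⟨i, hiN, hiq, hh⟩]
        · rw [if_neg hh, if_neg]
          rintro ⟨i', hi'N, hi'q, hh'⟩
          have := huniq q i' i hi'N hiN hi'q hiq
          subst this
          exact hh hh'
      rw [h1]
      refine le_trans ?_ (hjpot i)
      refine Finset.single_le_sum (f := fun q => ∑ c ∈ S q, ψ i (jj i) q c) ?_ hqnb
      intro q' _
      exact Finset.sum_nonneg fun c hc => hψ0 i (jj i) q' c hc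
    · have h1 : ∑ c ∈ S q, (if hit q c then φ q c * ((J : ℝ) / (5 * c.2)) else φ q c) =
          ∑ c ∈ S q, φ q c := by
        refine Finset.sum_congr rfl fun c hc => ?_
        rw [if_neg]
        rintro ⟨i', hi'N, hi'q, -⟩
        exact hex ⟨i', hi'N, hi'q⟩
      rw [h1]
      refine (h.pot q hq).trans ?_
      have hD1 : 1 ≤ D := by
        have := hD q {q} (by simp; linarith) (by
          intro a ha b hb hne
          simp only [Finset.coe_singleton, mem_singleton_iff] at ha hb
          exact absurd (ha.trans hb.symm) hne)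
        simpa using this
      have hD1' : (1 : ℝ) ≤ D := by exact_mod_cast hD1
      rw [pow_succ]
      have : 0 ≤ (2 * (D : ℝ)) ^ m * B := by positivity
      nlinarith
  · intro c hc hcU
    have hcU' : c ∉ U := fun hh => hcU (Or.inl hh)
    obtain ⟨F, hFU, hFc, hFd⟩ := h.deg c hc hcU'
    obtain ⟨y, hyN, hyd⟩ := hNmax c ⟨hc, hcU'⟩
    have hyF : y ∉ F := fun hh => (hNC hyN).2 (hFU hh)
    refine ⟨insert y F, ?_, ?_, ?_⟩
    · intro x hx
      rw [Finset.coe_insert] at hx
      rcases hx with rfl | hx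
      · exact Or.inr hyN
      · exact Or.inl (hFU hx)
    · rw [Finset.card_insert_of_notMem hyF, hFc]
    · intro x hx
      rw [Finset.mem_insert] at hx
      rcases hx with rfl | hx
      · rw [dist_comm]; exact hyd
      · exact hFd x hx

/-- choice of the radii -/
lemma exists_radiiC {C : Set X} {R B : ℝ} {J D k : ℕ} {S : X → Finset (X × ℝ)}
    (hJ1 : 1 ≤ J) (hJR : (J : ℝ) ≤ R) (hB : 0 ≤ B)
    (hS : ∀ q, ∀ c ∈ S q, 1 ≤ c.2 ∧ 5 * c.2 ≤ J)
    (hSB : ∀ q, ∑ c ∈ S q, c.2 ^ k ≤ B) (hsep : Sep R C)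
    (hcov : ∀ q x, dist x q ≤ R → ∃ c ∈ S q, dist x c.1 ≤ c.2)
    (hCmax : ∀ x, ∃ c ∈ C, dist x c < R)
    (hD : ∀ (q : X) (F : Finset X), (∀ x ∈ F, dist x q ≤ 6 * R) → Sep R (F : Set X) → F.card ≤ D)
    (hlt : (2 * D) ^ D * B < ((J : ℝ) / 5) ^ k) :
    ∃ r : X → ℝ, (∀ i ∈ C, R ≤ r i ∧ r i ≤ 2 * R - 1) ∧
      ∀ x, ∀ F : Finset X, (F : Set X) ⊆ C → (∀ i ∈ F, |dist x i - r i| ≤ 1) →
        F.card < k := by
  classical
  have hJ' : (1 : ℝ) ≤ J := by exact_mod_cast hJ1
  have hR0 : 0 < R := by linarith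
  have hst : ∀ m : ℕ, ∃ U r φ, StateC C R B J D k m S U r φ := by
    intro m
    induction m with
    | zero =>
      refine ⟨∅, fun _ => 0, fun _ c => c.2 ^ k, empty_subset _, by simp, ?_, ?_, ?_⟩
      · intro q c hc F hF _
        have : F = ∅ := by
          rw [← Finset.coe_eq_empty]
          exact subset_empty_iff.1 hF
        simp [this]
      · intro q _
        rw [pow_zero, one_mul]
        exact hSB q
      · intro c _ _
        exact ⟨∅, by simp, rfl, by simp⟩
    | succ m ih =>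
      obtain ⟨U, r, φ, h⟩ := ih
      exact stateC_step hJ1 hJR hB hS hsep hD h
  obtain ⟨U, r, φ, h⟩ := hst D
  have hU : C ⊆ U := by
    intro c hc
    by_contra hcU
    obtain ⟨F, hFU, hFc, hFd⟩ := h.deg c hc hcU
    have hcF : c ∉ F := fun hh => hcU (hFU hh)
    have := hD c (insert c F) (by
      intro x hx
      rw [Finset.mem_insert] at hx
      rcases hx with rfl | hx
      · rw [dist_self]; linarith
      · exact (hFd x hx).le) (by
      refine hsep.mono ?_
      intro x hx
      rw [Finset.coe_insert] at hx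
      rcases hx with rfl | hx
      · exact hc
      · exact h.sub (hFU hx))
    rw [Finset.card_insert_of_notMem hcF] at this
    omega
  refine ⟨r, fun i hi => h.rad i (hU hi), fun x F hF hFx => ?_⟩
  by_contra hcon
  push Not at hcon
  obtain ⟨F', hF'F, hF'c⟩ := Finset.exists_subset_card_eq hcon
  obtain ⟨q, hqC, hq⟩ := hCmax x
  obtain ⟨c, hcS, hc⟩ := hcov q x hq.le
  have hc1 := (hS q c hcS).1
  have h1 := h.cnt q c hcS F' (fun i hi => hU (hF (hF'F hi))) (by
    intro i hi
    have h2 := hFx i (hF'F hi)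
    have h3 := (h.rad i (hU (hF (hF'F hi)))).2
    rw [abs_le] at h2
    refine ⟨?_, ?_⟩
    · have h4 := dist_triangle_left i q x
      linarith
    · have h4 := abs_dist_sub_le c.1 x i
      rw [dist_comm c.1 x] at h4
      rw [abs_le] at h4 ⊢
      constructor <;> linarith [h4.1, h4.2, h2.1, h2.2])
  rw [hF'c] at h1
  have h5 : c.2 ^ k * ((J : ℝ) / (5 * c.2)) ^ k = ((J : ℝ) / 5) ^ k := by
    rw [← mul_pow]
    congr 1
    field_simp
  rw [h5] at h1
  have h6 : φ q c ≤ ∑ c ∈ S q, φ q c := by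
    refine Finset.single_le_sum (f := φ q) (fun c' hc' => ?_) hcS
    have h7 := h.cnt q c' hc' ∅ (by simp) (by simp)
    have h8 : (0 : ℝ) ≤ c'.2 ^ k * ((J : ℝ) / (5 * c'.2)) ^ (∅ : Finset X).card := by
      have := (hS q c' hc').1
      positivity
    linarith
  have h7 := h.pot q hqC
  linarith

/-- [COVC], barycentric form -/
theorem covc {X : Type} [MetricSpace X] (d D J : ℕ) (R B : ℝ) (S : X → Finset (X × ℝ))
    (hJ1 : 1 ≤ J) (hJR : (J : ℝ) ≤ R) (hB : 0 ≤ B)
    (hS : ∀ q, ∀ c ∈ S q, 1 ≤ c.2 ∧ 5 * c.2 ≤ J)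
    (hSB : ∀ q, ∑ c ∈ S q, c.2 ^ (d + 1) ≤ B)
    (hcov : ∀ q x, dist x q ≤ R → ∃ c ∈ S q, dist x c.1 ≤ c.2)
    (hD : ∀ (q : X) (F : Finset X), (∀ x ∈ F, dist x q ≤ 6 * R) → Sep R (F : Set X) → F.card ≤ D)
    (hlt : (2 * D) ^ D * B < ((J : ℝ) / 5) ^ (d + 1)) :
    ∃ (V : Type) (lam : V → X → ℝ), TP.Bary X V d lam ∧
      ∀ x y, (∀ v, lam v x = lam v y) → dist x y ≤ 4 * R := by
  classical
  have hJ' : (1 : ℝ) ≤ J := by exact_mod_cast hJ1
  have hR0 : 0 < R := by linarith
  obtain ⟨C, -, hCsep, hCmax⟩ := exists_max_sep hR0 (univ : Set X)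
  obtain ⟨r, hr, hcount⟩ := exists_radiiC hJ1 hJR hB hS hSB hCsep hcov
    (fun x => hCmax x (mem_univ _)) hD hlt
  have hCfin : ∀ q : X, {i : C | dist (i : X) q ≤ 6 * R}.Finite := by
    intro q
    have h1 : {i : X | i ∈ C ∧ dist i q ≤ 6 * R}.Finite :=
      finite_of_card_le (D := D) fun F hF =>
        hD q F (fun x hx => (hF hx).2) (hCsep.mono fun x hx => (hF hx).1)
    refine (h1.preimage (f := ((↑) : C → X)) Subtype.val_injective.injOn).subset ?_
    intro i hi
    exact ⟨i.2, hi⟩
  -- the bump covering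
  let u : C → X → ℝ := fun i x => max 0 (min 1 (r i + 1 - dist x i))
  have hucont : ∀ i, Continuous (u i) := fun i => by
    simp only [u]
    fun_prop
  have hupos : ∀ (i : C) (x : X), u i x ≠ 0 → dist x i < r i + 1 := by
    intro i x h
    by_contra hcon
    push Not at hcon
    apply h
    simp only [u]
    rw [max_eq_left]
    exact (min_le_right _ _).trans (by linarith)
  have huone : ∀ (i : C) (x : X), dist x i ≤ r i → u i x = 1 := by
    intro i x h
    simp only [u]
    have : 1 ≤ r i + 1 - dist x i := by linarith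
    rw [min_eq_left this, max_eq_right zero_le_one]
  have hule : ∀ i x, u i x ≤ 1 := by
    intro i x
    simp only [u]
    exact max_le zero_le_one (min_le_left _ _)
  have hu0 : ∀ i x, 0 ≤ u i x := fun i x => le_max_left _ _
  have hlf : LocallyFinite fun i : C => Function.support (u i) := by
    intro x
    refine ⟨ball x R, ball_mem_nhds _ hR0, (hCfin x).subset ?_⟩
    rintro i ⟨y, hy, hyx⟩
    have h1 := hupos i y hy
    have h2 := (hr i i.2).2
    rw [mem_ball] at hyx
    have h3 := dist_triangle_left (i : X) x y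
    show dist (i : X) x ≤ 6 * R
    linarith
  let f : BumpCovering C X univ :=
    { toFun := fun i => ⟨u i, hucont i⟩
      locallyFinite' := hlf
      nonneg' := fun i x => hu0 i x
      le_one' := fun i x => hule i x
      eventuallyEq_one' := by
        intro x _
        obtain ⟨c, hcC, hc⟩ := hCmax x (mem_univ _)
        refine ⟨⟨c, hcC⟩, ?_⟩
        have : ∀ᶠ y in 𝓝 x, dist y c < R :=
          (continuous_id.dist continuous_const).continuousAt.eventually (gt_mem_nhds hc)
        filter_upwards [this] with y hy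
        exact huone ⟨c, hcC⟩ y (by
          have := (hr c hcC).1
          exact hy.le.trans this) }
  have hfu : ∀ i x, f i x = u i x := fun i x => rfl
  set ρ := f.toPartitionOfUnity with hρ
  have hρne : ∀ i x, ρ i x ≠ 0 → u i x ≠ 0 ∧ ∀ j, WellOrderingRel j i → u j x ≠ 1 := by
    intro i x hne
    have hne' : f.toPOUFun i x ≠ 0 := hne
    have hui : u i x ≠ 0 := fun h0 => hne' (f.toPOUFun_zero_of_zero h0)
    refine ⟨hui, fun j hj h1 => hne' ?_⟩
    have hfin : {j | f j x ≠ 0}.Finite := f.point_finite x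
    rw [f.toPOUFun_eq_mul_prod i x hfin.toFinset (fun j _ hj => by simpa using hj)]
    have : ∏ j ∈ hfin.toFinset with WellOrderingRel j i, (1 - f j x) = 0 := by
      refine Finset.prod_eq_zero (i := j) ?_ ?_
      · rw [Finset.mem_filter]
        refine ⟨?_, hj⟩
        rw [Finite.mem_toFinset]
        show f j x ≠ 0
        rw [hfu, h1]
        exact one_ne_zero
      · rw [hfu, h1, sub_self]
    rw [this, mul_zero]
  refine ⟨C, fun i x => ρ i x, ⟨fun i => (ρ i).continuous, fun i x => ρ.nonneg i x,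
    ρ.locallyFinite, fun x => ρ.sum_eq_one (mem_univ x), ?_⟩, ?_⟩
  · intro x
    by_contra hcon
    push Not at hcon
    have hfin : {v | ρ v x ≠ 0}.Finite := ρ.locallyFinite.point_finite x
    rw [Set.ncard_eq_toFinset_card _ hfin] at hcon
    set G := hfin.toFinset with hG
    letI : LinearOrder C := linearOrderOfSTO WellOrderingRel
    have hGne : G.Nonempty := Finset.card_pos.1 (by omega)
    set i₀ := G.max' hGne with hi₀
    have hi₀G : i₀ ∈ G := Finset.max'_mem _ _
    have hi₀' : ρ i₀ x ≠ 0 := by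
      have := hi₀G
      rw [hG, Finite.mem_toFinset] at this
      exact this
    set G' := G.erase i₀ with hG'
    have hG'c : d + 1 ≤ G'.card := by
      rw [hG', Finset.card_erase_of_mem hi₀G]
      omega
    have := hcount x (G'.map ⟨Subtype.val, Subtype.val_injective⟩) (by
      intro y hy
      rw [Finset.coe_map] at hy
      obtain ⟨i, _, rfl⟩ := hy
      exact i.2) (by
      intro y hy
      rw [Finset.mem_map] at hy
      obtain ⟨i, hi, rfl⟩ := hy
      show |dist x (i : X) - r i| ≤ 1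
      rw [hG', Finset.mem_erase] at hi
      have hi' : ρ i x ≠ 0 := by
        have := hi.2
        rw [hG, Finite.mem_toFinset] at this
        exact this
      have hlt : i < i₀ := lt_of_le_of_ne (Finset.le_max' _ _ hi.2) hi.1
      have h1 := (hρne i₀ x hi₀').2 i hlt
      have h2 := hupos i x (hρne i x hi').1
      have h3 : r i < dist x i := by
        by_contra hh
        exact h1 (huone i x (not_lt.1 hh))
      rw [abs_le]
      constructor <;> linarith)
    rw [Finset.card_map] at this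
    omega
  · intro x y hxy
    obtain ⟨i, hi⟩ : ∃ i, ρ i x ≠ 0 := by
      obtain ⟨i, hi⟩ := ρ.exists_pos (mem_univ x)
      exact ⟨i, hi.ne'⟩
    have hi2 : ρ i y ≠ 0 := by
      have := hxy i
      simp only at this
      rw [← this]; exact hi
    have h1 := hupos i x (hρne i x hi).1
    have h2 := hupos i y (hρne i y hi2).1
    have h3 := (hr i i.2).2
    have h4 := dist_triangle_right x y i
    linarith

/-- the width of the empty space -/
lemma urysohn_of_isEmpty {X : Type} [MetricSpace X] [IsEmpty X] (d : ℕ) (C : ℝ) :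
    H53.UrysohnWidthLE X d C := by
  refine urysohn_of_bary ⟨Empty, fun v => v.elim, ⟨fun v => v.elim, fun v => v.elim,
    ?_, fun x => isEmptyElim x, fun x => isEmptyElim x⟩, fun x => isEmptyElim x⟩
  intro x
  exact isEmptyElim x

/-- [COVC] in the form of the plan -/
theorem covc_holds : H53.Stmt.COVC := by
  classical
  intro n D hn
  set Q : ℝ := (2 * (D : ℝ)) ^ D + 1 with hQ
  have hQ0 : 0 < Q := by positivity
  have hQ1 : 1 ≤ Q := by
    have : (0 : ℝ) ≤ (2 * (D : ℝ)) ^ D := by positivity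
    linarith
  refine ⟨1 / (Q * 10 ^ (n - 1)), by positivity, 4, ?_⟩
  intro X _ _ R hR hD hA
  rcases isEmpty_or_nonempty X with hX | hX
  · exact urysohn_of_isEmpty _ _
  set ε : ℝ := 1 / (Q * 10 ^ (n - 1)) with hε
  have hε0 : 0 < ε := by rw [hε]; positivity
  have hA' : ∀ x : X, ∃ S : Finset (X × ℝ), (∀ c ∈ S, 1 ≤ c.2) ∧
      closedBall x (8 * R) ⊆ ⋃ c ∈ S, closedBall c.1 c.2 ∧
      ∑ c ∈ S, c.2 ^ (n - 1) < ε * R ^ (n - 1) := by
    intro x
    have := hA x
    unfold H53.HCge at this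
    push Not at this
    exact this
  choose S hS1 hScov hSB using hA'
  have hεQ : ε * R ^ (n - 1) = (R / 10) ^ (n - 1) / Q := by
    rw [hε, div_pow]
    field_simp
  have hεle : ε * R ^ (n - 1) ≤ (R / 10) ^ (n - 1) := by
    rw [hεQ]
    exact div_le_self (by positivity) hQ1
  have hn1 : n - 1 ≠ 0 := by omega
  have hc10 : ∀ q, ∀ c ∈ S q, c.2 < R / 10 := by
    intro q c hc
    have h1 : c.2 ^ (n - 1) ≤ ∑ c ∈ S q, c.2 ^ (n - 1) :=
      Finset.single_le_sum (f := fun c : X × ℝ => c.2 ^ (n - 1))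
        (fun c' hc' => pow_nonneg (by linarith [hS1 q c' hc']) _) hc
    have h2 : c.2 ^ (n - 1) < (R / 10) ^ (n - 1) := by
      have := hSB q
      linarith
    exact lt_of_pow_lt_pow_left₀ (n - 1) (by positivity) h2
  have hcov : ∀ q x, dist x q ≤ R → ∃ c ∈ S q, dist x c.1 ≤ c.2 := by
    intro q x hx
    have h1 := hScov q (show x ∈ closedBall q (8 * R) by
      rw [mem_closedBall]; linarith)
    rw [mem_iUnion₂] at h1
    obtain ⟨c, hc, hxc⟩ := h1
    exact ⟨c, hc, by rwa [mem_closedBall] at hxc⟩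
  have hR10 : 10 < R := by
    obtain ⟨x₀⟩ := hX
    obtain ⟨c, hc, -⟩ := hcov x₀ x₀ (by rw [dist_self]; exact hR.le)
    have h1 := hS1 x₀ c hc
    have h2 := hc10 x₀ c hc
    linarith
  set J : ℕ := ⌊R⌋₊ with hJ
  have hJ1 : (J : ℝ) ≤ R := Nat.floor_le hR.le
  have hJ2 : R - 1 < J := by
    have := Nat.lt_floor_add_one R
    rw [← hJ] at this
    linarith
  have hJ3 : 1 ≤ J := by
    have : (1 : ℝ) ≤ J := by linarith
    exact_mod_cast this
  have hlt : (2 * (D : ℝ)) ^ D * (ε * R ^ (n - 1)) < ((J : ℝ) / 5) ^ (n - 2 + 1) := by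
    have h1 : n - 2 + 1 = n - 1 := by omega
    rw [h1, hεQ]
    have h3 : (R / 10) ^ (n - 1) ≤ ((J : ℝ) / 5) ^ (n - 1) :=
      pow_le_pow_left₀ (by positivity) (by linarith) _
    have h4 : 0 < (R / 10) ^ (n - 1) := by positivity
    calc (2 * (D : ℝ)) ^ D * ((R / 10) ^ (n - 1) / Q)
        < Q * ((R / 10) ^ (n - 1) / Q) := by
          refine mul_lt_mul_of_pos_right ?_ (by positivity)
          rw [hQ]; linarith
      _ = (R / 10) ^ (n - 1) := by field_simp
      _ ≤ _ := h3
  have h21 : n - 2 + 1 = n - 1 := by omega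
  obtain ⟨V, lam, hB, hd⟩ := covc (X := X) (n - 2) D J R (ε * R ^ (n - 1)) S hJ3 hJ1
    (by positivity) (fun q c hc => ⟨hS1 q c hc, by linarith [hc10 q c hc]⟩)
    (fun q => by rw [h21]; exact (hSB q).le) hcov
    (fun q F h1 h2 => hD q F (fun x hx => (h1 x hx).trans (by linarith))
      (fun x hx y hy hne => h2 hx hy hne)) hlt
  exact urysohn_of_bary ⟨V, lam, hB, fun x y hxy => hd x y hxy⟩

end Vale.Agent.P210.R2.H912
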