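import Vale.Agent.P210.R2.H53.RSpec
import Vale.Agent.P210.R2.H53.Base
import Vale.Agent.P210.R2.H50.Inp
import Mathlib.Analysis.Complex.ExponentialBounds

/-! # P210: content and width for classes of manifolds given by any property `Q`

`Q E M μ` replaces the lower bound of the scalar curvature. -/

open scoped Manifold ContDiff Topology Bundle ENNReal NNReal
open Set Metric Filter Bundle IsManifold MeasureTheory Manifold

set_option maxSynthPendingDepth 3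

noncomputable section

namespace Vale.Agent.P210.R2.H912

open H53 H401

/-- a property of Riemannian manifolds with a measure -/
abbrev PropMu : Type 1 := ∀ (E : Type) [NormedAddCommGroup E] [NormedSpace ℝ E]
    [FiniteDimensional ℝ E] [MeasurableSpace E] [BorelSpace E]
    (M : Type) [MetricSpace M] [ChartedSpace E M]
    [RiemannianBundle (fun x : M => TangentSpace 𝓘(ℝ, E) x)]
    [IsManifold 𝓘(ℝ, E) ∞ M]
    [IsContMDiffRiemannianBundle 𝓘(ℝ, E) ∞ E (fun x : M => TangentSpace 𝓘(ℝ, E) x)]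
    [IsRiemannianManifold 𝓘(ℝ, E) M] [MeasurableSpace M] [BorelSpace M] [ProperSpace M],
    Measure M → Prop

/-- END for the class `Q` -/
def ENDQ (n : ℕ) (Q : PropMu) : Prop := ∃ η > 0, ∃ L > 0,
  H53.Stmt.ForK n fun E _ _ _ _ _ M _ _ _ _ _ _ _ _ _ μ K => Q E M μ →
  ∀ (y : M) (r : ℝ) (p : Fin (n - 1) → M), L ≤ r → K * r ^ 2 ≤ η →
    (∀ i, Pole E μ K η (p i) y r) →
    (∀ i j, i ≠ j → ∃ σ : ℝ, |σ| ≤ 1 / (16 * n) ∧
      GrN E μ (p i) (p j) y (4 * r) σ (η * μ.real (ball y r))) → False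

/-- CONTENT for the class `Q` -/
def CONTENTQ (n : ℕ) (Q : PropMu) : Prop := ∀ ε > 0, ∃ R > 0, ∃ δ > 0,
  H53.Stmt.ForK n fun E _ _ _ _ _ M _ _ _ _ _ _ _ _ _ μ K => K ≤ δ → Q E M μ →
  ∀ y : M, ¬ HCge n 1 (closedBall y R) (ε * R ^ (n - 1))

/-- the width for the class `Q` -/
def FINALQ (n : ℕ) (Q : PropMu) : Prop := ∃ δ > 0, ∃ C : ℝ,
  H53.Stmt.ForR fun E _ _ _ _ _ M _ _ _ _ _ _ _ _ _ => Module.finrank ℝ E = n →
  ∀ μ : Measure M, IsVol E μ → RicGE E M (-δ) → Q E M μ → H53.UrysohnWidthLE M (n - 2) C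

/-- the class of spaces coming from manifolds of dimension `n` with `Ric ≥ -K` and `Q` -/
inductive ClsQ (n : ℕ) (Q : PropMu) : Sp → Prop
  | mk (E : Type) [NormedAddCommGroup E] [NormedSpace ℝ E]
    [FiniteDimensional ℝ E] [MeasurableSpace E] [BorelSpace E]
    (M : Type) [MetricSpace M] [ChartedSpace E M]
    [RiemannianBundle (fun x : M => TangentSpace 𝓘(ℝ, E) x)]
    [IsManifold 𝓘(ℝ, E) ∞ M]
    [IsContMDiffRiemannianBundle 𝓘(ℝ, E) ∞ E (fun x : M => TangentSpace 𝓘(ℝ, E) x)]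
    [IsRiemannianManifold 𝓘(ℝ, E) M] [MeasurableSpace M] [BorelSpace M] [ProperSpace M]
    (μ : Measure M) (K : ℝ) (h1 : 1 ≤ Module.finrank ℝ E) (hn : Module.finrank ℝ E = n)
    (hμ : IsVol E μ) (hK : 0 < K) (hR : RicGE E M (-K)) (hS : Q E M μ) :
    ClsQ n Q (H50.toSp E μ K)

variable {n : ℕ} {Q : PropMu}

/-- the axioms hold for manifolds -/
theorem ax_clsQ (hBG : H53.Stmt.BG) (hA : H53.Stmt.CALA) (hB : H53.Stmt.CALB)
    (hn2 : 2 ≤ n) {S : Sp} (hS : ClsQ n Q S) : Ax n S := by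
  obtain ⟨E, M, μ, K, h1, hn, hμ, hK, hR, hS⟩ := hS
  have cal := H597.cal_of hA hB E M h1 μ hμ
  have bg := hBG n hn2 E M h1 hn μ K hμ hK hR
  refine ⟨hK, fun x r hr => H50.ball_pos cal x hr, fun x y s t hst => H50.ball_mono cal hst, bg,
    fun Z y s t hZ hd => H50.ball_pack cal Z y s t hZ hd, ?_, ?_, ?_⟩
  · intro p y z s s' a a' hs ha hl w hw h1 h0
    refine (hl w hw h1 fun q hq => h0 q ?_).trans ha
    have := dist_triangle q z y
    linarith
  · intro p p' y z s s' σ a a' hs ha hg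
    refine le_trans ?_ (hg.trans ha)
    exact setIntegral_mono_set (H50.int_gr cal p p' y s σ)
      (Eventually.of_forall fun q => abs_nonneg _) (H50.ball_sub hs).eventuallyLE
  · intro p p' y s σ a hg
    refine le_trans (le_of_eq ?_) hg
    refine integral_congr_ae (Eventually.of_forall fun q => ?_)
    change |_ - σ| = |_ - σ|
    rw [cal.symm]

theorem inpQ (hBG : H53.Stmt.BG) (hM : H53.Stmt.MASS) (hC : H53.Stmt.CONI)
    (hSl : H53.Stmt.SLOPE) (hE : ENDQ n Q) (hA : H53.Stmt.CALA) (hB : H53.Stmt.CALB)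
    (hn2 : 2 ≤ n) : Inp n (ClsQ n Q) := by
  refine ⟨fun S hS => ax_clsQ hBG hA hB hn2 hS, ?_, ?_, ?_, ?_⟩
  · obtain ⟨c, hc, H⟩ := hM n hn2
    refine ⟨c, hc, fun S hS => ?_⟩
    obtain ⟨E, M, μ, K, h1, hn, hμ, hK, hR, hS⟩ := hS
    exact H E M h1 hn μ K hμ hK hR
  · intro Ψ hΨ
    obtain ⟨c, hc, H⟩ := hC n hn2 Ψ hΨ
    refine ⟨c, hc, fun lam hl => ?_⟩
    obtain ⟨e, he, H⟩ := H lam hl
    refine ⟨e, he, fun S hS => ?_⟩
    obtain ⟨E, M, μ, K, h1, hn, hμ, hK, hR, hS⟩ := hS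
    exact H E M h1 hn μ K hμ hK hR
  · intro Ψ hΨ
    obtain ⟨c, hc, H⟩ := hSl n hn2 Ψ hΨ
    refine ⟨c, hc, fun lam hl => ?_⟩
    obtain ⟨e, he, H⟩ := H lam hl
    refine ⟨e, he, fun S hS => ?_⟩
    obtain ⟨E, M, μ, K, h1, hn, hμ, hK, hR, hS⟩ := hS
    exact H E M h1 hn μ K hμ hK hR
  · obtain ⟨e, he, L, hL, H⟩ := hE
    refine ⟨e, he, L, hL, fun S hS => ?_⟩
    obtain ⟨E, M, μ, K, h1, hn, hμ, hK, hR, hS⟩ := hS
    exact H E M h1 hn μ K hμ hK hR hS

/-- CONTENT for the class `Q` -/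
theorem contentQ (hn2 : 2 ≤ n) (hBG : H53.Stmt.BG) (hM : H53.Stmt.MASS) (hC : H53.Stmt.CONI)
    (hSl : H53.Stmt.SLOPE) (hE : ENDQ n Q) (hA : H53.Stmt.CALA) (hB : H53.Stmt.CALB)
    (hAbs : H401.Stmt.ABS) : CONTENTQ n Q := by
  intro ε hε
  obtain ⟨R, hR, δ, hδ, H⟩ := hAbs n (ClsQ n Q) hn2 (inpQ hBG hM hC hSl hE hA hB hn2) ε hε
  refine ⟨R, hR, δ, hδ, ?_⟩
  intro E _ _ _ _ _ M _ _ _ _ _ _ _ _ _ h1 hn μ K hμ hK hRic hKδ hQ y
  exact H _ (ClsQ.mk E M μ K h1 hn hμ hK hRic hQ) hKδ y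

/-- the width for the class `Q` -/
theorem finalQ (hn : 3 ≤ n) (hCALA : H53.Stmt.CALA) (hBG : H53.Stmt.BG)
    (hCONT : CONTENTQ n Q) (hCOVC : H53.Stmt.COVC) : FINALQ n Q := by
  classical
  obtain ⟨ε, hε, C, hcov⟩ := hCOVC n (36 ^ n * 3) hn
  obtain ⟨R', hR', δ₀, hδ₀, hcont⟩ := hCONT (ε / 8 ^ (n - 1)) (by positivity)
  set R : ℝ := R' / 8 with hR
  have hR0 : 0 < R := by positivity
  set δ : ℝ := min δ₀ (1 / (18 * R) ^ 2) with hδ
  have hδ1 : 0 < δ := lt_min hδ₀ (by positivity)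
  have hδR : δ * (18 * R) ^ 2 ≤ 1 := by
    have h1 : δ ≤ 1 / (18 * R) ^ 2 := min_le_right _ _
    rwa [le_div_iff₀ (by positivity)] at h1
  refine ⟨δ, hδ1, C * R, ?_⟩
  intro E _ _ _ _ _ M _ _ _ _ _ _ _ _ _ h1 hdim μ hμ hRic hQ
  obtain ⟨hfin, hpos, -⟩ := hCALA E M h1 μ hμ
  have hfinb : ∀ (x : M) (s : ℝ), μ (ball x s) ≠ ⊤ := fun x s =>
    ((measure_mono ball_subset_closedBall).trans_lt (hfin _ (isCompact_closedBall x s))).ne
  refine hcov M R hR0 ?_ ?_
  · intro x s hs hsep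
    have hb : ∀ y ∈ s, μ.real (ball x (9 * R)) ≤ 36 ^ n * 3 * μ.real (ball y (R / 2)) := by
      intro y hy
      have h2 := hBG n (by omega) E M h1 hdim μ δ hμ hδ1 hRic y (R / 2) (18 * R)
        (by positivity) (by linarith)
      have h3 : (18 * R / (R / 2)) ^ n = 36 ^ n := by
        congr 1
        field_simp
        norm_num
      rw [h3] at h2
      have h4 : Real.exp (δ * (18 * R) ^ 2) ≤ 3 :=
        (Real.exp_le_exp.2 hδR).trans Real.exp_one_lt_three.le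
      have h5 : ball x (9 * R) ⊆ ball y (18 * R) := by
        intro z hz
        rw [mem_ball] at hz ⊢
        have := hs y hy
        have := dist_triangle_right z y x
        linarith
      calc μ.real (ball x (9 * R)) ≤ μ.real (ball y (18 * R)) :=
            measureReal_mono h5 (hfinb _ _)
        _ ≤ _ := h2
        _ ≤ 36 ^ n * 3 * μ.real (ball y (R / 2)) := by
            gcongr
    have hdisj : (s : Set M).PairwiseDisjoint fun y => ball y (R / 2) := by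
      intro y hy z hz hne
      refine ball_disjoint_ball ?_
      have := hsep y hy z hz hne
      linarith
    have hsum : ∑ y ∈ s, μ.real (ball y (R / 2)) ≤ μ.real (ball x (9 * R)) := by
      rw [← measureReal_biUnion_finset hdisj (fun y _ => measurableSet_ball)
        (fun y _ => hfinb _ _)]
      refine measureReal_mono ?_ (hfinb _ _)
      intro z hz
      rw [mem_iUnion₂] at hz
      obtain ⟨y, hy, hz⟩ := hz
      rw [mem_ball] at hz ⊢
      have := hs y hy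
      have := dist_triangle z y x
      linarith
    have hpos' : 0 < μ.real (ball x (9 * R)) :=
      ENNReal.toReal_pos (hpos _ isOpen_ball ⟨x, mem_ball_self (by positivity)⟩).ne' (hfinb _ _)
    have h6 : (s.card : ℝ) * μ.real (ball x (9 * R)) ≤
        36 ^ n * 3 * μ.real (ball x (9 * R)) := by
      calc (s.card : ℝ) * μ.real (ball x (9 * R)) = ∑ y ∈ s, μ.real (ball x (9 * R)) := by
            rw [Finset.sum_const, nsmul_eq_mul]
        _ ≤ ∑ y ∈ s, 36 ^ n * 3 * μ.real (ball y (R / 2)) := Finset.sum_le_sum hb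
        _ = 36 ^ n * 3 * ∑ y ∈ s, μ.real (ball y (R / 2)) := by rw [Finset.mul_sum]
        _ ≤ _ := mul_le_mul_of_nonneg_left hsum (by positivity)
    have h7 := le_of_mul_le_mul_right h6 hpos'
    exact_mod_cast h7
  · intro x hx
    refine hcont E M h1 hdim μ δ hμ hδ1 hRic (min_le_left _ _) hQ x ?_
    have h8 : 8 * R = R' := by rw [hR]; ring
    have h9 : ε / 8 ^ (n - 1) * R' ^ (n - 1) = ε * R ^ (n - 1) := by
      rw [hR, div_pow]
      field_simp
    rw [h9, ← h8]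
    exact hx

/-- the width for the class `Q`, for complete manifolds -/
theorem finalQ_complete (hVOL : H53.Stmt.VOL) (hn : 1 ≤ n) (h : FINALQ n Q) :
    ∃ δ > 0, ∃ C : ℝ, ∀ (E : Type) [NormedAddCommGroup E] [NormedSpace ℝ E]
      [FiniteDimensional ℝ E] [MeasurableSpace E] [BorelSpace E]
      (M : Type) [MetricSpace M] [ChartedSpace E M]
      [RiemannianBundle (fun x : M => TangentSpace 𝓘(ℝ, E) x)]
      [IsManifold 𝓘(ℝ, E) ∞ M]
      [IsContMDiffRiemannianBundle 𝓘(ℝ, E) ∞ E (fun x : M => TangentSpace 𝓘(ℝ, E) x)]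
      [IsRiemannianManifold 𝓘(ℝ, E) M] [MeasurableSpace M] [BorelSpace M] [ProperSpace M],
      Module.finrank ℝ E = n → RicGE E M (-δ) → (∀ μ : Measure M, IsVol E μ → Q E M μ) →
        H53.UrysohnWidthLE M (n - 2) C := by
  obtain ⟨δ, hδ, C, H⟩ := h
  refine ⟨δ, hδ, C, ?_⟩
  intro E _ _ _ _ _ M _ _ _ _ _ _ _ _ _ hdim hRic hQ
  have h1 : 1 ≤ Module.finrank ℝ E := by omega
  obtain ⟨μ, hμ⟩ := hVOL E M h1
  exact H E M h1 hdim μ hμ hRic (hQ μ hμ)

end Vale.Agent.P210.R2.H912
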