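import Vale.Agent.P210.R2.H53.TSpec

/-! # P210: the width in barycentric form (FINALS) -/

open scoped Manifold ContDiff Topology Bundle ENNReal NNReal
open Set Metric Filter Bundle IsManifold MeasureTheory Manifold

set_option maxSynthPendingDepth 3

noncomputable section

namespace Vale.Agent.P210.R2.H912

open Vale.Agent.P210 H53

/-- COVC with a barycentric conclusion -/
def COVCB : Prop := ∀ n D : ℕ, 3 ≤ n → ∃ ε > 0, ∃ C : ℝ, ∀ (X : Type) [MetricSpace X]
  [ProperSpace X] (R : ℝ), 0 < R →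
  (∀ (x : X) (s : Finset X), (∀ y ∈ s, dist y x ≤ 8 * R) →
    (∀ y ∈ s, ∀ z ∈ s, y ≠ z → R ≤ dist y z) → s.card ≤ D) →
  (∀ x : X, ¬ HCge n 1 (closedBall x (8 * R)) (ε * R ^ (n - 1))) →
  BW X (n - 2) (C * R)

/-- the width for the class `Q`, barycentric form -/
def FINALQB (n : ℕ) (Q : PropMu) : Prop := ∃ δ > 0, ∃ C : ℝ,
  H53.Stmt.ForR fun E _ _ _ _ _ M _ _ _ _ _ _ _ _ _ => Module.finrank ℝ E = n →
  ∀ μ : Measure M, IsVol E μ → RicGE E M (-δ) → Q E M μ → BW M (n - 2) C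

theorem bw_of_isEmpty {X : Type} [MetricSpace X] [IsEmpty X] (d : ℕ) (C : ℝ) : BW X d C :=
  ⟨Empty, fun _ _ => 0, ⟨fun v => v.elim, fun v => v.elim, fun x => isEmptyElim x,
    fun x => isEmptyElim x, fun x => isEmptyElim x⟩, fun x => isEmptyElim x⟩

/-- the covering theorem, barycentric form -/
theorem covcb : COVCB := by
  classical
  intro n D hn
  set Q : ℝ := (2 * (D : ℝ)) ^ D + 1 with hQ
  have hQ0 : 0 < Q := by positivity
  have hQ1 : 1 ≤ Q := by
    have : (0 : ℝ) ≤ (2 * (D : ℝ)) ^ D := by positivity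
    linarith
  refine ⟨1 / (Q * 10 ^ (n - 1)), by positivity, 4, ?_⟩
  intro X _ _ R hR hD hA
  rcases isEmpty_or_nonempty X with hX | hX
  · exact bw_of_isEmpty _ _
  set ε : ℝ := 1 / (Q * 10 ^ (n - 1)) with hε
  have hε0 : 0 < ε := by rw [hε]; positivity
  have hA' : ∀ x : X, ∃ S : Finset (X × ℝ), (∀ c ∈ S, 1 ≤ c.2) ∧
      closedBall x (8 * R) ⊆ ⋃ c ∈ S, closedBall c.1 c.2 ∧
      ∑ c ∈ S, c.2 ^ (n - 1) < ε * R ^ (n - 1) := by
    intro x
    have := hA x
    unfold H53.HCge at this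
    push Not at this
    exact this
  choose S hS1 hScov hSB using hA'
  have hεQ : ε * R ^ (n - 1) = (R / 10) ^ (n - 1) / Q := by
    rw [hε, div_pow]
    field_simp
  have hεle : ε * R ^ (n - 1) ≤ (R / 10) ^ (n - 1) := by
    rw [hεQ]
    exact div_le_self (by positivity) hQ1
  have hn1 : n - 1 ≠ 0 := by omega
  have hc10 : ∀ q, ∀ c ∈ S q, c.2 < R / 10 := by
    intro q c hc
    have h1 : c.2 ^ (n - 1) ≤ ∑ c ∈ S q, c.2 ^ (n - 1) :=
      Finset.single_le_sum (f := fun c : X × ℝ => c.2 ^ (n - 1))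
        (fun c' hc' => pow_nonneg (by linarith [hS1 q c' hc']) _) hc
    have h2 : c.2 ^ (n - 1) < (R / 10) ^ (n - 1) := by
      have := hSB q
      linarith
    exact lt_of_pow_lt_pow_left₀ (n - 1) (by positivity) h2
  have hcov : ∀ q x, dist x q ≤ R → ∃ c ∈ S q, dist x c.1 ≤ c.2 := by
    intro q x hx
    have h1 := hScov q (show x ∈ closedBall q (8 * R) by
      rw [mem_closedBall]; linarith)
    rw [mem_iUnion₂] at h1
    obtain ⟨c, hc, hxc⟩ := h1
    exact ⟨c, hc, by rwa [mem_closedBall] at hxc⟩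
  have hR10 : 10 < R := by
    obtain ⟨x₀⟩ := hX
    obtain ⟨c, hc, -⟩ := hcov x₀ x₀ (by rw [dist_self]; exact hR.le)
    have h1 := hS1 x₀ c hc
    have h2 := hc10 x₀ c hc
    linarith
  set J : ℕ := ⌊R⌋₊ with hJ
  have hJ1 : (J : ℝ) ≤ R := Nat.floor_le hR.le
  have hJ2 : R - 1 < J := by
    have := Nat.lt_floor_add_one R
    rw [← hJ] at this
    linarith
  have hJ3 : 1 ≤ J := by
    have : (1 : ℝ) ≤ J := by linarith
    exact_mod_cast this
  have hlt : (2 * (D : ℝ)) ^ D * (ε * R ^ (n - 1)) < ((J : ℝ) / 5) ^ (n - 2 + 1) := by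
    have h1 : n - 2 + 1 = n - 1 := by omega
    rw [h1, hεQ]
    have h3 : (R / 10) ^ (n - 1) ≤ ((J : ℝ) / 5) ^ (n - 1) :=
      pow_le_pow_left₀ (by positivity) (by linarith) _
    have h4 : 0 < (R / 10) ^ (n - 1) := by positivity
    calc (2 * (D : ℝ)) ^ D * ((R / 10) ^ (n - 1) / Q)
        < Q * ((R / 10) ^ (n - 1) / Q) := by
          refine mul_lt_mul_of_pos_right ?_ (by positivity)
          rw [hQ]; linarith
      _ = (R / 10) ^ (n - 1) := by field_simp
      _ ≤ _ := h3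
  have h21 : n - 2 + 1 = n - 1 := by omega
  obtain ⟨V, lam, hB, hd⟩ := covc (X := X) (n - 2) D J R (ε * R ^ (n - 1)) S hJ3 hJ1
    (by positivity) (fun q c hc => ⟨hS1 q c hc, by linarith [hc10 q c hc]⟩)
    (fun q => by rw [h21]; exact (hSB q).le) hcov
    (fun q F h1 h2 => hD q F (fun x hx => (h1 x hx).trans (by linarith))
      (fun x hx y hy hne => h2 hx hy hne)) hlt
  exact ⟨V, lam, hB, fun x y hxy => hd x y hxy⟩


variable {n : ℕ} {Q : PropMu}

/-- the width for the class `Q` -/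
theorem finalQB (hn : 3 ≤ n) (hCALA : H53.Stmt.CALA) (hBG : H53.Stmt.BG)
    (hCONT : CONTENTQ n Q) (hCOVC : COVCB) : FINALQB n Q := by
  classical
  obtain ⟨ε, hε, C, hcov⟩ := hCOVC n (36 ^ n * 3) hn
  obtain ⟨R', hR', δ₀, hδ₀, hcont⟩ := hCONT (ε / 8 ^ (n - 1)) (by positivity)
  set R : ℝ := R' / 8 with hR
  have hR0 : 0 < R := by positivity
  set δ : ℝ := min δ₀ (1 / (18 * R) ^ 2) with hδ
  have hδ1 : 0 < δ := lt_min hδ₀ (by positivity)
  have hδR : δ * (18 * R) ^ 2 ≤ 1 := by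
    have h1 : δ ≤ 1 / (18 * R) ^ 2 := min_le_right _ _
    rwa [le_div_iff₀ (by positivity)] at h1
  refine ⟨δ, hδ1, C * R, ?_⟩
  intro E _ _ _ _ _ M _ _ _ _ _ _ _ _ _ h1 hdim μ hμ hRic hQ
  obtain ⟨hfin, hpos, -⟩ := hCALA E M h1 μ hμ
  have hfinb : ∀ (x : M) (s : ℝ), μ (ball x s) ≠ ⊤ := fun x s =>
    ((measure_mono ball_subset_closedBall).trans_lt (hfin _ (isCompact_closedBall x s))).ne
  refine hcov M R hR0 ?_ ?_
  · intro x s hs hsep
    have hb : ∀ y ∈ s, μ.real (ball x (9 * R)) ≤ 36 ^ n * 3 * μ.real (ball y (R / 2)) := by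
      intro y hy
      have h2 := hBG n (by omega) E M h1 hdim μ δ hμ hδ1 hRic y (R / 2) (18 * R)
        (by positivity) (by linarith)
      have h3 : (18 * R / (R / 2)) ^ n = 36 ^ n := by
        congr 1
        field_simp
        norm_num
      rw [h3] at h2
      have h4 : Real.exp (δ * (18 * R) ^ 2) ≤ 3 :=
        (Real.exp_le_exp.2 hδR).trans Real.exp_one_lt_three.le
      have h5 : ball x (9 * R) ⊆ ball y (18 * R) := by
        intro z hz
        rw [mem_ball] at hz ⊢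
        have := hs y hy
        have := dist_triangle_right z y x
        linarith
      calc μ.real (ball x (9 * R)) ≤ μ.real (ball y (18 * R)) :=
            measureReal_mono h5 (hfinb _ _)
        _ ≤ _ := h2
        _ ≤ 36 ^ n * 3 * μ.real (ball y (R / 2)) := by
            gcongr
    have hdisj : (s : Set M).PairwiseDisjoint fun y => ball y (R / 2) := by
      intro y hy z hz hne
      refine ball_disjoint_ball ?_
      have := hsep y hy z hz hne
      linarith
    have hsum : ∑ y ∈ s, μ.real (ball y (R / 2)) ≤ μ.real (ball x (9 * R)) := by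
      rw [← measureReal_biUnion_finset hdisj (fun y _ => measurableSet_ball)
        (fun y _ => hfinb _ _)]
      refine measureReal_mono ?_ (hfinb _ _)
      intro z hz
      rw [mem_iUnion₂] at hz
      obtain ⟨y, hy, hz⟩ := hz
      rw [mem_ball] at hz ⊢
      have := hs y hy
      have := dist_triangle z y x
      linarith
    have hpos' : 0 < μ.real (ball x (9 * R)) :=
      ENNReal.toReal_pos (hpos _ isOpen_ball ⟨x, mem_ball_self (by positivity)⟩).ne' (hfinb _ _)
    have h6 : (s.card : ℝ) * μ.real (ball x (9 * R)) ≤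
        36 ^ n * 3 * μ.real (ball x (9 * R)) := by
      calc (s.card : ℝ) * μ.real (ball x (9 * R)) = ∑ y ∈ s, μ.real (ball x (9 * R)) := by
            rw [Finset.sum_const, nsmul_eq_mul]
        _ ≤ ∑ y ∈ s, 36 ^ n * 3 * μ.real (ball y (R / 2)) := Finset.sum_le_sum hb
        _ = 36 ^ n * 3 * ∑ y ∈ s, μ.real (ball y (R / 2)) := by rw [Finset.mul_sum]
        _ ≤ _ := mul_le_mul_of_nonneg_left hsum (by positivity)
    have h7 := le_of_mul_le_mul_right h6 hpos'
    exact_mod_cast h7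
  · intro x hx
    refine hcont E M h1 hdim μ δ hμ hδ1 hRic (min_le_left _ _) hQ x ?_
    have h8 : 8 * R = R' := by rw [hR]; ring
    have h9 : ε / 8 ^ (n - 1) * R' ^ (n - 1) = ε * R ^ (n - 1) := by
      rw [hR, div_pow]
      field_simp
    rw [h9, ← h8]
    exact hx

/-- FINALS -/
theorem finals (hCALA : H53.Stmt.CALA) (hCALB : H53.Stmt.CALB) (hBG : H53.Stmt.BG)
    (hM : H53.Stmt.MASS) (hC : H53.Stmt.CONI) (hSl : H53.Stmt.SLOPE) (hE : H53.Stmt.ENDS)
    (hAbs : H401.Stmt.ABS) : H53.Stmt.FINALS := by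
  intro n hn γ hγ c hc
  exact finalQB hn hCALA hBG
    (contentQ (by omega) hBG hM hC hSl (hE n hn γ hγ c hc) hCALA hCALB hAbs) covcb

end Vale.Agent.P210.R2.H912
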