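import Vale.Agent.P210.R2.H912.ProdB
import Vale.Agent.P210.R2.H53.TSpec

/-! # P210: compact sets in a simplicial complex, barycentric coordinates (PRODB) -/

open scoped Topology
open Set

noncomputable section

namespace Vale.Agent.P210.R2.H912

open Vale.Agent.P210

section real

variable {V : Type} {K : PreAbstractSimplicialComplex V}

/-- the vertices of the smallest face that contains `p` -/
def sp (p : Realization K) : Set V := {v | p.1 v ≠ 0}

theorem sp_sub {s : Finset V} {w : V → ℝ} (hw : w ∈ face s) : {v | w v ≠ 0} ⊆ (s : Set V) := by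
  intro v hv
  by_contra hn
  exact hv (hw.2.1 v hn)

theorem sp_fin (p : Realization K) : (sp p).Finite := by
  obtain ⟨s, hs, hp⟩ := p.2
  exact s.finite_toSet.subset (sp_sub hp)

theorem isClosed_real {A : Set (Realization K)}
    (h : ∀ s : K.faces, (faceMap K s ⁻¹' A).Finite) : IsClosed A :=
  isClosed_iSup_iff.2 fun s => isClosed_coinduced.2 (h s).isClosed

theorem faceMap_inj (s : K.faces) : Function.Injective (faceMap K s) := by
  intro w w' h
  have : w.1 = w'.1 := congrArg (fun p : Realization K => p.1) h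
  exact Subtype.ext this

/-- a set which contains at most one point in each open face is closed -/
theorem isClosed_of_injOn {A : Set (Realization K)} (hA : Set.InjOn sp A) : IsClosed A := by
  refine isClosed_real fun s => ?_
  have h1 : (A ∩ {p | sp p ⊆ (s.1 : Set V)}).Finite := by
    refine Set.Finite.of_finite_image (f := sp) ?_ (hA.mono inter_subset_left)
    refine (s.1.finite_toSet.finite_subsets).subset ?_
    rintro _ ⟨p, ⟨-, hp⟩, rfl⟩
    exact hp
  refine (h1.preimage (f := faceMap K s) (faceMap_inj s).injOn).subset ?_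
  intro w hw
  exact ⟨hw, sp_sub w.2⟩

/-- a compact set meets finitely many open faces -/
theorem finite_sp {C : Set (Realization K)} (hC : IsCompact C) : (sp '' C).Finite := by
  classical
  have hex : ∀ s : sp '' C, ∃ p, p ∈ C ∧ sp p = s := fun s => s.2
  choose c hc1 hc2 using hex
  set P : Set (Realization K) := range c with hP
  have hinj : Set.InjOn sp P := by
    rintro _ ⟨s, rfl⟩ _ ⟨t, rfl⟩ h
    rw [hc2, hc2] at h
    rw [Subtype.ext h]
  have hPC : P ⊆ C := by
    rintro _ ⟨s, rfl⟩
    exact hc1 s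
  have hcl : ∀ A ⊆ P, IsClosed A := fun A hA => isClosed_of_injOn (hinj.mono hA)
  have hPc : IsCompact P := hC.of_isClosed_subset (hcl P subset_rfl) hPC
  have hPd : IsDiscrete P := ⟨discreteTopology_iff_forall_isClosed.2 fun s => by
    have h1 : IsClosed (Subtype.val '' s) := hcl _ (by
      rintro _ ⟨x, -, rfl⟩
      exact x.2)
    have h2 := h1.preimage (continuous_subtype_val (p := fun x => x ∈ P))
    rwa [Set.preimage_image_eq _ Subtype.val_injective] at h2⟩
  have hPf : P.Finite := hPc.finite hPd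
  refine (hPf.image sp).subset ?_
  intro s hs
  exact ⟨c ⟨s, hs⟩, ⟨⟨s, hs⟩, rfl⟩, hc2 ⟨s, hs⟩⟩

theorem finite_vert {C : Set (Realization K)} (hC : IsCompact C) :
    {v | ∃ p ∈ C, p.1 v ≠ 0}.Finite := by
  have h1 : {v | ∃ p ∈ C, p.1 v ≠ 0} = ⋃₀ (sp '' C) := by
    ext v
    constructor
    · rintro ⟨p, hp, hv⟩
      exact ⟨sp p, ⟨p, hp, rfl⟩, hv⟩
    · rintro ⟨_, ⟨p, hp, rfl⟩, hv⟩
      exact ⟨p, hp, hv⟩
  rw [h1]
  refine (finite_sp hC).sUnion ?_
  rintro _ ⟨p, -, rfl⟩
  exact sp_fin p

theorem cont_coord (v : V) : Continuous fun p : Realization K => p.1 v := by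
  refine continuous_iSup_dom.2 fun s => continuous_coinduced_dom.2 ?_
  exact (continuous_apply v).comp continuous_subtype_val

end real

/-- barycentric coordinates from a map to a complex -/
theorem bary_of_map {X V : Type} [TopologicalSpace X] [LocallyCompactSpace X]
    {K : PreAbstractSimplicialComplex V} {k : ℕ} (hK : ∀ s ∈ K.faces, s.card ≤ k + 1)
    {g : X → Realization K} (hg : Continuous g) :
    TP.Bary X V k fun v x => (g x).1 v := by
  refine ⟨fun v => (cont_coord v).comp hg, ?_, ?_, ?_, ?_⟩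
  · intro v x
    obtain ⟨s, hs, hp⟩ := (g x).2
    exact hp.1 v
  · intro x
    obtain ⟨N, hN, hNx⟩ := exists_compact_mem_nhds x
    refine ⟨N, hNx, (finite_vert (hN.image hg)).subset ?_⟩
    rintro v ⟨y, hy, hyN⟩
    exact ⟨g y, ⟨y, hyN, rfl⟩, hy⟩
  · intro x
    obtain ⟨s, hs, hp⟩ := (g x).2
    rw [← hp.2.2]
    exact finsum_eq_sum_of_support_subset _ (sp_sub hp)
  · intro x
    obtain ⟨s, hs, hp⟩ := (g x).2
    calc {v | (g x).1 v ≠ 0}.ncard ≤ (s : Set V).ncard :=
          Set.ncard_le_ncard (sp_sub hp) s.finite_toSet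
      _ = s.card := Set.ncard_coe_finset s
      _ ≤ k + 1 := hK s hs

/-- PRODB -/
theorem prodb : H53.Stmt.PRODB := by
  refine ⟨fun X V W _ d k lam mu h h' => prodb1 X V W d k lam mu h h', ?_⟩
  intro X F _ _ _ k q hq hF
  obtain ⟨V, K, f, hK, hf, hinj⟩ := hF
  refine ⟨V, fun v x => (f (q x)).1 v, bary_of_map hK (hf.comp hq), ?_⟩
  intro x y hxy
  exact hinj (Subtype.ext (funext hxy))

end Vale.Agent.P210.R2.H912
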