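import Mathlib.Analysis.ODE.ExistUnique
import Vale.Agent.P210.R2.H53.Loc

/-!
Linear ODEs and parallel fields along a curve of a `LocalRiem` metric.
-/

set_option linter.all false

open scoped ContDiff Topology NNReal
open Set Metric Filter

set_option maxSynthPendingDepth 3

noncomputable section

namespace Vale.Agent.P210.R2.H912

section ode

lemma hasDerivWithinAt_of_notMem_closure' {F : Type*} [NormedAddCommGroup F] [NormedSpace ℝ F]
    {f : ℝ → F} {f' : F} {s : Set ℝ} {t : ℝ} (h : t ∉ closure s) : HasDerivWithinAt f f' s t :=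
  HasFDerivWithinAt.of_notMem_closure h

lemma glue_sol {F : Type*} [NormedAddCommGroup F] [NormedSpace ℝ F] {v : ℝ → F → F}
    {a c d : ℝ} (hac : a ≤ c) (hcd : c ≤ d) {y₁ y₂ : ℝ → F}
    (h₁ : ∀ t ∈ Icc a c, HasDerivWithinAt y₁ (v t (y₁ t)) (Icc a c) t)
    (h12 : y₂ c = y₁ c)
    (h₂ : ∀ t ∈ Icc c d, HasDerivWithinAt y₂ (v t (y₂ t)) (Icc c d) t) :
    ∃ y : ℝ → F, y a = y₁ a ∧ (∀ t ∈ Icc a c, y t = y₁ t) ∧ (∀ t ∈ Icc c d, y t = y₂ t) ∧
      ∀ t ∈ Icc a d, HasDerivWithinAt y (v t (y t)) (Icc a d) t := by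
  set y : ℝ → F := fun t => if t ≤ c then y₁ t else y₂ t with hy
  have e1 : ∀ t ∈ Icc a c, y t = y₁ t := fun t ht => by simp [hy, ht.2]
  have e2 : ∀ t ∈ Icc c d, y t = y₂ t := by
    intro t ht
    by_cases h : t ≤ c
    · have : t = c := le_antisymm h ht.1
      subst this
      simp [hy, h12]
    · simp [hy, h]
  refine ⟨y, e1 a ⟨le_rfl, hac⟩, e1, e2, fun t ht => ?_⟩
  have hu : Icc a d = Icc a c ∪ Icc c d := (Icc_union_Icc_eq_Icc hac hcd).symm
  rw [hu]
  refine HasDerivWithinAt.union ?_ ?_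
  · by_cases h : t ∈ Icc a c
    · rw [e1 t h]
      exact (h₁ t h).congr e1 (e1 t h)
    · exact hasDerivWithinAt_of_notMem_closure' (by rwa [isClosed_Icc.closure_eq])
  · by_cases h : t ∈ Icc c d
    · rw [e2 t h]
      exact (h₂ t h).congr e2 (e2 t h)
    · exact hasDerivWithinAt_of_notMem_closure' (by rwa [isClosed_Icc.closure_eq])

/-- Linear (nonautonomous) ODEs: short time. -/
lemma exists_linODE_short {F : Type*} [NormedAddCommGroup F] [NormedSpace ℝ F] [CompleteSpace F]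
    {c d M : ℝ} (hcd : c ≤ d) (L : ℝ → F →L[ℝ] F) (hL : ContinuousOn L (Icc c d)) (hM : 0 < M)
    (hLM : ∀ t ∈ Icc c d, ‖L t‖ ≤ M) (hd : d - c ≤ 1 / (2 * M)) (x : F) :
    ∃ y : ℝ → F, y c = x ∧ ∀ t ∈ Icc c d, HasDerivWithinAt y (L t (y t)) (Icc c d) t := by
  obtain ⟨M', hM'⟩ : ∃ M' : ℝ≥0, (M' : ℝ) = M := ⟨M.toNNReal, Real.coe_toNNReal M hM.le⟩
  subst hM'
  set A : ℝ≥0 := ‖x‖₊ + 1 with hA
  set B : ℝ≥0 := M' * (‖x‖₊ + A) with hB
  have hpl : IsPicardLindelof (fun t y => L t y) (tmin := c) (tmax := d)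
      ⟨c, ⟨le_rfl, hcd⟩⟩ x A 0 B M' := by
    refine ⟨fun t ht => ?_, fun y _ => ?_, fun t ht y hy => ?_, ?_⟩
    · refine LipschitzWith.lipschitzOnWith ?_
      refine LipschitzWith.of_dist_le_mul fun y z => ?_
      rw [dist_eq_norm, dist_eq_norm, ← map_sub]
      exact (L t).le_of_opNorm_le (hLM t ht) _
    · exact hL.clm_apply continuousOn_const
    · have h1 : ‖y‖ ≤ ‖x‖ + A := by
        have : ‖y - x‖ ≤ A := by rwa [mem_closedBall, dist_eq_norm] at hy
        calc ‖y‖ = ‖x + (y - x)‖ := by congr 1; abel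
          _ ≤ ‖x‖ + ‖y - x‖ := norm_add_le _ _
          _ ≤ _ := by gcongr
      calc ‖L t y‖ ≤ M' * ‖y‖ := (L t).le_of_opNorm_le (hLM t ht) _
        _ ≤ M' * (‖x‖ + A) := by gcongr
        _ = B := by rw [hB, NNReal.coe_mul, NNReal.coe_add]; rfl
    · have h1 : max (d - c) (c - c) = d - c := by
        rw [sub_self]; exact max_eq_left (by linarith only [hcd])
      simp only [h1]
      have h2 : (B : ℝ) = M' * (2 * ‖x‖ + 1) := by
        rw [hB, NNReal.coe_mul, NNReal.coe_add, hA, NNReal.coe_add, coe_nnnorm,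
          NNReal.coe_one]
        ring
      rw [h2]
      have h3 : M' * (2 * ‖x‖ + 1) * (d - c) ≤ M' * (2 * ‖x‖ + 1) * (1 / (2 * M')) := by
        gcongr
      have h4 : (M' : ℝ) * (2 * ‖x‖ + 1) * (1 / (2 * M')) = ‖x‖ + 1/2 := by field_simp
      simp [hA]
      linarith only [h3, h4]
  exact hpl.exists_eq_forall_mem_Icc_hasDerivWithinAt₀

/-- Linear (nonautonomous) ODEs have solutions on the whole interval. -/
theorem exists_linODE {F : Type*} [NormedAddCommGroup F] [NormedSpace ℝ F] [CompleteSpace F]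
    {a b : ℝ} (hab : a ≤ b) (L : ℝ → F →L[ℝ] F) (hL : ContinuousOn L (Icc a b)) (x : F) :
    ∃ y : ℝ → F, y a = x ∧ ∀ t ∈ Icc a b, HasDerivWithinAt y (L t (y t)) (Icc a b) t := by
  obtain ⟨C, hC⟩ : ∃ C, ∀ t ∈ Icc a b, ‖L t‖ ≤ C := isCompact_Icc.exists_bound_of_continuousOn hL
  set M : ℝ := |C| + 1 with hM
  have hMpos : 0 < M := by positivity
  have hLM : ∀ t ∈ Icc a b, ‖L t‖ ≤ M := fun t ht =>
    (hC t ht).trans ((le_abs_self C).trans (by rw [hM]; linarith))
  set δ : ℝ := 1 / (2 * M) with hδ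
  have hδpos : 0 < δ := by positivity
  have key : ∀ k : ℕ, ∀ d ∈ Icc a b, d - a ≤ k * δ →
      ∃ y : ℝ → F, y a = x ∧ ∀ t ∈ Icc a d, HasDerivWithinAt y (L t (y t)) (Icc a d) t := by
    intro k
    induction k with
    | zero =>
      intro d hd hk
      have : d = a := by
        simp at hk
        linarith only [hd, hk, hd.1]
      subst this
      refine ⟨fun _ => x, rfl, fun t ht => ?_⟩
      simp only [Icc_self, mem_singleton_iff] at ht
      subst ht
      simp only [Icc_self]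
      exact HasFDerivWithinAt.of_subsingleton (by simp)
    | succ k ih =>
      intro d hd hk
      set c := max a (d - δ) with hc
      have hac : a ≤ c := le_max_left _ _
      have hcd : c ≤ d := max_le hd.1 (by linarith only [hδpos])
      have hcb : c ≤ b := hcd.trans hd.2
      have hck : c - a ≤ k * δ := by
        push_cast at hk
        rw [hc]
        rcases le_total a (d - δ) with h | h
        · rw [max_eq_right h]; linarith only [hk]
        · rw [max_eq_left h]; simp; positivity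
      obtain ⟨y₁, hy₁, hy₁'⟩ := ih c ⟨hac, hcb⟩ hck
      obtain ⟨y₂, hy₂, hy₂'⟩ := exists_linODE_short hcd L
        (hL.mono (Icc_subset_Icc hac hd.2)) hMpos
        (fun t ht => hLM t ⟨hac.trans ht.1, ht.2.trans hd.2⟩)
        (by
          have : d - δ ≤ c := le_max_right _ _
          linarith only [this]) (y₁ c)
      obtain ⟨y, hya, -, -, hy⟩ := glue_sol (v := fun t z => L t z) hac hcd hy₁' hy₂ hy₂'
      exact ⟨y, by rw [hya, hy₁], hy⟩
  obtain ⟨k, hk⟩ := exists_nat_ge ((b - a) / δ)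
  refine key k b ⟨hab, le_rfl⟩ ?_
  rwa [div_le_iff₀ hδpos] at hk

/-- Linear ODEs, prescribed at the right end. -/
theorem exists_linODE' {F : Type*} [NormedAddCommGroup F] [NormedSpace ℝ F] [CompleteSpace F]
    {a b : ℝ} (hab : a ≤ b) (L : ℝ → F →L[ℝ] F) (hL : ContinuousOn L (Icc a b)) (x : F) :
    ∃ y : ℝ → F, y b = x ∧ ∀ t ∈ Icc a b, HasDerivWithinAt y (L t (y t)) (Icc a b) t := by
  have hmap : MapsTo (fun t : ℝ => a + b - t) (Icc a b) (Icc a b) := fun t ht =>
    ⟨by linarith only [ht.2], by linarith only [ht.1]⟩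
  obtain ⟨y, hy, hy'⟩ := exists_linODE hab (fun t => -L (a + b - t))
    ((hL.comp (by fun_prop) hmap).neg) x
  refine ⟨fun t => y (a + b - t), by simpa using hy, fun t ht => ?_⟩
  have h1 := hy' (a + b - t) (hmap ht)
  have h2 : HasDerivWithinAt (fun t : ℝ => a + b - t) (-1) (Icc a b) t := by
    simpa using ((hasDerivWithinAt_id t (Icc a b)).const_sub (a + b))
  have h3 : HasDerivWithinAt (fun t => y (a + b - t)) _ (Icc a b) t := h1.scomp t h2 hmap
  simpa using h3

end ode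

section par

open Vale.Agent.P210.R2.H53

variable {E : Type*} [NormedAddCommGroup E] [NormedSpace ℝ E]
  {G : E → E →L[ℝ] E →L[ℝ] ℝ} {U : Set E}

/-- `P` is parallel along the curve `c` with velocity `c'` on `[a, b]`. -/
def IsPar (G : E → E →L[ℝ] E →L[ℝ] ℝ) (c c' P : ℝ → E) (a b : ℝ) : Prop :=
  ∀ t ∈ Icc a b, HasDerivWithinAt P (-(chris G (c t) (c' t) (P t))) (Icc a b) t

theorem IsPar.continuousOn {c c' P : ℝ → E} {a b : ℝ} (h : IsPar G c c' P a b) :
    ContinuousOn P (Icc a b) := fun t ht => (h t ht).continuousWithinAt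

variable [FiniteDimensional ℝ E]

theorem continuousOn_chris_along (h : LocalRiem G U) {c c' : ℝ → E} {a b : ℝ}
    (hc : ContinuousOn c (Icc a b)) (hc' : ContinuousOn c' (Icc a b))
    (hcU : ∀ t ∈ Icc a b, c t ∈ U) :
    ContinuousOn (fun t => chris G (c t) (c' t)) (Icc a b) :=
  (h.contDiffOn_chris.continuousOn.comp hc hcU).clm_apply hc'

/-- Parallel fields exist, prescribed at the right end. -/
theorem exists_par (h : LocalRiem G U) {c c' : ℝ → E} {a b : ℝ} (hab : a ≤ b)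
    (hc : ContinuousOn c (Icc a b)) (hc' : ContinuousOn c' (Icc a b))
    (hcU : ∀ t ∈ Icc a b, c t ∈ U) (v : E) :
    ∃ P : ℝ → E, P b = v ∧ IsPar G c c' P a b := by
  have : CompleteSpace E := FiniteDimensional.complete ℝ E
  obtain ⟨P, hP, hP'⟩ := exists_linODE' hab (fun t => -chris G (c t) (c' t))
    (continuousOn_chris_along h hc hc' hcU).neg v
  exact ⟨P, hP, fun t ht => by simpa using hP' t ht⟩

/-- Parallel fields exist, prescribed at the left end. -/
theorem exists_par_left (h : LocalRiem G U) {c c' : ℝ → E} {a b : ℝ} (hab : a ≤ b)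
    (hc : ContinuousOn c (Icc a b)) (hc' : ContinuousOn c' (Icc a b))
    (hcU : ∀ t ∈ Icc a b, c t ∈ U) (v : E) :
    ∃ P : ℝ → E, P a = v ∧ IsPar G c c' P a b := by
  have : CompleteSpace E := FiniteDimensional.complete ℝ E
  obtain ⟨P, hP, hP'⟩ := exists_linODE hab (fun t => -chris G (c t) (c' t))
    (continuousOn_chris_along h hc hc' hcU).neg v
  exact ⟨P, hP, fun t ht => by simpa using hP' t ht⟩

/-- The derivative of the scalar product of two fields along a curve. -/
theorem hasDerivWithinAt_inner (h : LocalRiem G U) {c P Q : ℝ → E} {c' P' Q' : E} {s : Set ℝ}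
    {t : ℝ} (hU : c t ∈ U) (hc : HasDerivWithinAt c c' s t) (hP : HasDerivWithinAt P P' s t)
    (hQ : HasDerivWithinAt Q Q' s t) :
    HasDerivWithinAt (fun r => G (c r) (P r) (Q r))
      (G (c t) (P' + chris G (c t) c' (P t)) (Q t) + G (c t) (P t) (Q' + chris G (c t) c' (Q t)))
      s t := by
  have h1 : HasDerivWithinAt (fun r => G (c r)) (fderiv ℝ G (c t) c') s t :=
    (h.differentiableAt hU).hasFDerivAt.comp_hasDerivWithinAt t hc
  have h2 := (h1.clm_apply hP).clm_apply hQ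
  refine h2.congr_deriv ?_
  simp only [map_add, add_apply, h.fderiv_eq hU c' (P t) (Q t)]
  ring

/-- The scalar product of two parallel fields is constant. -/
theorem IsPar.inner_eq (h : LocalRiem G U) {c c' P Q : ℝ → E} {a b : ℝ}
    (hc : ∀ t ∈ Icc a b, HasDerivWithinAt c (c' t) (Icc a b) t) (hcU : ∀ t ∈ Icc a b, c t ∈ U)
    (hP : IsPar G c c' P a b) (hQ : IsPar G c c' Q a b) {t : ℝ} (ht : t ∈ Icc a b) :
    G (c t) (P t) (Q t) = G (c a) (P a) (Q a) := by
  have hd : ∀ t ∈ Icc a b, HasDerivWithinAt (fun r => G (c r) (P r) (Q r)) 0 (Icc a b) t := by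
    intro t ht
    have := hasDerivWithinAt_inner h (hcU t ht) (hc t ht) (hP t ht) (hQ t ht)
    simpa using this
  refine constant_of_has_deriv_right_zero (fun t ht => (hd t ht).continuousWithinAt)
    (fun t ht => ?_) t ht
  exact (hd t (Ico_subset_Icc_self ht)).mono_of_mem_nhdsWithin
    (Icc_mem_nhdsGE_of_mem ht)

theorem IsPar.inner_eq' (h : LocalRiem G U) {c c' P Q : ℝ → E} {a b : ℝ}
    (hc : ∀ t ∈ Icc a b, HasDerivWithinAt c (c' t) (Icc a b) t) (hcU : ∀ t ∈ Icc a b, c t ∈ U)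
    (hP : IsPar G c c' P a b) (hQ : IsPar G c c' Q a b) {t : ℝ} (ht : t ∈ Icc a b) :
    G (c t) (P t) (Q t) = G (c b) (P b) (Q b) := by
  rw [hP.inner_eq h hc hcU hQ ht, hP.inner_eq h hc hcU hQ ⟨ht.1.trans ht.2, le_rfl⟩]

end par

end Vale.Agent.P210.R2.H912
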