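import Vale.Agent.P210.R2.H53.SpecR
import Vale.Agent.P210.R2.H912.Par

/-!
Hessian comparison for the distance function (module HESS), from JET, GEO and STEP.
-/

set_option linter.all false

open scoped Manifold ContDiff Topology Bundle
open Set Metric Filter Bundle IsManifold MeasureTheory Manifold Asymptotics

set_option maxSynthPendingDepth 3

noncomputable section

namespace Vale.Agent.P210.R2.H912

open Vale.Agent.P210.R2.H53

/-- induction along an interval -/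
theorem icc_induct {P : ℝ → Prop} {ℓ : ℝ} (hℓ : 0 < ℓ) (h0 : P 0)
    (hloc : ∀ s ∈ Icc 0 ℓ, ∃ δ > 0, ∀ a ∈ Icc 0 ℓ, ∀ b ∈ Icc 0 ℓ, |a - s| < δ → |b - s| < δ →
      a < b → P a → P b) : P ℓ := by
  set S : Set ℝ := {t | t ∈ Icc 0 ℓ ∧ P t} with hS
  have h0S : (0:ℝ) ∈ S := ⟨⟨le_rfl, hℓ.le⟩, h0⟩
  have hbdd : BddAbove S := ⟨ℓ, fun t ht => ht.1.2⟩
  set T : ℝ := sSup S with hT
  have hT0 : 0 ≤ T := le_csSup hbdd h0S
  have hTℓ : T ≤ ℓ := csSup_le ⟨0, h0S⟩ fun t ht => ht.1.2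
  obtain ⟨δ, hδ, h⟩ := hloc T ⟨hT0, hTℓ⟩
  obtain ⟨a, haS, ha⟩ := exists_lt_of_lt_csSup ⟨0, h0S⟩ (show T - δ < sSup S by
    rw [← hT]; linarith only [hδ])
  have haT : a ≤ T := le_csSup hbdd haS
  set b : ℝ := min ℓ (T + δ / 2) with hb
  have hbℓ : b ≤ ℓ := min_le_left _ _
  have hb1 : b ≤ T + δ / 2 := min_le_right _ _
  have hb2 : T ≤ b := le_min hTℓ (by linarith only [hδ])
  rcases lt_or_ge a b with hab | hab
  · have hPb : P b := h a haS.1 b ⟨hT0.trans hb2, hbℓ⟩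
      (by rw [abs_lt]; constructor <;> linarith only [ha, haT, hδ])
      (by rw [abs_lt]; constructor <;> linarith only [hb1, hb2, hδ]) hab haS.2
    have hbT : b ≤ T := le_csSup hbdd ⟨⟨hT0.trans hb2, hbℓ⟩, hPb⟩
    rcases min_choice ℓ (T + δ / 2) with h1 | h1
    · rwa [hb, h1] at hPb
    · rw [← hb] at h1
      linarith only [h1, hbT, hδ]
  · have hTb : T = b := le_antisymm hb2 (hab.trans haT)
    rcases min_choice ℓ (T + δ / 2) with h1 | h1
    · rw [← hb] at h1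
      have haℓ : a = ℓ := le_antisymm haS.1.2 (by rw [← h1]; exact hab)
      rw [← haℓ]; exact haS.2
    · rw [← hb] at h1
      linarith only [h1, hTb, hδ]

section

variable {E : Type} [NormedAddCommGroup E] [NormedSpace ℝ E] [FiniteDimensional ℝ E]
  {M : Type} [MetricSpace M] [ChartedSpace E M]
  [RiemannianBundle (fun x : M => TangentSpace 𝓘(ℝ, E) x)]
  [IsManifold 𝓘(ℝ, E) ∞ M]
  [IsContMDiffRiemannianBundle 𝓘(ℝ, E) ∞ E (fun x : M => TangentSpace 𝓘(ℝ, E) x)]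

theorem localRiem_chartG {e : OpenPartialHomeomorph M E}
    (he : e ∈ maximalAtlas 𝓘(ℝ, E) ∞ M) : LocalRiem (chartG e) e.target :=
  ⟨e.open_target, contDiffOn_chartG he, fun z _ v w => chartG_symm e z v w,
    fun z hz v hv => chartG_pos he hz v hv⟩

theorem secG_ge {k : ℝ} (hsec : SecGE E M k) {e : OpenPartialHomeomorph M E}
    (he : e ∈ maximalAtlas 𝓘(ℝ, E) ∞ M) {z : E} (hz : z ∈ e.target) (a b : E) :
    k * (chartG e z a a * chartG e z b b - chartG e z a b ^ 2) ≤ secG (chartG e) z a b := by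
  obtain ⟨Γ, hΓ, h⟩ := hsec e he z hz
  rw [← sectNum_eq he hz hΓ]
  exact h a b

omit [FiniteDimensional ℝ E] [IsManifold 𝓘(ℝ, E) ∞ M]
  [IsContMDiffRiemannianBundle 𝓘(ℝ, E) ∞ E (fun x : M => TangentSpace 𝓘(ℝ, E) x)] in
theorem _root_.Vale.Agent.P210.R2.H53.SecUB.mono {q : M} {e : OpenPartialHomeomorph M E} {z v : E}
    {B B' : ℝ} (h : SecUB q e z v B) (hB : B ≤ B') : SecUB q e z v B' := by
  intro p hp η hη
  filter_upwards [h p hp η hη] with r hr
  refine hr.trans ?_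
  gcongr

omit [FiniteDimensional ℝ E] [IsManifold 𝓘(ℝ, E) ∞ M]
  [IsContMDiffRiemannianBundle 𝓘(ℝ, E) ∞ E (fun x : M => TangentSpace 𝓘(ℝ, E) x)] in
theorem cs_unit (e : OpenPartialHomeomorph M E) (z b v : E) (hb : chartG e z b b = 1) :
    0 ≤ chartG e z v v - chartG e z b v ^ 2 := by
  have h := real_inner_mul_inner_self_le
    (mfderiv 𝓘(ℝ, E) 𝓘(ℝ, E) e.symm z b : TangentSpace 𝓘(ℝ, E) (e.symm z))
    (mfderiv 𝓘(ℝ, E) 𝓘(ℝ, E) e.symm z v : TangentSpace 𝓘(ℝ, E) (e.symm z))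
  have h1 : chartG e z b v * chartG e z b v ≤ chartG e z b b * chartG e z v v := h
  rw [hb] at h1
  nlinarith only [h1]

end

section step

variable {E : Type} [NormedAddCommGroup E] [NormedSpace ℝ E] [FiniteDimensional ℝ E]
  {M : Type} [MetricSpace M] [ChartedSpace E M]
  [RiemannianBundle (fun x : M => TangentSpace 𝓘(ℝ, E) x)]
  [IsManifold 𝓘(ℝ, E) ∞ M]
  [IsContMDiffRiemannianBundle 𝓘(ℝ, E) ∞ E (fun x : M => TangentSpace 𝓘(ℝ, E) x)]
  [IsRiemannianManifold 𝓘(ℝ, E) M]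

/-- the coefficient of the Hessian bound at time `t` -/
def hcoef (κ ℓ t : ℝ) : ℝ := t / ℓ ^ 2 + κ ^ 2 * t ^ 3 / (3 * ℓ ^ 2)

omit [IsRiemannianManifold 𝓘(ℝ, E) M] in
theorem geo_par {e : OpenPartialHomeomorph M E} {w w' : ℝ → E} {a b : ℝ}
    (hg : ∀ t ∈ Icc a b, GeoAt e w w' t) : IsPar (chartG e) w w' w' a b :=
  fun t ht => (hg t ht).2.1.hasDerivWithinAt

/-- moving the bound along a geodesic segment inside a chart -/
theorem step_local (hstep : Stmt.STEP) {κ ℓ : ℝ} (hκ : 0 < κ) (hsec : SecGE E M (-κ ^ 2))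
    (hℓ : 0 < ℓ) {e : OpenPartialHomeomorph M E} (he : e ∈ maximalAtlas 𝓘(ℝ, E) ∞ M) {q : M}
    {w w' : ℝ → E} {a b : ℝ} (hab : a < b) (hg : ∀ t ∈ Icc a b, GeoAt e w w' t)
    (hd : dist q (e.symm (w b)) = dist q (e.symm (w a)) + (b - a))
    (h : ∀ v : E, SecUB q e (w a) ((a / ℓ) • v) (hcoef κ ℓ a *
      (chartG e (w a) v v - chartG e (w a) (w' a) v ^ 2))) (v : E) :
    SecUB q e (w b) ((b / ℓ) • v) (hcoef κ ℓ b *
      (chartG e (w b) v v - chartG e (w b) (w' b) v ^ 2)) := by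
  have hR := localRiem_chartG he
  have hw : ∀ t ∈ Icc a b, HasDerivWithinAt w (w' t) (Icc a b) t := fun t ht =>
    (hg t ht).1.hasDerivWithinAt
  have hwc : ContinuousOn w (Icc a b) := fun t ht => (hw t ht).continuousWithinAt
  have hw'c : ContinuousOn w' (Icc a b) := fun t ht =>
    (hg t ht).2.1.hasDerivWithinAt.continuousWithinAt
  have hwt : ∀ t ∈ Icc a b, w t ∈ e.target := fun t ht => (hg t ht).2.2.1
  obtain ⟨P, hPb, hP⟩ := exists_par hR hab.le hwc hw'c hwt v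
  have hwP := geo_par hg
  set X : ℝ → E := fun t => (t / ℓ) • P t with hX
  set X' : ℝ → E := fun t => (1 / ℓ) • P t + (t / ℓ) • (-(chris (chartG e) (w t) (w' t) (P t)))
    with hX'
  have hXd : ∀ t ∈ Icc a b, HasDerivWithinAt X (X' t) (Icc a b) t := by
    intro t ht
    have h1 : HasDerivWithinAt (fun t : ℝ => t / ℓ) (1 / ℓ) (Icc a b) t :=
      (hasDerivWithinAt_id t _).div_const ℓ
    have h2 := h1.smul (hP t ht)
    refine h2.congr_deriv ?_
    simp only [hX']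
    abel
  have hchc := continuousOn_chris_along hR hwc hw'c hwt
  have hX'c : ContinuousOn X' (Icc a b) := by
    have := hP.continuousOn
    have h3 : ContinuousOn (fun t : ℝ => t / ℓ) (Icc a b) := by fun_prop
    exact (this.const_smul (1 / ℓ)).add (h3.smul (hchc.clm_apply this).neg)
  have hmain := (hstep E M e he q w w' X X' a b hab hg hXd hX'c hd).1 _ (h (P a))
  set W : ℝ := chartG e (w b) v v - chartG e (w b) (w' b) v ^ 2 with hW
  have hbI : b ∈ Icc a b := ⟨hab.le, le_rfl⟩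
  have hWt : ∀ t ∈ Icc a b, chartG e (w t) (P t) (P t) - chartG e (w t) (w' t) (P t) ^ 2 = W := by
    intro t ht
    rw [hP.inner_eq' hR hw hwt hP ht, hwP.inner_eq' hR hw hwt hP ht, hPb]
  have hW0 : 0 ≤ W := cs_unit e (w b) (w' b) v (hg b hbI).2.2.2
  have hY : ∀ t, X' t + chris (chartG e) (w t) (w' t) (X t) = (1 / ℓ) • P t := by
    intro t
    simp only [hX, hX', map_smul, smul_neg]
    abel
  have hXb : X b = (b / ℓ) • v := by simp only [hX, hPb]
  rw [hXb] at hmain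
  refine hmain.mono ?_
  rw [hWt a ⟨le_rfl, hab.le⟩]
  have hint : ∫ t in a..b,
      (chartG e (w t) (X' t + chris (chartG e) (w t) (w' t) (X t))
          (X' t + chris (chartG e) (w t) (w' t) (X t))
        - chartG e (w t) (w' t) (X' t + chris (chartG e) (w t) (w' t) (X t)) ^ 2
        - secG (chartG e) (w t) (X t) (w' t)) ≤ ∫ t in a..b, (1 / ℓ ^ 2 + κ ^ 2 / ℓ ^ 2 * t ^ 2) * W := by
    have hpt : ∀ t ∈ Icc a b, (chartG e (w t) (X' t + chris (chartG e) (w t) (w' t) (X t))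
          (X' t + chris (chartG e) (w t) (w' t) (X t))
        - chartG e (w t) (w' t) (X' t + chris (chartG e) (w t) (w' t) (X t)) ^ 2
        - secG (chartG e) (w t) (X t) (w' t)) ≤ (1 / ℓ ^ 2 + κ ^ 2 / ℓ ^ 2 * t ^ 2) * W := by
      intro t ht
      rw [hY]
      have h1 := secG_ge hsec he (hwt t ht) (X t) (w' t)
      rw [(hg t ht).2.2.2] at h1
      have h2 : chartG e (w t) (X t) (X t) * 1 - chartG e (w t) (X t) (w' t) ^ 2
          = t ^ 2 / ℓ ^ 2 * W := by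
        rw [← hWt t ht, chartG_symm e (w t) (X t) (w' t)]
        simp only [hX, map_smul, smul_apply, smul_eq_mul]
        ring
      rw [h2] at h1
      have h3 : chartG e (w t) ((1 / ℓ) • P t) ((1 / ℓ) • P t)
          - chartG e (w t) (w' t) ((1 / ℓ) • P t) ^ 2 = 1 / ℓ ^ 2 * W := by
        rw [← hWt t ht]
        simp only [map_smul, smul_apply, smul_eq_mul]
        ring
      rw [h3]
      have h4 : (1 / ℓ ^ 2 + κ ^ 2 / ℓ ^ 2 * t ^ 2) * W
          = 1 / ℓ ^ 2 * W - (-κ ^ 2) * (t ^ 2 / ℓ ^ 2 * W) := by ring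
      rw [h4]
      linarith only [h1]
    have hcont : Continuous fun t : ℝ => (1 / ℓ ^ 2 + κ ^ 2 / ℓ ^ 2 * t ^ 2) * W := by fun_prop
    by_cases hI : IntervalIntegrable (fun t => (chartG e (w t)
          (X' t + chris (chartG e) (w t) (w' t) (X t))
          (X' t + chris (chartG e) (w t) (w' t) (X t))
        - chartG e (w t) (w' t) (X' t + chris (chartG e) (w t) (w' t) (X t)) ^ 2
        - secG (chartG e) (w t) (X t) (w' t))) volume a b
    · exact intervalIntegral.integral_mono_on hab.le hI (hcont.intervalIntegrable a b) hpt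
    · rw [intervalIntegral.integral_undef hI]
      refine intervalIntegral.integral_nonneg hab.le fun t ht => ?_
      positivity
  have hval : ∫ t in a..b, (1 / ℓ ^ 2 + κ ^ 2 / ℓ ^ 2 * t ^ 2) * W
      = (hcoef κ ℓ b - hcoef κ ℓ a) * W := by
    rw [intervalIntegral.integral_mul_const, intervalIntegral.integral_add (by simp)
      ((by fun_prop : Continuous fun t : ℝ => κ ^ 2 / ℓ ^ 2 * t ^ 2).intervalIntegrable a b),
      intervalIntegral.integral_const, intervalIntegral.integral_const_mul, integral_pow]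
    simp only [hcoef, smul_eq_mul]
    field_simp
    ring
  rw [hval] at hint
  linarith only [hint]

/-- change of charts for the bound -/
theorem bound_change (hjet : Stmt.JET) {e e₀ : OpenPartialHomeomorph M E}
    (he : e ∈ maximalAtlas 𝓘(ℝ, E) ∞ M) (he₀ : e₀ ∈ maximalAtlas 𝓘(ℝ, E) ∞ M) {x : M}
    (hx : x ∈ e.source) (hx₀ : x ∈ e₀.source) {q : M} {s A : ℝ} {b : E}
    (h : ∀ v : E, SecUB q e₀ (e₀ x) (s • v) (A * (chartG e₀ (e₀ x) v v -
      chartG e₀ (e₀ x) (fderiv ℝ (e₀ ∘ e.symm) (e x) b) v ^ 2))) (v : E) :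
    SecUB q e (e x) (s • v) (A * (chartG e (e x) v v - chartG e (e x) b v ^ 2)) := by
  intro p hp η hη
  have hs : e.symm (e x) = x := e.left_inv hx
  have hp' := (hjet E M).1 e he e₀ he₀ (e x) (e.map_source hx) (by rw [hs]; exact hx₀)
    (s • v) p hp
  rw [hs, map_smul] at hp'
  have h1 := h _ p hp' η hη
  rw [chartG_change he he₀ hx hx₀, chartG_change he he₀ hx hx₀, e₀.left_inv hx₀] at h1
  rw [hs]
  exact h1

omit [IsRiemannianManifold 𝓘(ℝ, E) M]
  [IsContMDiffRiemannianBundle 𝓘(ℝ, E) ∞ E (fun x : M => TangentSpace 𝓘(ℝ, E) x)]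
  [RiemannianBundle (fun x : M => TangentSpace 𝓘(ℝ, E) x)] in
/-- change of charts for the velocity -/
theorem deriv_change {e e₀ : OpenPartialHomeomorph M E}
    (he : e ∈ maximalAtlas 𝓘(ℝ, E) ∞ M) (he₀ : e₀ ∈ maximalAtlas 𝓘(ℝ, E) ∞ M) {c : ℝ → M}
    {t : ℝ} {S : Set ℝ} (hc : ContinuousWithinAt c S t) (hx : c t ∈ e.source)
    (hx₀ : c t ∈ e₀.source) {b : E} (hb : HasDerivWithinAt (fun r => e (c r)) b S t) :
    HasDerivWithinAt (fun r => e₀ (c r)) (fderiv ℝ (e₀ ∘ e.symm) (e (c t)) b) S t := by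
  have hzV : e (c t) ∈ (e.symm ≫ₕ e₀).source := by simp [hx, hx₀]
  have hd : DifferentiableAt ℝ (e₀ ∘ e.symm) (e (c t)) :=
    ((transition_real he he₀).contDiffAt
      ((e.symm ≫ₕ e₀).open_source.mem_nhds hzV)).differentiableAt (by simp)
  have h1 : HasDerivWithinAt ((e₀ ∘ e.symm) ∘ (fun r => e (c r)))
      (fderiv ℝ (e₀ ∘ e.symm) (e (c t)) b) S t :=
    hd.hasFDerivAt.comp_hasDerivWithinAt t hb
  refine h1.congr_of_eventuallyEq ?_ (by simp [e.left_inv hx])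
  filter_upwards [hc (e.open_source.mem_nhds hx)] with r hr
  simp [e.left_inv hr]

/-- HESS from JET, GEO and STEP -/
theorem hess_of (hjet : Stmt.JET) (hgeo : Stmt.GEO) (hstep : Stmt.STEP) : Stmt.HESS := by
  intro E _ _ _ M _ _ _ _ _ _ κ hκ hsec c ℓ hℓ hc e he hce
  have hd : ∀ t ∈ Icc 0 ℓ, dist (c 0) (c t) = t := by
    intro t ht
    rw [hc 0 ⟨le_rfl, hℓ.le⟩ t ht, zero_sub, abs_neg, abs_of_nonneg ht.1]
  have hcc : ContinuousOn c (Icc 0 ℓ) := by
    intro t ht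
    refine Metric.continuousWithinAt_iff.2 fun ε hε => ⟨ε, hε, fun s hs hst => ?_⟩
    rw [hc s hs t ht]
    simpa [Real.dist_eq] using hst
  have hud : UniqueDiffOn ℝ (Icc 0 ℓ) := uniqueDiffOn_Icc hℓ
  -- the velocity in the chart given by GEO
  have hvel : ∀ (s₀ : ℝ), s₀ ∈ Icc 0 ℓ → ∀ e₀ ∈ maximalAtlas 𝓘(ℝ, E) ∞ M, c s₀ ∈ e₀.source →
      ∃ δ > 0, ∃ w w' : ℝ → E, (∀ t, |t - s₀| < δ → GeoAt e₀ w w' t) ∧
      ∀ t ∈ Icc 0 ℓ, |t - s₀| < δ → c t ∈ e₀.source ∧ e₀ (c t) = w t ∧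
        HasDerivWithinAt (fun r => e₀ (c r)) (w' t) (Icc 0 ℓ) t := by
    intro s₀ hs₀ e₀ he₀ hs
    obtain ⟨δ, hδ, w, w', hw, hcw⟩ := (hgeo E M).2.1 c 0 ℓ s₀ hℓ hc hs₀ e₀ he₀ hs
    refine ⟨δ, hδ, w, w', hw, fun t ht htδ => ⟨(hcw t ht htδ).1, (hcw t ht htδ).2, ?_⟩⟩
    refine (hw t htδ).1.hasDerivWithinAt.congr_of_eventuallyEq ?_ (hcw t ht htδ).2
    have hopen : IsOpen {r : ℝ | |r - s₀| < δ} := isOpen_lt (by fun_prop) continuous_const
    filter_upwards [self_mem_nhdsWithin, mem_nhdsWithin_of_mem_nhds (hopen.mem_nhds htδ)]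
      with r hr hrδ
    exact (hcw r hr hrδ).2
  -- the claim at the time t
  set Pr : ℝ → Prop := fun t => ∀ e ∈ maximalAtlas 𝓘(ℝ, E) ∞ M, c t ∈ e.source → ∀ b : E,
    HasDerivWithinAt (fun r => e (c r)) b (Icc 0 ℓ) t → ∀ v : E,
      SecUB (c 0) e (e (c t)) ((t / ℓ) • v) (hcoef κ ℓ t *
        (chartG e (e (c t)) v v - chartG e (e (c t)) b v ^ 2)) with hPr
  have hP0 : Pr 0 := by
    intro e he hce b hb v p hp η hη
    have hs : e.symm (e (c 0)) = c 0 := e.left_inv hce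
    have hconst : IsJet e (e (c 0)) ((0 / ℓ) • v) (fun _ => c 0) := by
      refine ⟨continuousAt_const, hs.symm, ?_⟩
      simp
    have h1 := (hjet E M).2.1 e he (e (c 0)) (e.map_source hce) _ p _ hp hconst
    have h2 : ∀ᶠ r in 𝓝 (0:ℝ), dist (c 0) (p r) ≤ (η / 2) * r ^ 2 := by
      filter_upwards [h1.bound (half_pos hη)] with r hr
      rw [dist_comm]
      simpa [abs_of_nonneg dist_nonneg] using hr
    have h3 : ∀ᶠ r in 𝓝 (0:ℝ), dist (c 0) (p (-r)) ≤ (η / 2) * r ^ 2 := by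
      have ht : Tendsto (fun r : ℝ => -r) (𝓝 0) (𝓝 0) := by
        simpa using (continuous_neg (G := ℝ)).tendsto 0
      filter_upwards [ht.eventually h2] with r hr
      simpa using hr
    filter_upwards [mem_nhdsWithin_of_mem_nhds h2, mem_nhdsWithin_of_mem_nhds h3] with r hr hr'
    rw [hs, dist_self]
    simp only [hcoef]
    ring_nf
    ring_nf at hr hr'
    linarith only [hr, hr']
  have hloc : ∀ s ∈ Icc 0 ℓ, ∃ δ > 0, ∀ a ∈ Icc 0 ℓ, ∀ b ∈ Icc 0 ℓ, |a - s| < δ →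
      |b - s| < δ → a < b → Pr a → Pr b := by
    intro s hs
    set e₀ := chartAt E (c s) with he₀
    have he₀m : e₀ ∈ maximalAtlas 𝓘(ℝ, E) ∞ M := chart_mem_maximalAtlas _
    obtain ⟨δ, hδ, w, w', hw, hcw⟩ := hvel s hs e₀ he₀m (mem_chart_source E (c s))
    refine ⟨δ, hδ, fun a ha b hb haδ hbδ hab hPa => ?_⟩
    obtain ⟨ha1, ha2, ha3⟩ := hcw a ha haδ
    obtain ⟨hb1, hb2, hb3⟩ := hcw b hb hbδ
    have h1 := hPa e₀ he₀m ha1 (w' a) ha3
    rw [ha2] at h1
    have hg : ∀ t ∈ Icc a b, GeoAt e₀ w w' t := by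
      intro t ht
      refine hw t ?_
      rw [abs_lt] at haδ hbδ ⊢
      constructor <;> linarith only [haδ.1, hbδ.2, ht.1, ht.2]
    have hda : e₀.symm (w a) = c a := by rw [← ha2]; exact e₀.left_inv ha1
    have hdb : e₀.symm (w b) = c b := by rw [← hb2]; exact e₀.left_inv hb1
    have h2 := step_local hstep hκ hsec hℓ he₀m (q := c 0) hab hg
      (by rw [hda, hdb, hd a ha, hd b hb]; ring) h1
    intro e he hce bb hbb v
    have h3 := deriv_change he he₀m (hcc b hb) hce hb1 hbb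
    have h4 : fderiv ℝ (e₀ ∘ e.symm) (e (c b)) bb = w' b :=
      (hud b hb).eq_deriv _ h3 hb3
    refine bound_change hjet he he₀m hce hb1 (fun v => ?_) v
    rw [h4, hb2]
    exact h2 v
  have hPℓ : Pr ℓ := icc_induct hℓ hP0 hloc
  have hℓI : ℓ ∈ Icc 0 ℓ := ⟨hℓ.le, le_rfl⟩
  obtain ⟨δ, hδ, w, w', hw, hcw⟩ := hvel ℓ hℓI e he hce
  obtain ⟨-, hl2, hl3⟩ := hcw ℓ hℓI (by simpa using hδ)
  have hgl := hw ℓ (by simpa using hδ)
  refine ⟨w' ℓ, by rw [hl2]; exact hgl.2.2.2, hl3, fun v => ⟨?_, ?_⟩⟩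
  · have h1 := hPℓ e he hce (w' ℓ) hl3 v
    rw [div_self hℓ.ne', one_smul] at h1
    refine h1.mono ?_
    have h2 : 0 ≤ chartG e (e (c ℓ)) v v - chartG e (e (c ℓ)) (w' ℓ) v ^ 2 :=
      cs_unit e _ _ v (by rw [hl2]; exact hgl.2.2.2)
    refine mul_le_mul_of_nonneg_right ?_ h2
    have h3 : hcoef κ ℓ ℓ = 1 / ℓ + κ ^ 2 * ℓ / 3 := by
      simp only [hcoef]
      field_simp
    rw [h3]
    have h4 : 0 ≤ κ ^ 2 * ℓ := by positivity
    linarith only [h4]
  · set a : ℝ := max 0 (ℓ - δ / 2) with ha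
    have haℓ : a < ℓ := max_lt hℓ (by linarith only [hδ])
    have ha0 : 0 ≤ a := le_max_left _ _
    have haδ : ℓ - δ / 2 ≤ a := le_max_right _ _
    have haI : a ∈ Icc 0 ℓ := ⟨ha0, haℓ.le⟩
    obtain ⟨ha1, ha2, -⟩ := hcw a haI (by rw [abs_lt]; constructor <;> linarith only [haℓ, haδ, hδ])
    have hg : ∀ t ∈ Icc a ℓ, GeoAt e w w' t := fun t ht => hw t (by
      rw [abs_lt]; constructor <;> linarith only [haℓ, haδ, hδ, ht.1, ht.2])
    have hda : e.symm (w a) = c a := by rw [← ha2]; exact e.left_inv ha1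
    have hdb : e.symm (w ℓ) = c ℓ := by rw [← hl2]; exact e.left_inv hce
    have hne : ℓ - a ≠ 0 := by
      have : 0 < ℓ - a := by linarith only [haℓ]
      exact this.ne'
    have h1 := (hstep E M e he (c 0) w w' (fun t => ((t - a) / (ℓ - a)) • v)
      (fun _ => (1 / (ℓ - a)) • v) a ℓ haℓ hg
      (fun t ht => (((hasDerivWithinAt_id t _).sub_const a).div_const (ℓ - a)).smul_const v)
      continuousOn_const (by rw [hda, hdb, hd a haI, hd ℓ hℓI]; ring)).2 (by simp)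
    simp only [div_self hne, one_smul] at h1
    rw [hl2]
    exact h1

end step

end Vale.Agent.P210.R2.H912
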