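import Vale.Agent.P210.R2.H912.AllR
import Vale.Agent.P210.R2.H34.DensC

/-! # P210, the final statement -/

namespace Vale.Agent.P210.R2.H912

open H53

theorem finalr : Stmt.FINALR := finalr_dens H34.DC.dens

end Vale.Agent.P210.R2.H912
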