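import Vale.Agent.P210.R2.H912.RegA
import Vale.Agent.P210.R2.H934.Vol
import Vale.Agent.P210.R2.H53.RCont

/-! [HYPM]: very weakly harmonic functions on an open subset of a manifold are smooth. -/

set_option linter.all false

open scoped Manifold ContDiff Topology Bundle ENNReal NNReal
open Set Metric Filter Bundle IsManifold MeasureTheory Manifold Asymptotics

set_option maxSynthPendingDepth 3

noncomputable section

namespace Vale.Agent.P210.R2.H912

open Vale.Agent.P210.R2.H53

lemma lapG_congr {E : Type} [NormedAddCommGroup E] [NormedSpace ℝ E]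
    (G : E → E →L[ℝ] E →L[ℝ] ℝ) {φ ψ : E → ℝ} {z : E} (h : φ =ᶠ[𝓝 z] ψ) :
    lapG G φ z = lapG G ψ z := by
  have h1 : fderiv ℝ φ z = fderiv ℝ ψ z := h.fderiv_eq
  have h2 : fderiv ℝ (fderiv ℝ φ) z = fderiv ℝ (fderiv ℝ ψ) z := (h.fderiv).fderiv_eq
  simp only [lapG, opG, hessG, h1, h2]

lemma lapG_zero {E : Type} [NormedAddCommGroup E] [NormedSpace ℝ E]
    (G : E → E →L[ℝ] E →L[ℝ] ℝ) (z : E) :
    lapG G (fun _ => (0 : ℝ)) z = 0 := by
  have h1 : fderiv ℝ (fun _ : E => (0 : ℝ)) = fun _ => 0 := by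
    funext w
    exact fderiv_const_apply _
  simp [lapG, opG, hessG, h1]

variable {E : Type} [NormedAddCommGroup E] [NormedSpace ℝ E] [FiniteDimensional ℝ E]
  [MeasurableSpace E] [BorelSpace E]
  {M : Type} [MetricSpace M] [ChartedSpace E M]
  [RiemannianBundle (fun x : M => TangentSpace 𝓘(ℝ, E) x)]
  [IsManifold 𝓘(ℝ, E) ∞ M]
  [IsContMDiffRiemannianBundle 𝓘(ℝ, E) ∞ E (fun x : M => TangentSpace 𝓘(ℝ, E) x)]
  [MeasurableSpace M] [BorelSpace M]

/-- extension by zero of a function in a chart -/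
def zext (e : OpenPartialHomeomorph M E) (ψ : E → ℝ) (p : M) : ℝ := by
  classical exact if p ∈ e.source then ψ (e p) else 0

omit [FiniteDimensional ℝ E] [MeasurableSpace E] [BorelSpace E]
  [RiemannianBundle (fun x : M => TangentSpace 𝓘(ℝ, E) x)]
  [IsManifold 𝓘(ℝ, E) ∞ M]
  [IsContMDiffRiemannianBundle 𝓘(ℝ, E) ∞ E (fun x : M => TangentSpace 𝓘(ℝ, E) x)]
  [MeasurableSpace M] [BorelSpace M] in
lemma zext_apply {e : OpenPartialHomeomorph M E} {ψ : E → ℝ} {p : M} (hp : p ∈ e.source) :
    zext e ψ p = ψ (e p) := by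
  simp [zext, hp]

omit [FiniteDimensional ℝ E] [MeasurableSpace E] [BorelSpace E]
  [RiemannianBundle (fun x : M => TangentSpace 𝓘(ℝ, E) x)]
  [IsManifold 𝓘(ℝ, E) ∞ M]
  [IsContMDiffRiemannianBundle 𝓘(ℝ, E) ∞ E (fun x : M => TangentSpace 𝓘(ℝ, E) x)]
  [MeasurableSpace M] [BorelSpace M] in
lemma zext_zero {e : OpenPartialHomeomorph M E} {ψ : E → ℝ} (hψt : tsupport ψ ⊆ e.target)
    {p : M} (hp : p ∉ e.symm '' tsupport ψ) : zext e ψ p = 0 := by
  by_cases h : p ∈ e.source
  · rw [zext_apply h]
    by_contra hne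
    apply hp
    exact ⟨e p, subset_tsupport _ hne, e.left_inv h⟩
  · simp [zext, h]

omit [FiniteDimensional ℝ E] [MeasurableSpace E] [BorelSpace E]
  [RiemannianBundle (fun x : M => TangentSpace 𝓘(ℝ, E) x)]
  [IsManifold 𝓘(ℝ, E) ∞ M]
  [IsContMDiffRiemannianBundle 𝓘(ℝ, E) ∞ E (fun x : M => TangentSpace 𝓘(ℝ, E) x)]
  [MeasurableSpace M] [BorelSpace M] in
lemma isCompact_zext {e : OpenPartialHomeomorph M E} {ψ : E → ℝ} (hc : HasCompactSupport ψ)
    (hψt : tsupport ψ ⊆ e.target) : IsCompact (e.symm '' tsupport ψ) :=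
  IsCompact.image_of_continuousOn hc (e.continuousOn_symm.mono hψt)

omit [FiniteDimensional ℝ E] [MeasurableSpace E] [BorelSpace E]
  [RiemannianBundle (fun x : M => TangentSpace 𝓘(ℝ, E) x)]
  [IsManifold 𝓘(ℝ, E) ∞ M]
  [IsContMDiffRiemannianBundle 𝓘(ℝ, E) ∞ E (fun x : M => TangentSpace 𝓘(ℝ, E) x)]
  [MeasurableSpace M] [BorelSpace M] in
lemma tsupport_zext {e : OpenPartialHomeomorph M E} {ψ : E → ℝ} (hc : HasCompactSupport ψ)
    (hψt : tsupport ψ ⊆ e.target) : tsupport (zext e ψ) ⊆ e.symm '' tsupport ψ := by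
  refine closure_minimal ?_ (isCompact_zext hc hψt).isClosed
  intro p hp
  by_contra hcon
  exact hp (zext_zero hψt hcon)

omit [FiniteDimensional ℝ E] [MeasurableSpace E] [BorelSpace E]
  [RiemannianBundle (fun x : M => TangentSpace 𝓘(ℝ, E) x)]
  [IsContMDiffRiemannianBundle 𝓘(ℝ, E) ∞ E (fun x : M => TangentSpace 𝓘(ℝ, E) x)]
  [MeasurableSpace M] [BorelSpace M] in
lemma tf_zext {e : OpenPartialHomeomorph M E} (he : e ∈ maximalAtlas 𝓘(ℝ, E) ∞ M) {ψ : E → ℝ}
    (hψ : ContDiff ℝ ∞ ψ) (hc : HasCompactSupport ψ) (hψt : tsupport ψ ⊆ e.target) :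
    TF E (zext e ψ) := by
  have hS := isCompact_zext hc hψt
  refine ⟨fun p => ?_, HasCompactSupport.intro hS fun p hp => zext_zero hψt hp⟩
  by_cases hp : p ∈ e.source
  · have h1 : ContMDiffAt 𝓘(ℝ, E) 𝓘(ℝ, ℝ) ∞ (ψ ∘ e) p :=
      (hψ.contMDiff.contMDiffAt).comp p
        ((contMDiffOn_of_mem_maximalAtlas he).contMDiffAt (e.open_source.mem_nhds hp))
    refine h1.congr_of_eventuallyEq ?_
    filter_upwards [e.open_source.mem_nhds hp] with q hq
    exact zext_apply hq
  · have hpS : p ∉ e.symm '' tsupport ψ := by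
      rintro ⟨z, hz, rfl⟩
      exact hp (e.map_target (hψt hz))
    have h1 : ContMDiffAt 𝓘(ℝ, E) 𝓘(ℝ, ℝ) ∞ (fun _ : M => (0 : ℝ)) p := contMDiffAt_const
    refine h1.congr_of_eventuallyEq ?_
    filter_upwards [hS.isClosed.isOpen_compl.mem_nhds hpS] with q hq
    exact zext_zero hψt hq

/-- regularity in one chart -/
lemma local_reg {μ : Measure M} (hμ : IsVol E μ) {U : Set M} {b : M → ℝ} (hU : IsOpen U)
    (hb : Measurable b)
    (hb2 : ∀ S : Set M, IsCompact S → S ⊆ U → IntegrableOn (fun p => b p ^ 2) S μ)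
    (hweak : ∀ Z : M → ℝ, TF E Z → tsupport Z ⊆ U → ∫ p, b p * Lap E Z p ∂μ = 0)
    {e : OpenPartialHomeomorph M E} (he : e ∈ maximalAtlas 𝓘(ℝ, E) ∞ M) :
    ∃ w' : E → ℝ, ContDiffOn ℝ ∞ w' (e.target ∩ e.symm ⁻¹' U) ∧
      ∀ᵐ z ∂(Module.finBasis ℝ E).addHaar, z ∈ e.target ∩ e.symm ⁻¹' U →
        w' z = b (e.symm z) := by
  set O : Set E := e.target ∩ e.symm ⁻¹' U with hOdef
  have hO : IsOpen O := e.isOpen_inter_preimage_symm hU
  have hOt : O ⊆ e.target := inter_subset_left
  have hR := H934.localRiem_chartG he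
  have hsymmO : AEMeasurable e.symm ((Module.finBasis ℝ E).addHaar.restrict O) :=
    (e.continuousOn_symm.mono hOt).aemeasurable hO.measurableSet
  set w : E → ℝ := O.indicator (fun z => b (e.symm z)) with hw
  have hwO : ∀ z ∈ O, w z = b (e.symm z) := fun z hz => indicator_of_mem hz _
  have hwm : AEStronglyMeasurable w (Module.finBasis ℝ E).addHaar := by
    rw [hw, aestronglyMeasurable_indicator_iff hO.measurableSet]
    exact (hb.comp_aemeasurable hsymmO).aestronglyMeasurable
  have hA : ∀ k : Set E, IsCompact k → k ⊆ O →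
      IntegrableOn (fun z => w z ^ 2) k (Module.finBasis ℝ E).addHaar := by
    intro k hk hkO
    have hkt : k ⊆ e.target := hkO.trans hOt
    set S : Set M := e.symm '' k with hS
    have hSc : IsCompact S := hk.image_of_continuousOn (e.continuousOn_symm.mono hkt)
    have hSU : S ⊆ U := by
      rintro _ ⟨z, hz, rfl⟩
      exact (hkO hz).2
    have hi := hb2 S hSc hSU
    set f : M → ℝ := S.indicator fun p => b p ^ 2 with hf
    have hfi : Integrable f (μ.restrict e.source) := by
      refine Integrable.mono_measure ?_ Measure.restrict_le_self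
      rw [hf, integrable_indicator_iff hSc.measurableSet]
      exact hi
    rw [H934.restrict_eq_map hμ he] at hfi
    have hm : AEMeasurable e.symm (H934.nu e) :=
      (H934.aemeasurable_symm e).mono_ac (H934.nu_ac e)
    have h3 : Integrable (f ∘ e.symm) (H934.nu e) := hfi.comp_aemeasurable hm
    rw [H934.nu, integrable_withDensity_iff_integrable_smul₀' (H934.aemeasurable_dens he)
      (Eventually.of_forall fun z => ENNReal.ofReal_lt_top)] at h3
    have h4 : IntegrableOn (fun z => dens (chartG e) z * w z ^ 2) k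
        (Module.finBasis ℝ E).addHaar := by
      have h5 : IntegrableOn (fun z => (ENNReal.ofReal (dens (chartG e) z)).toReal •
          (f ∘ e.symm) z) e.target (Module.finBasis ℝ E).addHaar := h3
      refine (h5.mono_set hkt).congr_fun (fun z hz => ?_) hk.measurableSet
      simp only [Function.comp_apply, smul_eq_mul]
      rw [ENNReal.toReal_ofReal (H934.dens_nonneg _ _), hwO z (hkO hz), hf,
        indicator_of_mem (show e.symm z ∈ S from ⟨z, hz, rfl⟩)]
    have h6 : ContinuousOn (fun z => (dens (chartG e) z)⁻¹) k := by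
      refine ContinuousOn.inv₀ ((H934.contDiffOn_dens hR).continuousOn.mono hkt) ?_
      intro z hz
      exact (H934.dens_pos hR (hkt hz)).ne'
    have h7 := IntegrableOn.continuousOn_mul h6 h4 hk
    refine h7.congr_fun (fun z hz => ?_) hk.measurableSet
    have h8 := (H934.dens_pos hR (hkt hz)).ne'
    simp only
    rw [← mul_assoc, inv_mul_cancel₀ h8, one_mul]
  have hB : ∀ ψ : E → ℝ, ContDiff ℝ ∞ ψ → HasCompactSupport ψ → tsupport ψ ⊆ O →
      ∫ z, w z * (dens (chartG e) z * lapG (chartG e) ψ z) ∂(Module.finBasis ℝ E).addHaar = 0 := by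
    intro ψ hψ hc hψO
    have hψt : tsupport ψ ⊆ e.target := hψO.trans hOt
    have hZ := tf_zext he hψ hc hψt
    have hZs : tsupport (zext e ψ) ⊆ U := by
      refine (tsupport_zext hc hψt).trans ?_
      rintro _ ⟨z, hz, rfl⟩
      exact (hψO hz).2
    have h0 := hweak _ hZ hZs
    have hzero : ∀ p, p ∉ e.source → Lap E (zext e ψ) p = 0 := by
      intro p hp
      have hpS : p ∉ e.symm '' tsupport ψ := by
        rintro ⟨z, hz, rfl⟩
        exact hp (e.map_target (hψt hz))
      have h1 : ∀ᶠ q in 𝓝 p, zext e ψ q = 0 := by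
        filter_upwards [(isCompact_zext hc hψt).isClosed.isOpen_compl.mem_nhds hpS] with q hq
        exact zext_zero hψt hq
      have hps : p ∈ (chartAt E p).source := mem_chart_source E p
      have h3 : Tendsto (chartAt E p).symm (𝓝 (chartAt E p p)) (𝓝 p) := by
        have := (chartAt E p).continuousAt_symm ((chartAt E p).map_source hps)
        rwa [ContinuousAt, (chartAt E p).left_inv hps] at this
      have h4 : (zext e ψ ∘ (chartAt E p).symm) =ᶠ[𝓝 (chartAt E p p)] fun _ => (0 : ℝ) :=
        h3.eventually h1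
      rw [Lap, lapG_congr _ h4, lapG_zero]
    have hval : ∀ z ∈ e.target, Lap E (zext e ψ) (e.symm z) = lapG (chartG e) ψ z := by
      intro z hz
      rw [H934.lap_chart he (e.map_target hz) hZ.1, e.right_inv hz]
      refine lapG_congr _ ?_
      filter_upwards [e.open_target.mem_nhds hz] with y hy
      simp only [Function.comp_apply]
      rw [zext_apply (e.map_target hy), e.right_inv hy]
    have hout : ∀ z, z ∉ tsupport ψ → lapG (chartG e) ψ z = 0 := by
      intro z hz
      have h1 : ψ =ᶠ[𝓝 z] fun _ => (0 : ℝ) := notMem_tsupport_iff_eventuallyEq.1 hz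
      rw [lapG_congr _ h1, lapG_zero]
    have hm : AEStronglyMeasurable (fun p => b p * Lap E (zext e ψ) p)
        (μ.restrict e.source) := by
      refine hb.aestronglyMeasurable.mul ?_
      have h1 : ContinuousOn (Lap E (zext e ψ)) e.source := by
        have h2 : ContinuousOn (lapG (chartG e) ψ) e.target :=
          H934.continuousOn_lapG hR hψ.contDiffOn
        have h3 : ContinuousOn (fun p => lapG (chartG e) ψ (e p)) e.source :=
          h2.comp e.continuousOn e.mapsTo
        refine h3.congr fun p hp => ?_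
        have := hval (e p) (e.map_source hp)
        rwa [e.left_inv hp] at this
      exact h1.aestronglyMeasurable e.open_source.measurableSet
    have h5 : ∫ p, b p * Lap E (zext e ψ) p ∂μ =
        ∫ p in e.source, b p * Lap E (zext e ψ) p ∂μ := by
      refine (setIntegral_eq_integral_of_forall_compl_eq_zero fun p hp => ?_).symm
      rw [hzero p hp, mul_zero]
    rw [h5, H934.setIntegral_chart hμ he hm] at h0
    have h6 : ∫ z, w z * (dens (chartG e) z * lapG (chartG e) ψ z)
        ∂(Module.finBasis ℝ E).addHaar =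
        ∫ z in e.target, w z * (dens (chartG e) z * lapG (chartG e) ψ z)
          ∂(Module.finBasis ℝ E).addHaar := by
      refine (setIntegral_eq_integral_of_forall_compl_eq_zero fun z hz => ?_).symm
      have : w z = 0 := indicator_of_notMem (fun h => hz (hOt h)) _
      rw [this, zero_mul]
    rw [h6, ← h0]
    refine setIntegral_congr_fun e.open_target.measurableSet fun z hz => ?_
    show w z * (dens (chartG e) z * lapG (chartG e) ψ z) = _
    rw [hval z hz]
    by_cases hzO : z ∈ O
    · rw [hwO z hzO]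
      ring
    · rw [hout z fun h => hzO (hψO h)]
      ring
  obtain ⟨w', h1, h2⟩ := flat_reg hR hO hOt w hwm hA hB
  refine ⟨w', h1, ?_⟩
  filter_upwards [h2] with z hz hzO
  rw [hz hzO, hwO z hzO]

/-- [HYPM] -/
theorem hypm : Stmt.HYPM := by
  intro E _ _ _ _ _ M _ _ _ _ _ _ _ _ _ hn μ hμ U b hU hb hb2 hweak
  have hpos : μ.IsOpenPosMeasure := ⟨fun V hV hne => (H934.open_pos hμ hV hne).ne'⟩
  have hch : ∀ p : M, chartAt E p ∈ maximalAtlas 𝓘(ℝ, E) ∞ M := fun p =>
    IsManifold.chart_mem_maximalAtlas p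
  choose W hW1 hW2 using fun p : M => local_reg hμ hU hb hb2 hweak (hch p)
  -- the almost everywhere statement on the manifold
  have hae : ∀ p : M, ∀ᵐ q ∂μ.restrict (chartAt E p).source, q ∈ U →
      W p (chartAt E p q) = b q := by
    intro p
    refine H934.ae_chart hμ (hch p) ?_
    rw [H934.rho]
    filter_upwards [ae_restrict_of_ae (hW2 p), ae_restrict_mem (chartAt E p).open_target.measurableSet]
      with z hz hzt hzU
    rw [(chartAt E p).right_inv hzt]
    exact hz ⟨hzt, hzU⟩
  have hcont : ∀ p : M, ContinuousOn (fun q => W p (chartAt E p q))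
      (U ∩ (chartAt E p).source) := by
    intro p
    refine (hW1 p).continuousOn.comp ((chartAt E p).continuousOn.mono inter_subset_right) ?_
    rintro q ⟨hqU, hqs⟩
    exact ⟨(chartAt E p).map_source hqs, by
      show (chartAt E p).symm (chartAt E p q) ∈ U
      rwa [(chartAt E p).left_inv hqs]⟩
  set b' : M → ℝ := fun p => W p (chartAt E p p) with hb'
  have hglue : ∀ p₀ : M, ∀ p ∈ U ∩ (chartAt E p₀).source, b' p = W p₀ (chartAt E p₀ p) := by
    rintro p₀ p ⟨hpU, hps⟩
    set N : Set M := U ∩ (chartAt E p).source ∩ (chartAt E p₀).source with hN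
    have hNo : IsOpen N :=
      (hU.inter (chartAt E p).open_source).inter (chartAt E p₀).open_source
    have hpN : p ∈ N := ⟨⟨hpU, mem_chart_source E p⟩, hps⟩
    have h1 : (fun q => W p (chartAt E p q)) =ᵐ[μ.restrict N]
        fun q => W p₀ (chartAt E p₀ q) := by
      have h2 := ae_restrict_of_ae_restrict_of_subset
        (show N ⊆ (chartAt E p).source from fun q hq => hq.1.2) (hae p)
      have h3 := ae_restrict_of_ae_restrict_of_subset
        (show N ⊆ (chartAt E p₀).source from fun q hq => hq.2) (hae p₀)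
      filter_upwards [h2, h3, ae_restrict_mem hNo.measurableSet] with q h4 h5 hq
      rw [h4 hq.1.1, h5 hq.1.1]
    have h6 := Measure.eqOn_open_of_ae_eq h1 hNo
      ((hcont p).mono fun q hq => hq.1) ((hcont p₀).mono fun q hq => ⟨hq.1.1, hq.2⟩)
    exact h6 hpN
  refine ⟨b', ?_, ?_⟩
  · intro p hpU
    have hps : p ∈ (chartAt E p).source := mem_chart_source E p
    have hO : IsOpen ((chartAt E p).target ∩ (chartAt E p).symm ⁻¹' U) :=
      (chartAt E p).isOpen_inter_preimage_symm hU
    have hpO : chartAt E p p ∈ (chartAt E p).target ∩ (chartAt E p).symm ⁻¹' U :=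
      ⟨(chartAt E p).map_source hps, by
        show (chartAt E p).symm (chartAt E p p) ∈ U
        rwa [(chartAt E p).left_inv hps]⟩
    have h1 : ContMDiffAt 𝓘(ℝ, E) 𝓘(ℝ, ℝ) ∞ (W p ∘ chartAt E p) p :=
      (((hW1 p).contDiffAt (hO.mem_nhds hpO)).contMDiffAt).comp p
        ((contMDiffOn_of_mem_maximalAtlas (hch p)).contMDiffAt
          ((chartAt E p).open_source.mem_nhds hps))
    refine (h1.congr_of_eventuallyEq ?_).contMDiffWithinAt
    filter_upwards [hU.mem_nhds hpU, (chartAt E p).open_source.mem_nhds hps] with q hq hqs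
    exact hglue p q ⟨hq, hqs⟩
  · obtain ⟨s, hs, hsu⟩ := H934.exists_countable_charts (E := E) (M := M)
    rw [← Measure.restrict_univ (μ := μ), ← hsu, ae_restrict_biUnion_iff _ hs]
    intro p _
    filter_upwards [hae p, ae_restrict_mem (chartAt E p).open_source.measurableSet]
      with q hq hqs hqU
    rw [hglue p q ⟨hqU, hqs⟩]
    exact hq hqU

end Vale.Agent.P210.R2.H912
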