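import Vale.Agent.P210.R2.H912.Wlcg
import Vale.Agent.P210.R2.H912.Reg
import Vale.Agent.P210.R2.H912.Finr
import Vale.Agent.P210.R2.H912.Covc
import Vale.Agent.P210.R2.H168.Mcp
import Vale.Agent.P210.R2.H999.Seg
import Vale.Agent.P210.R2.H999.Vol
import Vale.Agent.P210.R2.H546.EndR
import Vale.Agent.P210.R2.H546.Slope
import Vale.Agent.P210.R2.H597.Coni
import Vale.Agent.P210.R2.H597.PairC
import Vale.Agent.P210.R2.H755.Calc
import Vale.Agent.P210.R2.H53.AnG
import Vale.Agent.P210.R2.H973.ScxFin
import Vale.Agent.P210.R2.H50.Inp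
import Vale.Agent.P210.R2.H401.Vit
import Vale.Agent.P210.R2.H401.StepE
import Vale.Agent.P210.R2.H401.Abs
import Vale.Agent.P210.R2.H475.Bad
import Vale.Agent.P210.R2.H285.Cover
import Vale.Agent.P210.R2.H635.Flat
import Vale.Agent.P210.R2.H635.Pig

/-! # P210, assembly of the theorem on manifolds with almost nonnegative Ricci curvature -/

namespace Vale.Agent.P210.R2.H912

open H53

theorem bg' : Stmt.BG := H168.bg (H168.mcp wlc H934.cala H34.calb) H934.cala

theorem seg' : Stmt.SEG :=
  H999.seg (H168.mcp wlc H934.cala H34.calb) H934.cala H34.calb H755.calc_holds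

theorem an' : Stmt.AN := an wlc bg' H934.cala H34.calb H755.calc_holds H34.cald hypm

theorem scx' : Stmt.SCX := H973.scx H934.cala H34.calb H34.cald

theorem slope' : Stmt.SLOPE :=
  H546.slope H934.cala H34.calb H755.calc_holds H34.cald bg' an' seg'

theorem end' : Stmt.END :=
  H546.endr H934.cala H34.calb H755.calc_holds H34.cald bg' an' scx'

theorem mass' : Stmt.MASS := H597.mass wlc H934.cala H34.calb bg'

theorem coni' : Stmt.CONI := H597.coni wlc H934.cala H34.calb bg'

theorem content_of (habs : H401.Stmt.ABS) : Stmt.CONTENT :=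
  H50.content bg' mass' coni' slope' end' H934.cala H34.calb habs

theorem finalr_abs (habs : H401.Stmt.ABS) : Stmt.FINALR :=
  finalr_of H999.vol H934.cala bg' (content_of habs) covc_holds

theorem finalr_dens (hdens : H401.Stmt.DENS) : Stmt.FINALR :=
  finalr_abs (H401.abs_of (H401.step H285.cover hdens H597.pairC (H475.bad H285.cover H401.vit)
    H635.flat H635.pig H635.lim) H285.cover hdens H635.lim)

end Vale.Agent.P210.R2.H912
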