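import Vale.Agent.P210.R2.H912.Fin
-- import the file with the proof of ONE here

open scoped Manifold ContDiff Topology
open Bundle IsManifold

set_option maxSynthPendingDepth 3

theorem Vale.Agent.P210.R2.H912.result_of_one (hone : Vale.Agent.P210.R2.H53.Stmt.ONE) :
    ∀ n : ℕ, 3 ≤ n → ∃ δ > 0, ∃ C : ℝ,
      ∀ (E : Type) [NormedAddCommGroup E] [NormedSpace ℝ E] [FiniteDimensional ℝ E]
        (M : Type) [MetricSpace M] [ChartedSpace E M]
        [RiemannianBundle (fun x : M => TangentSpace 𝓘(ℝ, E) x)]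
        [IsManifold 𝓘(ℝ, E) ∞ M]
        [IsContMDiffRiemannianBundle 𝓘(ℝ, E) ∞ E (fun x : M => TangentSpace 𝓘(ℝ, E) x)]
        [IsRiemannianManifold 𝓘(ℝ, E) M],
        Module.finrank ℝ E = n → CompleteSpace M →
        Vale.Agent.P210.R2.H53.SecGE E M (-δ) → Vale.Agent.P210.R2.H53.ScalGE E M 1 →
        Vale.Agent.P210.R2.H53.UrysohnWidthLE M (n - 2) C :=
  Vale.Agent.P210.R2.H912.final_of_one hone
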