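import Vale.Agent.P210.TP.Props
import Mathlib.SetTheory.Cardinal.Order

/-! # P210: products of barycentric coordinates (first part of PRODB) -/

open scoped Topology
open Set

noncomputable section

namespace Vale.Agent.P210.R2.H912

open Vale.Agent.P210

/-- length of the intersection of `[a, b]` and `[c, d]` -/
def ov (a b c d : ℝ) : ℝ := max 0 (min b d - max a c)

theorem ov_nonneg (a b c d : ℝ) : 0 ≤ ov a b c d := le_max_left _ _

theorem ov_comm (a b c d : ℝ) : ov a b c d = ov c d a b := by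
  rw [ov, ov, min_comm, max_comm a c]

theorem ov_self (a c d : ℝ) : ov a a c d = 0 := by
  rw [ov, max_eq_left]
  have h1 := min_le_left a d
  have h2 := le_max_left a c
  linarith

theorem ov_self' (a b c : ℝ) : ov a b c c = 0 := by rw [ov_comm, ov_self]

theorem ov_eq {a b c d : ℝ} (hab : a ≤ b) (hcd : c ≤ d) :
    ov a b c d = (min d (max c b) - c) - (min d (max c a) - c) := by
  rw [ov]
  rcases le_total b d with h1 | h1 <;> rcases le_total a c with h2 | h2 <;>
    rcases le_total c b with h3 | h3 <;> rcases le_total a d with h4 | h4 <;>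
    simp only [min_eq_left, min_eq_right, max_eq_left, max_eq_right, h1, h2, h3, h4, hcd] <;>
    first
    | (rw [max_eq_right (by linarith)]; linarith)
    | (rw [max_eq_left (by linarith)]; linarith)

section order

variable {V : Type} [LinearOrder V]

/-- partial sums -/
def Lp (S : Finset V) (m : V → ℝ) (v : V) : ℝ := ∑ u ∈ S.filter (· < v), m u

theorem Lp_nonneg {S : Finset V} {m : V → ℝ} (hm : ∀ v, 0 ≤ m v) (v : V) : 0 ≤ Lp S m v :=
  Finset.sum_nonneg fun u _ => hm u

theorem Lp_add_le {S : Finset V} {m : V → ℝ} (hm : ∀ v, 0 ≤ m v) {v : V} (hv : v ∈ S) :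
    Lp S m v + m v ≤ ∑ u ∈ S, m u := by
  have h1 : Lp S m v + m v = ∑ u ∈ insert v (S.filter (· < v)), m u := by
    rw [Finset.sum_insert (by simp), Lp]
    ring
  rw [h1]
  refine Finset.sum_le_sum_of_subset_of_nonneg ?_ fun u _ _ => hm u
  intro u hu
  rcases Finset.mem_insert.1 hu with rfl | hu
  · exact hv
  · exact (Finset.mem_filter.1 hu).1

theorem Lp_add_le_Lp {S : Finset V} {m : V → ℝ} (hm : ∀ v, 0 ≤ m v) {v v' : V} (hv : v ∈ S)
    (hlt : v < v') : Lp S m v + m v ≤ Lp S m v' := by
  have h1 : Lp S m v + m v = ∑ u ∈ insert v (S.filter (· < v)), m u := by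
    rw [Finset.sum_insert (by simp), Lp]
    ring
  rw [h1, Lp]
  refine Finset.sum_le_sum_of_subset_of_nonneg ?_ fun u _ _ => hm u
  intro u hu
  rcases Finset.mem_insert.1 hu with rfl | hu
  · exact Finset.mem_filter.2 ⟨hv, hlt⟩
  · have := Finset.mem_filter.1 hu
    exact Finset.mem_filter.2 ⟨this.1, this.2.trans hlt⟩

theorem tele {S : Finset V} {m : V → ℝ} (hm : ∀ v, 0 ≤ m v) {t : ℝ} (ht : 0 ≤ t) :
    ∑ v ∈ S, (min (Lp S m v + m v) (max (Lp S m v) t) - Lp S m v) = min t (∑ v ∈ S, m v) := by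
  classical
  induction S using Finset.induction_on_max with
  | empty => simp [ht]
  | insert a S ha ih =>
    have haS : a ∉ S := fun h => lt_irrefl _ (ha a h)
    have h1 : ∀ v ∈ S, Lp (insert a S) m v = Lp S m v := by
      intro v hv
      rw [Lp, Lp, Finset.filter_insert, if_neg (not_lt.2 (ha v hv).le)]
    have h2 : Lp (insert a S) m a = ∑ v ∈ S, m v := by
      rw [Lp, Finset.filter_insert, if_neg (lt_irrefl _), Finset.filter_true_of_mem ha]
    rw [Finset.sum_insert haS, Finset.sum_insert haS, h2]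
    have h3 : ∑ v ∈ S, (min (Lp (insert a S) m v + m v) (max (Lp (insert a S) m v) t) -
        Lp (insert a S) m v) = min t (∑ v ∈ S, m v) := by
      rw [← ih]
      exact Finset.sum_congr rfl fun v hv => by rw [h1 v hv]
    rw [h3]
    have hma := hm a
    set s := ∑ v ∈ S, m v
    rcases le_total t s with h | h
    · rw [max_eq_left h, min_eq_left h, min_eq_right (by linarith), min_eq_left (by linarith)]
      ring
    · rw [max_eq_right h, min_eq_right h, add_comm (m a) s, min_comm]
      ring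

/-- the sum of the lengths of the intersections -/
theorem sum_ov {S : Finset V} {m : V → ℝ} (hm : ∀ v, 0 ≤ m v) (hs : ∑ v ∈ S, m v = 1)
    {a b : ℝ} (ha : 0 ≤ a) (hab : a ≤ b) (hb : b ≤ 1) :
    ∑ v ∈ S, ov a b (Lp S m v) (Lp S m v + m v) = b - a := by
  have h1 : ∀ v ∈ S, ov a b (Lp S m v) (Lp S m v + m v) =
      (min (Lp S m v + m v) (max (Lp S m v) b) - Lp S m v) -
        (min (Lp S m v + m v) (max (Lp S m v) a) - Lp S m v) := fun v _ =>
    ov_eq hab (by have := hm v; linarith)
  rw [Finset.sum_congr rfl h1, Finset.sum_sub_distrib, tele hm (ha.trans hab), tele hm ha, hs,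
    min_eq_left hb, min_eq_left (hab.trans hb)]

theorem card_le {W : Type} [LinearOrder W] {S : Finset V} {T : Finset W} {m : V → ℝ} {m' : W → ℝ}
    (hm : ∀ v, 0 ≤ m v) (hm' : ∀ w, 0 ≤ m' w) (hS : S.Nonempty) (hT : T.Nonempty) :
    ((S ×ˢ T).filter fun p => ov (Lp S m p.1) (Lp S m p.1 + m p.1) (Lp T m' p.2)
      (Lp T m' p.2 + m' p.2) ≠ 0).card + 1 ≤ S.card + T.card := by
  classical
  set P := (S ×ˢ T).filter fun p => ov (Lp S m p.1) (Lp S m p.1 + m p.1) (Lp T m' p.2)
      (Lp T m' p.2 + m' p.2) ≠ 0 with hP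
  have hpos : ∀ p ∈ P, p.1 ∈ S ∧ p.2 ∈ T ∧ max (Lp S m p.1) (Lp T m' p.2) <
      min (Lp S m p.1 + m p.1) (Lp T m' p.2 + m' p.2) := by
    intro p hp
    obtain ⟨h1, h2⟩ := Finset.mem_filter.1 hp
    obtain ⟨h3, h4⟩ := Finset.mem_product.1 h1
    refine ⟨h3, h4, ?_⟩
    by_contra hn
    exact h2 (by rw [ov, max_eq_left]; linarith [not_lt.1 hn])
  let f : V × W → ℝ := fun p => max (Lp S m p.1) (Lp T m' p.2)
  have hinj : Set.InjOn f P := by
    intro p hp p' hp' h
    obtain ⟨a1, a2, a3⟩ := hpos p hp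
    obtain ⟨b1, b2, b3⟩ := hpos p' hp'
    have a4 : f p < Lp S m p.1 + m p.1 := a3.trans_le (min_le_left _ _)
    have a5 : f p < Lp T m' p.2 + m' p.2 := a3.trans_le (min_le_right _ _)
    have b4 : f p' < Lp S m p'.1 + m p'.1 := b3.trans_le (min_le_left _ _)
    have b5 : f p' < Lp T m' p'.2 + m' p'.2 := b3.trans_le (min_le_right _ _)
    have a6 : Lp S m p.1 ≤ f p := le_max_left _ _
    have a7 : Lp T m' p.2 ≤ f p := le_max_right _ _
    have b6 : Lp S m p'.1 ≤ f p' := le_max_left _ _
    have b7 : Lp T m' p'.2 ≤ f p' := le_max_right _ _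
    refine Prod.ext ?_ ?_
    · rcases lt_trichotomy p.1 p'.1 with h1 | h1 | h1
      · have := Lp_add_le_Lp hm a1 h1
        linarith
      · exact h1
      · have := Lp_add_le_Lp hm b1 h1
        linarith
    · rcases lt_trichotomy p.2 p'.2 with h1 | h1 | h1
      · have := Lp_add_le_Lp hm' a2 h1
        linarith
      · exact h1
      · have := Lp_add_le_Lp hm' b2 h1
        linarith
  have h1 : P.card = (P.image f).card := (Finset.card_image_of_injOn hinj).symm
  have h2 : P.image f ⊆ S.image (Lp S m) ∪ T.image (Lp T m') := by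
    intro r hr
    obtain ⟨p, hp, rfl⟩ := Finset.mem_image.1 hr
    obtain ⟨a1, a2, -⟩ := hpos p hp
    rcases max_choice (Lp S m p.1) (Lp T m' p.2) with h | h
    · exact Finset.mem_union_left _ (Finset.mem_image.2 ⟨p.1, a1, h.symm⟩)
    · exact Finset.mem_union_right _ (Finset.mem_image.2 ⟨p.2, a2, h.symm⟩)
  have h3 := Finset.card_union_add_card_inter (S.image (Lp S m)) (T.image (Lp T m'))
  have h4 : (0 : ℝ) ∈ S.image (Lp S m) ∩ T.image (Lp T m') := by
    refine Finset.mem_inter.2 ⟨Finset.mem_image.2 ⟨S.min' hS, S.min'_mem hS, ?_⟩,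
      Finset.mem_image.2 ⟨T.min' hT, T.min'_mem hT, ?_⟩⟩
    · rw [Lp, Finset.filter_false_of_mem fun u hu => not_lt.2 (S.min'_le u hu), Finset.sum_empty]
    · rw [Lp, Finset.filter_false_of_mem fun u hu => not_lt.2 (T.min'_le u hu), Finset.sum_empty]
  have h5 : 1 ≤ (S.image (Lp S m) ∩ T.image (Lp T m')).card := Finset.card_pos.2 ⟨0, h4⟩
  have h6 := Finset.card_le_card h2
  have h7 : (S.image (Lp S m)).card ≤ S.card := Finset.card_image_le
  have h8 : (T.image (Lp T m')).card ≤ T.card := Finset.card_image_le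
  omega

end order

section Bary

variable {X V : Type} [TopologicalSpace X] {k : ℕ} {lam : V → X → ℝ}

/-- the support at a point -/
def supp (h : TP.Bary X V k lam) (x : X) : Finset V := (h.fin.point_finite x).toFinset

theorem mem_supp (h : TP.Bary X V k lam) (x : X) (v : V) : v ∈ supp h x ↔ lam v x ≠ 0 := by
  simp [supp]

theorem sum_supp (h : TP.Bary X V k lam) (x : X) : ∑ v ∈ supp h x, lam v x = 1 := by
  rw [← h.sum x]
  symm
  apply finsum_eq_sum_of_support_subset
  intro v hv
  exact (mem_supp h x v).2 hv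

theorem supp_nonempty (h : TP.Bary X V k lam) (x : X) : (supp h x).Nonempty := by
  rw [Finset.nonempty_iff_ne_empty]
  intro h0
  have := sum_supp h x
  rw [h0, Finset.sum_empty] at this
  exact zero_ne_one this

theorem card_supp (h : TP.Bary X V k lam) (x : X) : (supp h x).card ≤ k + 1 := by
  have h1 := h.card x
  have h2 : {v | lam v x ≠ 0} = (supp h x : Set V) := by
    ext v
    rw [Finset.mem_coe, mem_supp]
    rfl
  rwa [h2, Set.ncard_coe_finset] at h1

variable [LinearOrder V]

/-- partial sums of barycentric coordinates -/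
def Lo (lam : V → X → ℝ) (v : V) (x : X) : ℝ := ∑ᶠ u, if u < v then lam u x else 0

theorem Lo_eq (h : TP.Bary X V k lam) (v : V) (x : X) :
    Lo lam v x = Lp (supp h x) (fun v => lam v x) v := by
  rw [Lo, Lp, Finset.sum_filter]
  apply finsum_eq_sum_of_support_subset
  intro u hu
  rw [Finset.mem_coe, mem_supp]
  intro h0
  refine hu ?_
  simp only [h0, ite_self]

theorem Lo_cont (h : TP.Bary X V k lam) (v : V) : Continuous (Lo lam v) := by
  refine continuous_finsum (f := fun u x => if u < v then lam u x else 0) ?_ ?_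
  · intro u
    by_cases hu : u < v
    · simpa only [if_pos hu] using h.cont u
    · simpa only [if_neg hu] using continuous_const
  · refine h.fin.subset fun u x hx => ?_
    rw [Function.mem_support] at hx ⊢
    intro h0
    refine hx ?_
    simp only [h0, ite_self]

end Bary

/-- the product of two families of barycentric coordinates -/
theorem prodb1 (X V W : Type) [TopologicalSpace X] (d k : ℕ) (lam : V → X → ℝ)
    (mu : W → X → ℝ) (h : TP.Bary X V d lam) (h' : TP.Bary X W k mu) :
    ∃ nu : V × W → X → ℝ, TP.Bary X (V × W) (d + k) nu ∧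
      ∀ x y, (∀ p, nu p x = nu p y) → (∀ v, lam v x = lam v y) ∧ ∀ v, mu v x = mu v y := by
  classical
  let _ : LinearOrder V := linearOrderOfSTO WellOrderingRel
  let _ : LinearOrder W := linearOrderOfSTO WellOrderingRel
  set nu : V × W → X → ℝ := fun p x => ov (Lo lam p.1 x) (Lo lam p.1 x + lam p.1 x)
    (Lo mu p.2 x) (Lo mu p.2 x + mu p.2 x) with hnu
  have hnu' : ∀ p x, nu p x = ov (Lp (supp h x) (fun v => lam v x) p.1)
      (Lp (supp h x) (fun v => lam v x) p.1 + lam p.1 x)
      (Lp (supp h' x) (fun v => mu v x) p.2)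
      (Lp (supp h' x) (fun v => mu v x) p.2 + mu p.2 x) := by
    intro p x
    simp only [hnu, Lo_eq h, Lo_eq h']
  have hz1 : ∀ p x, lam p.1 x = 0 → nu p x = 0 := by
    intro p x h0
    simp only [hnu, h0, add_zero, ov_self]
  have hz2 : ∀ p x, mu p.2 x = 0 → nu p x = 0 := by
    intro p x h0
    simp only [hnu, h0, add_zero, ov_self']
  have hsum2 : ∀ v x, ∑ᶠ w, nu (v, w) x = lam v x := by
    intro v x
    by_cases hv : lam v x = 0
    · rw [hv]
      exact finsum_eq_zero_of_forall_eq_zero fun w => hz1 (v, w) x hv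
    · rw [finsum_eq_sum_of_support_subset (s := supp h' x)]
      · simp only [hnu']
        rw [sum_ov (fun w => h'.nonneg w x) (sum_supp h' x)
          (Lp_nonneg (fun v => h.nonneg v x) v) (by have := h.nonneg v x; linarith) ?_]
        · ring
        · rw [← sum_supp h x]
          exact Lp_add_le (fun v => h.nonneg v x) ((mem_supp h x v).2 hv)
      · intro w hw
        rw [Finset.mem_coe, mem_supp]
        intro h0
        exact hw (hz2 (v, w) x h0)
  have hsum1 : ∀ w x, ∑ᶠ v, nu (v, w) x = mu w x := by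
    intro w x
    by_cases hw : mu w x = 0
    · rw [hw]
      exact finsum_eq_zero_of_forall_eq_zero fun v => hz2 (v, w) x hw
    · rw [finsum_eq_sum_of_support_subset (s := supp h x)]
      · simp only [hnu', ov_comm (Lp (supp h x) _ _)]
        rw [sum_ov (fun v => h.nonneg v x) (sum_supp h x)
          (Lp_nonneg (fun v => h'.nonneg v x) w) (by have := h'.nonneg w x; linarith) ?_]
        · ring
        · rw [← sum_supp h' x]
          exact Lp_add_le (fun v => h'.nonneg v x) ((mem_supp h' x w).2 hw)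
      · intro v hv
        rw [Finset.mem_coe, mem_supp]
        intro h0
        exact hv (hz1 (v, w) x h0)
  have hsupp : ∀ x, {p | nu p x ≠ 0} ⊆ ((supp h x ×ˢ supp h' x : Finset (V × W)) : Set (V × W)) := by
    intro x p hp
    rw [Finset.mem_coe, Finset.mem_product, mem_supp, mem_supp]
    exact ⟨fun h0 => hp (hz1 p x h0), fun h0 => hp (hz2 p x h0)⟩
  refine ⟨nu, ⟨?_, fun p x => ov_nonneg _ _ _ _, ?_, ?_, ?_⟩, ?_⟩
  · intro p
    have c1 := Lo_cont h p.1
    have c2 := Lo_cont h' p.2
    have c3 := h.cont p.1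
    have c4 := h'.cont p.2
    simp only [hnu, ov]
    fun_prop
  · intro x
    obtain ⟨N₁, hN₁, hf₁⟩ := h.fin x
    obtain ⟨N₂, hN₂, hf₂⟩ := h'.fin x
    refine ⟨N₁ ∩ N₂, Filter.inter_mem hN₁ hN₂, (hf₁.prod hf₂).subset ?_⟩
    rintro p ⟨y, hy, hy1, hy2⟩
    exact ⟨⟨y, fun h0 => hy (hz1 p y h0), hy1⟩, ⟨y, fun h0 => hy (hz2 p y h0), hy2⟩⟩
  · intro x
    rw [finsum_eq_sum_of_support_subset (s := supp h x ×ˢ supp h' x) _ (hsupp x),
      Finset.sum_product, ← sum_supp h x]
    refine Finset.sum_congr rfl fun v hv => ?_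
    rw [← hsum2 v x]
    symm
    apply finsum_eq_sum_of_support_subset
    intro w hw
    rw [Finset.mem_coe, mem_supp]
    intro h0
    exact hw (hz2 (v, w) x h0)
  · intro x
    have h1 := card_le (fun v => h.nonneg v x) (fun w => h'.nonneg w x)
      (supp_nonempty h x) (supp_nonempty h' x)
    have h2 : {p | nu p x ≠ 0} = (((supp h x ×ˢ supp h' x).filter fun p =>
        ov (Lp (supp h x) (fun v => lam v x) p.1)
        (Lp (supp h x) (fun v => lam v x) p.1 + lam p.1 x)
        (Lp (supp h' x) (fun v => mu v x) p.2)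
        (Lp (supp h' x) (fun v => mu v x) p.2 + mu p.2 x) ≠ 0 : Finset (V × W)) :
          Set (V × W)) := by
      ext p
      rw [Finset.coe_filter, mem_ofPred_eq, mem_ofPred_eq, ← hnu' p x]
      exact ⟨fun hp => ⟨hsupp x hp, hp⟩, fun hp => hp.2⟩
    rw [h2, Set.ncard_coe_finset]
    have h3 := card_supp h x
    have h4 := card_supp h' x
    omega
  · intro x y hxy
    refine ⟨fun v => ?_, fun w => ?_⟩
    · rw [← hsum2 v x, ← hsum2 v y]
      exact finsum_congr fun w => hxy (v, w)
    · rw [← hsum1 w x, ← hsum1 w y]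
      exact finsum_congr fun v => hxy (v, w)

end Vale.Agent.P210.R2.H912
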