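import Vale.Agent.P210.R2.H53.RDefs
import Vale.Agent.P088.R2.H349.Hyp

/-! Regularity of very weakly harmonic functions for a metric on an open set (flat part). -/

set_option linter.all false

open scoped ContDiff Topology
open Set Filter MeasureTheory

noncomputable section

namespace Vale.Agent.P210.R2.H912

open Vale.Agent.P210.R2.H53

variable {E : Type} [NormedAddCommGroup E] [NormedSpace ℝ E] [FiniteDimensional ℝ E]
  {G : E → E →L[ℝ] E →L[ℝ] ℝ} {U : Set E} {z : E}

/-- coordinates as continuous linear forms -/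
def crd (j : Fin (Module.finrank ℝ E)) : E →L[ℝ] ℝ :=
  LinearMap.toContinuousLinearMap ((Module.finBasis ℝ E).coord j)

lemma crd_apply (j : Fin (Module.finrank ℝ E)) (v : E) :
    crd j v = (Module.finBasis ℝ E).repr v j := rfl

/-- coefficients of the inverse metric -/
def ginv (G : E → E →L[ℝ] E →L[ℝ] ℝ) (i j : Fin (Module.finrank ℝ E)) (z : E) : ℝ :=
  crd i (ContinuousLinearMap.inverse (G z) (crd j))

lemma form_eq_sum (α : E →L[ℝ] ℝ) : α = ∑ j, α (Module.finBasis ℝ E j) • crd j := by
  ext v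
  rw [ContinuousLinearMap.sum_apply]
  conv_lhs => rw [← (Module.finBasis ℝ E).sum_repr v]
  rw [map_sum]
  refine Finset.sum_congr rfl fun j _ => ?_
  rw [map_smul, ContinuousLinearMap.smul_apply, crd_apply, smul_eq_mul, smul_eq_mul, mul_comm]

lemma lapG_eq (G : E → E →L[ℝ] E →L[ℝ] ℝ) (ψ : E → ℝ) (z : E) :
    lapG G ψ z = ∑ i, ∑ j, ginv G i j z *
      (fderiv ℝ (fderiv ℝ ψ) z (Module.finBasis ℝ E i) (Module.finBasis ℝ E j) -
        fderiv ℝ ψ z (chris G z (Module.finBasis ℝ E i) (Module.finBasis ℝ E j))) := by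
  rw [lapG, LinearMap.trace_eq_matrix_trace ℝ (Module.finBasis ℝ E), Matrix.trace]
  refine Finset.sum_congr rfl fun i _ => ?_
  rw [Matrix.diag_apply, LinearMap.toMatrix_apply]
  change crd i (ContinuousLinearMap.inverse (G z) (hessG G ψ z (Module.finBasis ℝ E i))) = _
  conv_lhs => rw [form_eq_sum (hessG G ψ z (Module.finBasis ℝ E i))]
  rw [map_sum, map_sum]
  refine Finset.sum_congr rfl fun j _ => ?_
  rw [map_smul, map_smul, smul_eq_mul, mul_comm]
  rfl

lemma form_apply_repr (α : E →L[ℝ] ℝ) (v : E) :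
    α v = ∑ k, crd k v * α (Module.finBasis ℝ E k) := by
  conv_lhs => rw [form_eq_sum α]
  rw [ContinuousLinearMap.sum_apply]
  refine Finset.sum_congr rfl fun k _ => ?_
  rw [ContinuousLinearMap.smul_apply, smul_eq_mul, mul_comm]

/-- `dens * lapG` is a second order operator -/
lemma dens_mul_lapG (G : E → E →L[ℝ] E →L[ℝ] ℝ) {ψ : E → ℝ} (hψ : ContDiff ℝ ∞ ψ) (z : E) :
    dens G z * lapG G ψ z = Vale.Agent.P088.HY.op2 (Module.finBasis ℝ E)
      (fun i j z => dens G z * ginv G i j z)
      (fun k z => -(dens G z * ∑ i, ∑ j, ginv G i j z *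
        crd k (chris G z (Module.finBasis ℝ E i) (Module.finBasis ℝ E j)))) (fun _ => 0) ψ z := by
  have hd : ∀ i j, Vale.Agent.P088.HY.db (Module.finBasis ℝ E) i
      (Vale.Agent.P088.HY.db (Module.finBasis ℝ E) j ψ) z =
      fderiv ℝ (fderiv ℝ ψ) z (Module.finBasis ℝ E i) (Module.finBasis ℝ E j) := by
    intro i j
    change fderiv ℝ (fun y => fderiv ℝ ψ y (Module.finBasis ℝ E j)) z (Module.finBasis ℝ E i) = _
    have h1 : DifferentiableAt ℝ (fderiv ℝ ψ) z :=
      ((hψ.fderiv_right (m := ∞) (by simp)).differentiable (by simp)) z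
    have h2 := h1.hasFDerivAt.clm_apply
      (hasFDerivAt_const (Module.finBasis ℝ E j) z)
    rw [h2.fderiv]
    simp
  rw [Vale.Agent.P088.HY.op2]
  simp only [hd]
  rw [lapG_eq]
  have h3 : ∀ i j, fderiv ℝ ψ z (chris G z (Module.finBasis ℝ E i) (Module.finBasis ℝ E j)) =
      ∑ k, crd k (chris G z (Module.finBasis ℝ E i) (Module.finBasis ℝ E j)) *
        fderiv ℝ ψ z (Module.finBasis ℝ E k) := fun i j => form_apply_repr _ _
  simp only [h3, Vale.Agent.P088.HY.db, mul_sub, Finset.sum_sub_distrib]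
  rw [zero_mul, add_zero, sub_eq_add_neg]
  congr 1
  · rw [Finset.mul_sum]
    refine Finset.sum_congr rfl fun i _ => ?_
    rw [Finset.mul_sum]
    refine Finset.sum_congr rfl fun j _ => ?_
    ring
  · simp only [Finset.mul_sum, ← Finset.sum_neg_distrib, Finset.sum_mul]
    rw [Finset.sum_comm' (s := Finset.univ) (t := fun _ => Finset.univ)
      (t' := Finset.univ) (s' := fun _ => Finset.univ) (by simp)]
    have : ∀ k : Fin (Module.finrank ℝ E), ∀ i j : Fin (Module.finrank ℝ E), True :=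
      fun _ _ _ => trivial
    rw [Finset.sum_comm]
    symm
    rw [Finset.sum_comm]
    refine Finset.sum_congr rfl fun i _ => ?_
    rw [Finset.sum_comm]
    refine Finset.sum_congr rfl fun j _ => ?_
    refine Finset.sum_congr rfl fun k _ => ?_
    ring

lemma gram_posDef (hpos : ∀ v, v ≠ 0 → 0 < G z v v) (hsymm : ∀ v w, G z v w = G z w v) :
    (Matrix.of fun i j : Fin (Module.finrank ℝ E) =>
      G z (Module.finBasis ℝ E i) (Module.finBasis ℝ E j)).PosDef := by
  refine Matrix.PosDef.of_dotProduct_mulVec_pos ?_ fun x hx => ?_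
  · ext i j
    simp [hsymm (Module.finBasis ℝ E j)]
  · have h1 : ∑ i, x i • Module.finBasis ℝ E i ≠ 0 := by
      intro h0
      apply hx
      have := congrArg (fun v => (Module.finBasis ℝ E).repr v) h0
      ext i
      have h2 := congrArg (fun f => f i) this
      simpa [Finsupp.single_apply] using h2
    have h2 := hpos _ h1
    have h3 : star x ⬝ᵥ (Matrix.of fun i j : Fin (Module.finrank ℝ E) =>
        G z (Module.finBasis ℝ E i) (Module.finBasis ℝ E j)).mulVec x =
        G z (∑ i, x i • Module.finBasis ℝ E i) (∑ i, x i • Module.finBasis ℝ E i) := by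
      simp only [dotProduct, Matrix.mulVec, Matrix.of_apply, map_sum, map_smul,
        ContinuousLinearMap.sum_apply, ContinuousLinearMap.smul_apply, smul_eq_mul,
        Finset.mul_sum, Pi.star_apply, star_trivial]
      rw [Finset.sum_comm]
      refine Finset.sum_congr rfl fun i _ => Finset.sum_congr rfl fun j _ => ?_
      ring
    rw [h3]
    exact h2

lemma dens_pos (hpos : ∀ v, v ≠ 0 → 0 < G z v v) (hsymm : ∀ v w, G z v w = G z w v) :
    0 < dens G z := Real.sqrt_pos.2 (gram_posDef hpos hsymm).det_pos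

lemma contDiffOn_dens (hG : LocalRiem G U) : ContDiffOn ℝ ∞ (dens G) U := by
  intro z hz
  have h1 : ContDiffWithinAt ℝ ∞ (fun z => Matrix.det (Matrix.of fun i j :
      Fin (Module.finrank ℝ E) => G z (Module.finBasis ℝ E i) (Module.finBasis ℝ E j))) U z := by
    simp only [Matrix.det_apply, Matrix.of_apply]
    refine ContDiffWithinAt.sum fun σ _ => ?_
    refine ContDiffWithinAt.const_smul _ ?_
    refine contDiffWithinAt_prod fun i _ => ?_
    exact ((hG.smooth z hz).clm_apply contDiffWithinAt_const).clm_apply contDiffWithinAt_const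
  exact h1.sqrt (gram_posDef (hG.pos z hz) (hG.symm z hz)).det_pos.ne'

lemma contDiffOn_ginv (hG : LocalRiem G U) (i j : Fin (Module.finrank ℝ E)) :
    ContDiffOn ℝ ∞ (ginv G i j) U := by
  have : CompleteSpace E := FiniteDimensional.complete ℝ E
  have hinv : ContDiffOn ℝ ∞ (fun z => ContinuousLinearMap.inverse (G z)) U := by
    intro z hz
    obtain ⟨T, hT⟩ := isInvertible_of_pos (hG.pos z hz)
    have h1 : ContDiffAt ℝ ∞ ContinuousLinearMap.inverse (G z) := by
      rw [← hT]; exact contDiffAt_map_inverse T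
    exact h1.comp_contDiffWithinAt z (hG.smooth z hz)
  exact contDiffOn_const.clm_apply (hinv.clm_apply contDiffOn_const)

lemma ginv_pos (hG : LocalRiem G U) (hz : z ∈ U) (ξ : Fin (Module.finrank ℝ E) → ℝ)
    (hξ : ξ ≠ 0) : 0 < ∑ i, ∑ j, ginv G i j z * ξ i * ξ j := by
  obtain ⟨T, hT⟩ := isInvertible_of_pos (hG.pos z hz)
  set α : E →L[ℝ] ℝ := ∑ j, ξ j • crd j with hα
  have hα0 : α ≠ 0 := by
    intro h0
    apply hξ
    ext i
    have h1 := congrArg (fun T => T (Module.finBasis ℝ E i)) h0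
    simpa [hα, ContinuousLinearMap.sum_apply, crd_apply, Finsupp.single_apply] using h1
  have h1 : ∑ i, ∑ j, ginv G i j z * ξ i * ξ j = α (T.symm α) := by
    have h2 : ∀ j, ContinuousLinearMap.inverse (G z) (crd j) = T.symm (crd j) := by
      intro j
      rw [← hT, ContinuousLinearMap.inverse_equiv]
      rfl
    simp only [ginv, h2]
    conv_rhs => rw [hα]
    simp only [map_sum, map_smul, ContinuousLinearMap.sum_apply, ContinuousLinearMap.smul_apply,
      smul_eq_mul, Finset.mul_sum]
    rw [Finset.sum_comm]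
    refine Finset.sum_congr rfl fun j _ => Finset.sum_congr rfl fun i _ => ?_
    ring
  rw [h1]
  have h3 : T.symm α ≠ 0 := fun h0 => hα0 (by simpa using h0)
  have h4 := hG.pos z hz _ h3
  have h5 : G z (T.symm α) = α := by
    rw [← hT]
    exact T.apply_symm_apply α
  rwa [h5] at h4

/-- very weakly harmonic functions are smooth -/
theorem flat_reg [MeasurableSpace E] [BorelSpace E] (hG : LocalRiem G U) {O : Set E}
    (hO : IsOpen O) (hOU : O ⊆ U) (w : E → ℝ)
    (hw : AEStronglyMeasurable w (Module.finBasis ℝ E).addHaar)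
    (hw2 : ∀ k : Set E, IsCompact k → k ⊆ O →
      IntegrableOn (fun z => w z ^ 2) k (Module.finBasis ℝ E).addHaar)
    (hweak : ∀ ψ : E → ℝ, ContDiff ℝ ∞ ψ → HasCompactSupport ψ → tsupport ψ ⊆ O →
      ∫ z, w z * (dens G z * lapG G ψ z) ∂(Module.finBasis ℝ E).addHaar = 0) :
    ∃ w' : E → ℝ, ContDiffOn ℝ ∞ w' O ∧
      ∀ᵐ z ∂(Module.finBasis ℝ E).addHaar, z ∈ O → w' z = w z := by
  have h := Vale.Agent.P088.HY.rowHYP (Fin (Module.finrank ℝ E)) E
    (Module.finBasis ℝ E).addHaar (Module.finBasis ℝ E) 1 O hO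
    (fun _ _ i j z => dens G z * ginv G i j z)
    (fun _ _ k z => -(dens G z * ∑ i, ∑ j, ginv G i j z *
        crd k (chris G z (Module.finBasis ℝ E i) (Module.finBasis ℝ E j)))) (fun _ _ _ => 0)
    ?_ ?_ ?_ ?_ (fun _ => w) (fun _ _ => 0) (fun _ => hw) (fun _ => hw2) ?_ ?_
  · obtain ⟨w', h1, h2⟩ := h
    exact ⟨w' 0, h1 0, h2 0⟩
  · intro _ _ i j
    exact ((contDiffOn_dens hG).mul (contDiffOn_ginv hG i j)).mono hOU
  · intro _ _ k
    refine ContDiffOn.mono (ContDiffOn.neg ((contDiffOn_dens hG).mul ?_)) hOU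
    refine ContDiffOn.sum fun i _ => ContDiffOn.sum fun j _ => ?_
    refine (contDiffOn_ginv hG i j).mul ?_
    exact contDiffOn_const.clm_apply
      ((hG.contDiffOn_chris.clm_apply contDiffOn_const).clm_apply contDiffOn_const)
  · intro _ _
    exact contDiffOn_const
  · intro z hz ξ hξ
    rw [Matrix.det_fin_one, Matrix.of_apply]
    have h1 : ∑ i, ∑ j, dens G z * ginv G i j z * ξ i * ξ j =
        dens G z * ∑ i, ∑ j, ginv G i j z * ξ i * ξ j := by
      simp only [Finset.mul_sum]
      refine Finset.sum_congr rfl fun i _ => Finset.sum_congr rfl fun j _ => ?_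
      ring
    rw [h1]
    exact (mul_pos (dens_pos (hG.pos z (hOU hz)) (hG.symm z (hOU hz)))
      (ginv_pos hG (hOU hz) ξ hξ)).ne'
  · intro _
    exact contDiffOn_const
  · intro φ hφ
    have h1 := hweak (φ 0) (hφ 0).1 (hφ 0).2.1 (hφ 0).2.2
    simp only [Finset.univ_unique, Fin.default_eq_zero, Finset.sum_singleton, zero_mul,
      integral_zero]
    refine Eq.trans (integral_congr_ae (Eventually.of_forall fun z => ?_)) h1
    simp only
    rw [dens_mul_lapG G (hφ 0).1]

end Vale.Agent.P210.R2.H912
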