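import Vale.Agent.P210.R2.H265.WlcLoc
import Vale.Agent.P210.R2.H934.Cala
import Vale.Agent.P210.R2.H34.Calb
import Vale.Agent.P210.R2.H34.Cald
import Vale.Agent.P210.R2.H53.Cal

/-! # P210, row WLCD: the weak Laplacian comparison from its local version -/

open scoped Manifold ContDiff Topology Bundle ENNReal NNReal
open Set Metric Filter Bundle IsManifold MeasureTheory Manifold

set_option maxSynthPendingDepth 3
set_option linter.unusedSectionVars false

noncomputable section

namespace Vale.Agent.P210.R2.H912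

open H53

section

variable {E : Type} [NormedAddCommGroup E] [NormedSpace ℝ E] [FiniteDimensional ℝ E]
  [MeasurableSpace E] [BorelSpace E]
  {M : Type} [MetricSpace M] [ChartedSpace E M]
  [RiemannianBundle (fun x : M => TangentSpace 𝓘(ℝ, E) x)]
  [IsManifold 𝓘(ℝ, E) ∞ M]
  [IsContMDiffRiemannianBundle 𝓘(ℝ, E) ∞ E (fun x : M => TangentSpace 𝓘(ℝ, E) x)]
  [IsRiemannianManifold 𝓘(ℝ, E) M] [MeasurableSpace M] [BorelSpace M] [ProperSpace M]

/-- the comparison for functions with support in a small chart domain -/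
theorem wlc_piece {μ : Measure M} (hμ : IsVol E μ) {K : ℝ}
    (x : M) {e : OpenPartialHomeomorph M E} (he : e ∈ maximalAtlas 𝓘(ℝ, E) ∞ M) {z₀ : E} {ρ : ℝ}
    (hloc : ∀ (Z : E → ℝ) (D : ℝ≥0), LipschitzWith D Z → tsupport Z ⊆ ball z₀ ρ →
      (∀ z, 0 ≤ Z z) →
      -∫ z, gamG (chartG e) (fun z => dist x (e.symm z) ^ 2 / 2) Z z * dens (chartG e) z
          ∂(Module.finBasis ℝ E).addHaar ≤
        ∫ z, (Module.finrank ℝ E + K * dist x (e.symm z) ^ 2) * Z z * dens (chartG e) z
          ∂(Module.finBasis ℝ E).addHaar)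
    {w : M → ℝ} (hw : LC w) (hw0 : ∀ p, 0 ≤ w p) (hws : tsupport w ⊆ e.source ∩ e ⁻¹' ball z₀ ρ) :
    -∫ p, Gam E (fun q => dist x q ^ 2 / 2) w p ∂μ ≤
      ∫ p, (Module.finrank ℝ E + K * dist x p ^ 2) * w p ∂μ := by
  have : ProperSpace E := FiniteDimensional.proper_real E
  set u : M → ℝ := fun q => dist x q ^ 2 / 2 with hu
  set ψ : E → ℝ := e.target.indicator (w ∘ e.symm) with hψ
  have hws1 : tsupport w ⊆ e.source := fun p hp => (hws hp).1
  have hK : IsCompact (e '' tsupport w) :=
    IsCompact.image_of_continuousOn hw.2 (e.continuousOn.mono hws1)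
  have hKt : e '' tsupport w ⊆ e.target := by
    rintro _ ⟨p, hp, rfl⟩
    exact e.map_source (hws1 hp)
  have hKb : e '' tsupport w ⊆ ball z₀ ρ := by
    rintro _ ⟨p, hp, rfl⟩
    exact (hws hp).2
  have htsupp : tsupport ψ ⊆ e '' tsupport w := by
    refine closure_minimal ?_ hK.isClosed
    intro z hz
    have hzt : z ∈ e.target := by
      by_contra hn
      exact hz (indicator_of_notMem hn _)
    have h1 : w (e.symm z) ≠ 0 := by
      have : ψ z ≠ 0 := hz
      rwa [hψ, indicator_of_mem hzt] at this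
    exact ⟨e.symm z, subset_tsupport _ h1, e.right_inv hzt⟩
  have hψc : HasCompactSupport ψ := hK.of_isClosed_subset (isClosed_tsupport _) htsupp
  have hev : ∀ z ∈ e.target, w ∘ e.symm =ᶠ[𝓝 z] ψ := by
    intro z hz
    filter_upwards [e.open_target.mem_nhds hz] with y hy
    rw [hψ, indicator_of_mem hy]
  have hψl : LocallyLipschitz ψ := by
    intro z
    by_cases hz : z ∈ e.target
    · obtain ⟨K, r, hr, -, hKl⟩ := H934.comp_symm_lip he hw.ll hz
      refine ⟨K, ball z r ∩ e.target, inter_mem (ball_mem_nhds z hr) (e.open_target.mem_nhds hz), ?_⟩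
      intro x hx y hy
      rw [hψ, indicator_of_mem hx.2, indicator_of_mem hy.2]
      exact hKl hx.1 hy.1
    · refine ⟨0, (e '' tsupport w)ᶜ, hK.isClosed.isOpen_compl.mem_nhds
        (fun h => hz (hKt h)), ?_⟩
      intro x hx y hy
      rw [image_eq_zero_of_notMem_tsupport fun h => hx (htsupp h),
        image_eq_zero_of_notMem_tsupport fun h => hy (htsupp h), edist_self]
      exact zero_le
  obtain ⟨C, hC⟩ := H934.lipschitz_of_locally hψl hψc
  have hψ0 : ∀ z, 0 ≤ ψ z := fun z => indicator_nonneg (fun y _ => hw0 _) z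
  have key := hloc ψ C hC (htsupp.trans hKb) hψ0
  -- transport
  have hm : AEStronglyMeasurable (Gam E u w) (μ.restrict e.source) :=
    (H934.measurable_gam u w).aestronglyMeasurable
  have hcont : Continuous (fun p => (Module.finrank ℝ E + K * dist x p ^ 2) * w p) :=
    (by fun_prop : Continuous fun p => (Module.finrank ℝ E + K * dist x p ^ 2)).mul hw.cont
  have h4 : ∀ p ∉ e.source, Gam E u w p = 0 := fun p hp =>
    H934.gam_eq_zero u fun h => hp (hws1 h)
  have h5 : ∀ p ∉ e.source, (Module.finrank ℝ E + K * dist x p ^ 2) * w p = 0 := fun p hp => by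
    rw [image_eq_zero_of_notMem_tsupport fun h => hp (hws1 h), mul_zero]
  have h6 : ∀ z ∉ e.target, gamG (chartG e) (fun z => dist x (e.symm z) ^ 2 / 2) ψ z *
      dens (chartG e) z = 0 := by
    intro z hz
    have h7 : ψ =ᶠ[𝓝 z] fun _ => (0 : ℝ) :=
      notMem_tsupport_iff_eventuallyEq.1 fun h => hz (hKt (htsupp h))
    have h8 : fderiv ℝ ψ z = 0 := by rw [h7.fderiv_eq]; simp
    rw [gamG, gradG, h8, map_zero, map_zero, zero_mul]
  have h7 : ∀ z ∉ e.target, (Module.finrank ℝ E + K * dist x (e.symm z) ^ 2) * ψ z *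
      dens (chartG e) z = 0 := by
    intro z hz
    rw [hψ, indicator_of_notMem hz, mul_zero, zero_mul]
  rw [← setIntegral_eq_integral_of_forall_compl_eq_zero h6,
    ← setIntegral_eq_integral_of_forall_compl_eq_zero h7] at key
  rw [← setIntegral_eq_integral_of_forall_compl_eq_zero h4,
    ← setIntegral_eq_integral_of_forall_compl_eq_zero h5,
    H934.setIntegral_chart hμ he hm, H934.setIntegral_chart hμ he hcont.aestronglyMeasurable]
  refine le_trans (le_of_eq ?_) (key.trans (le_of_eq ?_))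
  · congr 1
    refine setIntegral_congr_fun e.open_target.measurableSet fun z hz => ?_
    show dens (chartG e) z * Gam E u w (e.symm z) = _
    rw [H934.gam_chart he (e.map_target hz), e.right_inv hz, mul_comm]
    simp only [gamG, gradG, (hev z hz).fderiv_eq]
    rfl
  · refine setIntegral_congr_fun e.open_target.measurableSet fun z hz => ?_
    show _ = dens (chartG e) z * ((Module.finrank ℝ E + K * dist x (e.symm z) ^ 2) * w (e.symm z))
    simp only [hψ, indicator_of_mem hz, Function.comp_apply]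
    ring

end

/-- [WLC] the weak Laplacian comparison -/
theorem wlc : Stmt.WLC := by
  intro E _ _ _ _ _ M _ _ _ _ _ _ _ _ _ hn μ K hμ hK hR x ζ hζ hζ0
  have hc : Cal E μ := cal_of H934.cala H34.calb H34.cald hn hμ
  have hex : ∀ p : M, ∃ ρ > 0, ball (chartAt E p p) ρ ⊆ (chartAt E p).target ∧
    ∀ (Z : E → ℝ) (D : ℝ≥0), LipschitzWith D Z → tsupport Z ⊆ ball (chartAt E p p) ρ →
      (∀ z, 0 ≤ Z z) →
      -∫ z, gamG (chartG (chartAt E p)) (fun z => dist x ((chartAt E p).symm z) ^ 2 / 2) Z z *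
          dens (chartG (chartAt E p)) z ∂(Module.finBasis ℝ E).addHaar ≤
        ∫ z, (Module.finrank ℝ E + K * dist x ((chartAt E p).symm z) ^ 2) * Z z *
          dens (chartG (chartAt E p)) z ∂(Module.finBasis ℝ E).addHaar := fun p =>
    H265.wlc_loc hn hK hR x (IsManifold.chart_mem_maximalAtlas p)
      ((chartAt E p).map_source (mem_chart_source E p))
  choose ρ hρ hsub hloc using hex
  set U : M → Set M := fun p => (chartAt E p).source ∩ (chartAt E p) ⁻¹' ball (chartAt E p p) (ρ p)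
    with hU
  have hUo : ∀ p, IsOpen (U p) := fun p => (chartAt E p).isOpen_inter_preimage isOpen_ball
  have hpU : ∀ p, p ∈ U p := fun p => ⟨mem_chart_source E p, mem_ball_self (hρ p)⟩
  have hζc : IsCompact (tsupport ζ) := hζ.2
  obtain ⟨T, -, hT⟩ := hζc.elim_nhds_subcover U fun p _ => (hUo p).mem_nhds (hpU p)
  have hT' : tsupport ζ ⊆ ⋃ i : T, U (i : M) := by
    intro q hq
    obtain ⟨p, hp, hqp⟩ := mem_iUnion₂.1 (hT hq)
    exact mem_iUnion.2 ⟨⟨p, hp⟩, hqp⟩
  obtain ⟨f, hf⟩ := SmoothPartitionOfUnity.exists_isSubordinate 𝓘(ℝ, E)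
    (isClosed_tsupport ζ) (fun i : T => U (i : M)) (fun i => hUo _) hT'
  have hsum : ∀ p, ζ p = ∑ i : T, f i p * ζ p := by
    intro p
    by_cases hp : p ∈ tsupport ζ
    · have h1 := f.sum_eq_one hp
      rw [finsum_eq_sum_of_fintype] at h1
      rw [← Finset.sum_mul, h1, one_mul]
    · simp [image_eq_zero_of_notMem_tsupport hp]
  have hfs : ∀ i : T, ContMDiff 𝓘(ℝ, E) 𝓘(ℝ, ℝ) ∞ (f i) := fun i => (f i).contMDiff
  have hfl : ∀ i : T, LocallyLipschitz (f i : M → ℝ) := fun i =>
    H34.locallyLipschitz_of_contMDiff (hfs i)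
  have hpLC : ∀ i : T, LC (fun p => f i p * ζ p) := fun i => LC.mul_left (hfl i) hζ
  have hul : LocallyLipschitz (fun q : M => dist x q ^ 2 / 2) := by
    have := ll_smul (1 / 2) (ll_mul (ll_dist x) (ll_dist x))
    refine (funext fun q => ?_ : (fun q : M => dist x q ^ 2 / 2) =
      fun q => (1 / 2) * (dist x q * dist x q)) ▸ this
    ring
  have hpiece : ∀ i : T, -∫ p, Gam E (fun q => dist x q ^ 2 / 2) (fun p => f i p * ζ p) p ∂μ ≤
      ∫ p, (Module.finrank ℝ E + K * dist x p ^ 2) * (f i p * ζ p) ∂μ := by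
    intro i
    exact wlc_piece hμ x (IsManifold.chart_mem_maximalAtlas (i : M)) (hloc (i : M)) (hpLC i)
      (fun p => mul_nonneg (f.nonneg i p) (hζ0 p)) ((tsupport_mul_subset_left).trans (hf i))
  have hae : ∀ᵐ p ∂μ, Gam E (fun q => dist x q ^ 2 / 2) ζ p =
      ∑ i : T, Gam E (fun q => dist x q ^ 2 / 2) (fun p => f i p * ζ p) p := by
    filter_upwards [H934.ae_mdiff hμ hζ.ll] with p hp
    set e := chartAt E p with hedef
    have he : e ∈ maximalAtlas 𝓘(ℝ, E) ∞ M := IsManifold.chart_mem_maximalAtlas p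
    have hps : p ∈ e.source := mem_chart_source E p
    have hvd : DifferentiableAt ℝ (ζ ∘ e.symm) (e p) := (H934.mdiff_iff_chart he hps ζ).1 hp
    have hfd : ∀ i : T, DifferentiableAt ℝ ((f i : M → ℝ) ∘ e.symm) (e p) := fun i =>
      ((H934.contDiffOn_chart he (hfs i)).contDiffAt
        (e.open_target.mem_nhds (e.map_source hps))).differentiableAt (by simp)
    have hprod : ∀ i : T, DifferentiableAt ℝ ((fun p => f i p * ζ p) ∘ e.symm) (e p) :=
      fun i => (hfd i).mul hvd
    have hL := H934.localRiem_chartG he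
    have hz := e.map_source hps
    have h1 : ζ ∘ e.symm = fun z => ∑ i : T, ((fun p => f i p * ζ p) ∘ e.symm) z := by
      funext z
      exact hsum (e.symm z)
    have h2 : fderiv ℝ (ζ ∘ e.symm) (e p) =
        ∑ i : T, fderiv ℝ ((fun p => f i p * ζ p) ∘ e.symm) (e p) := by
      rw [h1]
      exact fderiv_fun_sum fun i _ => hprod i
    show gamG (chartG e) ((fun q => dist x q ^ 2 / 2) ∘ e.symm) (ζ ∘ e.symm) (e p) =
      ∑ i : T, gamG (chartG e) ((fun q => dist x q ^ 2 / 2) ∘ e.symm)
        ((fun p => f i p * ζ p) ∘ e.symm) (e p)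
    rw [H934.gamG_comm hL hz, gamG, h2, sum_apply]
    refine Finset.sum_congr rfl fun i _ => ?_
    rw [H934.gamG_comm hL hz, gamG]
  have h6 : ∀ p, (Module.finrank ℝ E + K * dist x p ^ 2) * ζ p =
      ∑ i : T, (Module.finrank ℝ E + K * dist x p ^ 2) * (f i p * ζ p) := by
    intro p
    rw [← Finset.mul_sum, ← hsum p]
  have hI1 : ∀ i : T, Integrable (Gam E (fun q => dist x q ^ 2 / 2) (fun p => f i p * ζ p)) μ :=
    fun i => hc.int_gam hul (hpLC i)
  have hI2 : ∀ i : T, Integrable
      (fun p => (Module.finrank ℝ E + K * dist x p ^ 2) * (f i p * ζ p)) μ := by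
    intro i
    refine hc.int_cont ((by fun_prop : Continuous fun p =>
      (Module.finrank ℝ E + K * dist x p ^ 2)).mul (hpLC i).cont) (hpLC i).2.mul_left
  rw [integral_congr_ae hae, integral_finsetSum _ fun i _ => hI1 i, ← Finset.sum_neg_distrib]
  simp only [h6]
  rw [integral_finsetSum _ fun i _ => hI2 i]
  exact Finset.sum_le_sum fun i _ => hpiece i

end Vale.Agent.P210.R2.H912
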